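import Mathlib

/-!
A finitely generated projective module over a domain has a basis at every prime.
-/

set_option linter.unusedSectionVars false
set_option linter.unusedSimpArgs false
set_option linter.unusedVariables false

namespace Vale.Agent.Lib.P266

section LocalBasis

theorem exists_local_basis_module {A M : Type*} [CommRing A] [IsDomain A] [AddCommGroup M]
    [Module A M] [Module.Finite A M] [Module.Projective A M] (P : Ideal A) [hP : P.IsPrime] :
    ∃ (n : ℕ) (D : Fin n → M), (∀ c : Fin n → A, ∑ i, c i • D i = 0 → ∀ i, c i = 0) ∧
      ∀ D' : M, ∃ u, u ∉ P ∧ ∃ c : Fin n → A, u • D' = ∑ i, c i • D i := by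
  classical
  let S := P.primeCompl
  let B := Localization.AtPrime P
  let N := LocalizedModule S M
  let f : M →ₗ[A] N := LocalizedModule.mkLinearMap S M
  have hfree : Module.Free B N := by
    have : Module.Finite B N := inferInstanceAs
      (Module.Finite (Localization.AtPrime P) (LocalizedModule P.primeCompl M))
    have : Module.Projective B N := inferInstanceAs
      (Module.Projective (Localization.AtPrime P) (LocalizedModule P.primeCompl M))
    have : Module.Flat B N := inferInstance
    exact Module.free_of_flat_of_isLocalRing
  have hfin : Module.Finite B N := inferInstanceAs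
      (Module.Finite (Localization.AtPrime P) (LocalizedModule P.primeCompl M))
  let b := Module.finBasis B N
  have hsurj := IsLocalizedModule.mk'_surjective S f
  have hrep : ∀ i, ∃ (x : M × S), IsLocalizedModule.mk' f x.1 x.2 = b i := fun i => by
    obtain ⟨x, hx⟩ := hsurj (b i)
    exact ⟨x, hx⟩
  choose x hx using hrep
  let m : Fin (Module.finrank B N) → M := fun i => (x i).1
  let s : Fin (Module.finrank B N) → S := fun i => (x i).2
  have hsb : ∀ i, (s i : A) • b i = f (m i) := by
    intro i
    rw [← hx i]
    exact IsLocalizedModule.mk'_cancel' f _ _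
  have hinjB : Function.Injective (algebraMap A B) :=
    IsLocalization.injective B (Ideal.primeCompl_le_nonZeroDivisors P)
  have hs0 : ∀ i, (s i : A) ≠ 0 := by
    intro i h0
    exact (s i).2 (h0 ▸ P.zero_mem)
  refine ⟨_, m, ?_, ?_⟩
  · intro c hc i
    have h1 : ∑ i, (algebraMap A B (c i * s i)) • b i = 0 := by
      have h2 := congrArg f hc
      rw [map_sum, map_zero] at h2
      rw [← h2]
      apply Finset.sum_congr rfl
      intro j _
      rw [map_smul, ← hsb j, smul_smul, algebraMap_smul]
    have h3 := (Fintype.linearIndependent_iff.mp b.linearIndependent) _ h1 i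
    have h4 : c i * s i = 0 := hinjB (by rw [h3, map_zero])
    exact (mul_eq_zero.mp h4).resolve_right (hs0 i)
  · intro D'
    let r : Fin (Module.finrank B N) → B := fun i => b.repr (f D') i
    obtain ⟨t, ht⟩ := IsLocalization.exist_integer_multiples_of_finite S r
    choose a ha using ht
    let s₀ : A := ∏ i, (s i : A)
    let s' : Fin (Module.finrank B N) → A := fun i => ∏ j ∈ Finset.univ.erase i, (s j : A)
    have hs' : ∀ i, (s i : A) * s' i = s₀ := fun i =>
      Finset.mul_prod_erase Finset.univ (fun j => (s j : A)) (Finset.mem_univ i)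
    have hs₀ : s₀ ∉ P := by
      intro h
      obtain ⟨i, _, hi⟩ := (hP.prod_mem_iff).mp h
      exact (s i).2 hi
    have hsum : f D' = ∑ i, r i • b i := (b.sum_repr (f D')).symm
    have hmain : f (((t : A) * s₀) • D' - ∑ i, (a i * s' i) • m i) = 0 := by
      rw [map_sub, map_sum, map_smul, hsum, sub_eq_zero, Finset.smul_sum]
      apply Finset.sum_congr rfl
      intro i _
      have h5 : algebraMap A B (a i) = algebraMap A B (t : A) * r i := by
        rw [ha i, Algebra.smul_def]
      rw [map_smul, ← hsb i, smul_smul, ← algebraMap_smul B ((t : A) * s₀), smul_smul,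
        ← algebraMap_smul B (a i * s' i * (s i : A)), ← hs' i]
      congr 1
      simp only [map_mul, h5]
      ring
    obtain ⟨v, hv⟩ := (IsLocalizedModule.eq_zero_iff S f).mp hmain
    refine ⟨(v : A) * ((t : A) * s₀), ?_, fun i => (v : A) * (a i * s' i), ?_⟩
    · intro h
      rcases hP.mem_or_mem h with h | h
      · exact v.2 h
      · rcases hP.mem_or_mem h with h | h
        · exact t.2 h
        · exact hs₀ h
    · have h1 : (v : A) • (((t : A) * s₀) • D' - ∑ i, (a i * s' i) • m i) = 0 := hv
      rw [smul_sub, sub_eq_zero, Finset.smul_sum, smul_smul] at h1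
      rw [h1]
      exact Finset.sum_congr rfl (fun i _ => by rw [smul_smul])

end LocalBasis

end Vale.Agent.Lib.P266
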