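import Vale.Agent.Lib.P266.UnitLemma
import Vale.Agent.Lib.P266.LocalBasis

/-!
The Euler derivation has coordinates in the irrelevant ideal: the abstract form.
-/

set_option linter.unusedSectionVars false
set_option linter.unusedSimpArgs false
set_option linter.unusedVariables false

open MvPolynomial DirectSum

namespace Vale.Agent.Lib.P266

section Assemble

variable {k A L K σ ι : Type*} [Field k] [CharZero k]
  [CommRing A] [IsDomain A] [Algebra k A] [IsIntegrallyClosed A] [Algebra.FiniteType k A]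
  (𝒜 : ℕ → Submodule k A) [GradedAlgebra 𝒜]
  [Field L] [Algebra A L] [IsFractionRing A L] [Algebra k L] [IsScalarTower k A L]
  [Fintype σ] [DecidableEq σ]
  [Algebra (MvPolynomial σ k) A] [Algebra (MvPolynomial σ k) L]
  [IsScalarTower (MvPolynomial σ k) A L] [IsScalarTower k (MvPolynomial σ k) L]
  [IsScalarTower k (MvPolynomial σ k) A]
  [Field K] [CharZero K] [Algebra (MvPolynomial σ k) K] [IsFractionRing (MvPolynomial σ k) K]
  [Algebra K L] [IsScalarTower (MvPolynomial σ k) K L]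
  [Fintype ι] [DecidableEq ι]

include K in
theorem euler_coeff_of_setup (q : Ideal (MvPolynomial σ k)) [hq : q.IsPrime]
    (Pm : Ideal A) (hIP : irr 𝒜 ≤ Pm)
    (hO : ∀ O : Subring L, (∀ s, algebraMap (MvPolynomial σ k) L s ∈ O) →
      (∀ w, w ∉ q → (algebraMap (MvPolynomial σ k) L w)⁻¹ ∈ O) → (∀ x, IsIntegral O x → x ∈ O) →
      ∀ a, algebraMap A L a ∈ O)
    (hPq : ∀ P : Ideal A, P.IsPrime → P.comap (algebraMap (MvPolynomial σ k) A) = q →
      irr 𝒜 ≤ P ∧ ∀ b ∈ 𝒜 0, b ≠ 0 → b ∉ P)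
    (hE : ∀ j : σ, ∃ s ∈ q, euler 𝒜 (algebraMap (MvPolynomial σ k) A (X j)) =
      algebraMap (MvPolynomial σ k) A s)
    (D : ι → Derivation k A A)
    (hind : ∀ c : ι → A, ∑ i, c i • D i = 0 → ∀ i, c i = 0)
    (hsat : ∀ D' : Derivation k A A, ∃ u, u ∉ Pm ∧ ∃ c : ι → A, u • D' = ∑ i, c i • D i)
    (u : A) (c : ι → A) (huE : u • euler 𝒜 = ∑ i, c i • D i) (i : ι) : c i ∈ irr 𝒜 := by
  classical
  choose s hsq hs using hE
  have hP : ∀ a, a ∉ irr 𝒜 → ∀ P : Ideal A, P.IsPrime →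
      P.comap (algebraMap (MvPolynomial σ k) A) = q → a ∉ P := by
    intro a ha P hP hPc haP
    obtain ⟨h1, h2⟩ := hPq P hP hPc
    have h3 : proj0 𝒜 a ≠ 0 := fun h0 => ha (RingHom.mem_ker.mpr h0)
    apply h2 _ (proj0_mem 𝒜 a) h3
    have h4 := h1 (sub_proj0_mem 𝒜 a)
    have h5 : proj0 𝒜 a = a - (a - proj0 𝒜 a) := by ring
    rw [h5]
    exact P.sub_mem haP h4
  obtain ⟨hint, hunit⟩ := integrality_of_subrings (K := K) q (irr 𝒜) hO hP
  have hfd : FiniteDimensional K L := finiteDimensional_of_hint (k := k) (S := MvPolynomial σ k)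
    (fun c => ⟨algebraMap k (MvPolynomial σ k) c, by
      rw [IsScalarTower.algebraMap_apply k (MvPolynomial σ k) A,
        ← IsScalarTower.algebraMap_apply (MvPolynomial σ k) A L]⟩)
    (fun a => by
      obtain ⟨w, hw, h⟩ := hint a
      exact ⟨w, fun h0 => hw (h0 ▸ q.zero_mem), h⟩)
  have hsat0 : ∀ D' : Derivation k A A, ∃ u : A, u ≠ 0 ∧ ∃ c : ι → A, u • D' = ∑ i, c i • D i := by
    intro D'
    obtain ⟨u, hu, c, hc⟩ := hsat D'
    exact ⟨u, fun h0 => hu (h0 ▸ Pm.zero_mem), c, hc⟩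
  obtain ⟨C, hCM, hMC⟩ := rank_matrix (K := K) (L := L) (σ := σ) D hind hsat0
  have hcard : Fintype.card ι = Fintype.card σ := Matrix.square_of_invertible _ _ hMC hCM
  let e : σ ≃ ι := Fintype.equivOfCardEq hcard.symm
  let D' : σ → Derivation k A A := fun j => D (e j)
  have hind' : ∀ c : σ → A, ∑ i, c i • D' i = 0 → ∀ i, c i = 0 := by
    intro c' hc' i'
    have h1 := hind (fun i => c' (e.symm i)) (by
      rw [← hc', ← Equiv.sum_comp e]
      simp [D']) (e i')
    simpa using h1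
  have hsat' : ∀ E : Derivation k A A, ∃ u, u ∉ Pm ∧ ∃ c : σ → A, u • E = ∑ i, c i • D' i := by
    intro E
    obtain ⟨u', hu', c', hc'⟩ := hsat E
    refine ⟨u', hu', fun j => c' (e j), ?_⟩
    rw [hc', ← Equiv.sum_comp e]
  have hsat0' : ∀ E : Derivation k A A, ∃ u : A, u ≠ 0 ∧ ∃ c : σ → A, u • E = ∑ i, c i • D' i := by
    intro E
    obtain ⟨u, hu, c, hc⟩ := hsat' E
    exact ⟨u, fun h0 => hu (h0 ▸ Pm.zero_mem), c, hc⟩
  obtain ⟨C', hCM', hMC'⟩ := rank_matrix (K := K) (L := L) (σ := σ) D' hind' hsat0'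
  have hJ : algebraMap A L (jacOf (fun j => (X j : MvPolynomial σ k)) D') ≠ 0 := by
    have h1 : algebraMap A L (jacOf (fun j => (X j : MvPolynomial σ k)) D') =
        (Matrix.of fun i j => algebraMap A L (D' i (algebraMap (MvPolynomial σ k) A (X j)))).det := by
      show algebraMap A L (Matrix.det _) = _
      rw [RingHom.map_det]
      rfl
    rw [h1]
    exact Matrix.det_ne_zero_of_right_inverse hMC'
  have hmem := coeff_mem (K := K) (L := L) q (irr 𝒜) Pm hIP D' hind' hJ hunit hint hsat' (euler 𝒜) s hsq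
    hs u (fun j => c (e j)) (by
      rw [huE, ← Equiv.sum_comp e]) (e.symm i)
  simpa using hmem

end Assemble

end Vale.Agent.Lib.P266
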