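import Mathlib

/-!
Basic facts on derivations used for the P266 development.
-/

open Polynomial

set_option linter.unusedSectionVars false
set_option linter.unusedSimpArgs false

namespace Vale.Agent.Lib.P266

section IntKill

variable {V : Type*} [CommRing V]

/-- Chain rule modulo an ideal for polynomials whose coefficients are killed modulo that ideal. -/
lemma aeval_deriv_mem (e : V → V) (hadd : ∀ x y, e (x + y) = e x + e y)
    (hmul : ∀ x y, e (x * y) = x * e y + y * e x) (C : Subring V) (I : Ideal V)
    (hC : ∀ c ∈ C, e c ∈ I) (a : V) (P : C[X]) :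
    e (aeval a P) - aeval a (derivative P) * e a ∈ I := by
  have h0 : e 0 = 0 := by
    have := hadd 0 0
    simpa using this
  have h1 : e 1 = 0 := by
    have := hmul 1 1
    simp only [mul_one, one_mul] at this
    have h2 : e 1 + e 1 = e 1 := this.symm
    simpa using h2
  have hpow : ∀ n : ℕ, e (a ^ n) = (n : V) * a ^ (n - 1) * e a := by
    intro n
    induction n with
    | zero => simp [h1]
    | succ m hm =>
      rw [pow_succ, hmul, hm]
      cases m with
      | zero => simp [h1]
      | succ q =>
        simp only [Nat.add_sub_cancel]
        push_cast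
        ring
  induction P using Polynomial.induction_on' with
  | add p q hp hq =>
    have : e (aeval a (p + q)) - aeval a (derivative (p + q)) * e a =
        (e (aeval a p) - aeval a (derivative p) * e a) +
          (e (aeval a q) - aeval a (derivative q) * e a) := by
      simp only [map_add, hadd]; ring
    rw [this]; exact add_mem hp hq
  | monomial n c =>
    have h1' : aeval a (monomial n c) = (c : V) * a ^ n := by
      rw [aeval_monomial]; rfl
    have h2 : aeval a (derivative (monomial n c)) = (c : V) * ((n : V) * a ^ (n - 1)) := by
      rw [derivative_monomial, aeval_monomial]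
      simp only [map_mul, map_natCast]
      show ((c : V) * (n : V)) * a ^ (n - 1) = _
      ring
    rw [h1', h2, hmul, hpow]
    have : (c : V) * ((n : V) * a ^ (n - 1) * e a) + a ^ n * e (c : V) -
        (c : V) * ((n : V) * a ^ (n - 1)) * e a = a ^ n * e (c : V) := by
      ring
    rw [this]
    exact I.mul_mem_left _ (hC _ c.2)

/-- If a map with the Leibniz rule preserves a prime ideal `I` and maps a subring `C`, in which
positive integers are invertible, into `I`, then it maps every element integral over `C`
into `I`. -/
theorem deriv_mem_of_isIntegral (e : V → V) (hadd : ∀ x y, e (x + y) = e x + e y)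
    (hmul : ∀ x y, e (x * y) = x * e y + y * e x) (C : Subring V) (I : Ideal V)
    [hI : I.IsPrime] (hC : ∀ c ∈ C, e c ∈ I) (hII : ∀ x ∈ I, e x ∈ I)
    (hq : ∀ n : ℕ, n ≠ 0 → ∃ c ∈ C, c * (n : V) = 1) (a : V)
    (ha : IsIntegral C a) : e a ∈ I := by
  classical
  have : Nontrivial V :=
    nontrivial_of_ne (1 : V) 0 (fun h => hI.ne_top (I.eq_top_iff_one.mpr (h ▸ I.zero_mem)))
  -- minimal degree monic polynomial with value in `I`
  have hex : ∃ n : ℕ, ∃ P : C[X], P.Monic ∧ P.natDegree = n ∧ aeval a P ∈ I := by
    obtain ⟨P, hPm, hP⟩ := ha
    refine ⟨P.natDegree, P, hPm, rfl, ?_⟩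
    have : aeval a P = 0 := hP
    rw [this]; exact I.zero_mem
  set n := Nat.find hex with hn
  obtain ⟨P, hPm, hPn, hP⟩ := Nat.find_spec hex
  rw [← hn] at hPn
  have hn0 : n ≠ 0 := by
    intro h0
    have : P = 1 := (Polynomial.Monic.natDegree_eq_zero hPm).mp (hPn.trans h0)
    rw [this, map_one] at hP
    exact hI.ne_top ((Ideal.eq_top_iff_one _).mpr hP)
  -- The derivative, normalized, is monic of smaller degree.
  have hder : aeval a (derivative P) ∉ I := by
    intro hmem
    obtain ⟨c0, hc0, hc0n⟩ := hq n hn0
    let c : C := ⟨c0, hc0⟩
    let Q : C[X] := Polynomial.C c * derivative P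
    have hcoe : (c : C) * (n : C) = 1 := by
      apply Subtype.ext
      simpa using hc0n
    have hle : Q.natDegree ≤ n - 1 := by
      refine (natDegree_C_mul_le _ _).trans ?_
      rw [← hPn]; exact natDegree_derivative_le P
    have hcoef : Q.coeff (n - 1) = 1 := by
      have hn1 : n - 1 + 1 = n := by omega
      rw [coeff_C_mul, coeff_derivative, hn1, ← hPn, hPm.coeff_natDegree, one_mul]
      rw [hPn]
      have : ((n - 1 : ℕ) : C) + 1 = (n : C) := by
        rw [← Nat.cast_succ, Nat.succ_eq_add_one, hn1]
      rw [this]; exact hcoe
    have hQm : Q.Monic := monic_of_natDegree_le_of_coeff_eq_one _ hle hcoef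
    have hQd : Q.natDegree = n - 1 :=
      le_antisymm hle (le_natDegree_of_ne_zero (by rw [hcoef]; exact one_ne_zero))
    have hQval : aeval a Q ∈ I := by
      rw [map_mul]; exact I.mul_mem_left _ hmem
    have hlt : n - 1 < n := by omega
    exact Nat.find_min hex hlt ⟨Q, hQm, hQd, hQval⟩
  have h := aeval_deriv_mem e hadd hmul C I hC a P
  have h2 : e (aeval a P) ∈ I := hII _ hP
  have h3 : aeval a (derivative P) * e a ∈ I := by
    have := sub_mem h2 h
    simpa using this
  exact (hI.mem_or_mem h3).resolve_left hder

end IntKill

end Vale.Agent.Lib.P266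

namespace Vale.Agent.Lib.P266

section SumApply

variable {k V ι : Type*} [Field k] [CommRing V] [Algebra k V]

lemma sum_smul_deriv_apply (s : Finset ι) (c : ι → V) (D : ι → Derivation k V V) (x : V) :
    (∑ i ∈ s, c i • D i) x = ∑ i ∈ s, c i * D i x := by
  classical
  induction s using Finset.induction_on with
  | empty => simp
  | insert a s ha ih => simp [Finset.sum_insert ha, ih]

end SumApply

section Chain

variable {k V σ : Type*} [CommRing k] [CommRing V] [Algebra k V] [Fintype σ] [DecidableEq σ]

/-- Chain rule for polynomial expressions. -/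
theorem chain_rule (D : Derivation k V V) (z : σ → V) (F : MvPolynomial σ k) :
    D (MvPolynomial.aeval z F) =
      ∑ j, MvPolynomial.aeval z (MvPolynomial.pderiv j F) * D (z j) := by
  induction F using MvPolynomial.induction_on with
  | C c =>
    simp
  | add p q hp hq =>
    simp only [map_add, hp, hq, add_mul, Finset.sum_add_distrib]
  | mul_X p i hp =>
    have h1 : ∀ j, MvPolynomial.aeval z (MvPolynomial.pderiv j (p * MvPolynomial.X i)) * D (z j) =
        (MvPolynomial.aeval z p * (if j = i then D (z j) else 0)) +
          z i * (MvPolynomial.aeval z (MvPolynomial.pderiv j p) * D (z j)) := by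
      intro j
      rw [Derivation.leibniz, MvPolynomial.pderiv_X]
      simp only [smul_eq_mul, map_add, map_mul, MvPolynomial.aeval_X, Pi.single_apply]
      by_cases h : j = i
      · subst h; simp; ring
      · simp [h, Ne.symm h]; ring
    rw [Finset.sum_congr rfl (fun j _ => h1 j), Finset.sum_add_distrib, ← Finset.mul_sum,
      ← Finset.mul_sum, ← hp]
    simp only [map_mul, MvPolynomial.aeval_X, Derivation.leibniz, smul_eq_mul,
      Finset.sum_ite_eq', Finset.mem_univ, if_true]

end Chain

section FracExt

variable {k A L : Type*} [Field k] [CommRing A] [IsDomain A] [Algebra k A] [Field L]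
  [Algebra A L] [IsFractionRing A L] [Algebra k L] [IsScalarTower k A L]

variable (A) in
/-- A choice of numerator and denominator for an element of the fraction field. -/
noncomputable def fracPair (x : L) : A × A :=
  Classical.choose (show ∃ p : A × A, p.2 ∈ nonZeroDivisors A ∧
      algebraMap A L p.1 / algebraMap A L p.2 = x by
    obtain ⟨a, b, hb, h⟩ := IsFractionRing.div_surjective (A := A) x
    exact ⟨(a, b), hb, h⟩)

lemma fracPair_spec (x : L) : (fracPair A x).2 ∈ nonZeroDivisors A ∧
    algebraMap A L (fracPair A x).1 / algebraMap A L (fracPair A x).2 = x :=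
  Classical.choose_spec (show ∃ p : A × A, p.2 ∈ nonZeroDivisors A ∧
      algebraMap A L p.1 / algebraMap A L p.2 = x by
    obtain ⟨a, b, hb, h⟩ := IsFractionRing.div_surjective (A := A) x
    exact ⟨(a, b), hb, h⟩)

/-- The underlying function of the extension of a derivation to the fraction field. -/
noncomputable def fracFun (D : Derivation k A A) (x : L) : L :=
  (algebraMap A L (D (fracPair A x).1) * algebraMap A L (fracPair A x).2 -
    algebraMap A L (fracPair A x).1 * algebraMap A L (D (fracPair A x).2)) /
    (algebraMap A L (fracPair A x).2) ^ 2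

lemma fracFun_eq (D : Derivation k A A) (a b : A) (hb : b ≠ 0) :
    fracFun (L := L) D (algebraMap A L a / algebraMap A L b) =
      (algebraMap A L (D a) * algebraMap A L b - algebraMap A L a * algebraMap A L (D b)) /
        (algebraMap A L b) ^ 2 := by
  have hinj := IsFractionRing.injective A L
  set x : L := algebraMap A L a / algebraMap A L b with hx
  have h := fracPair_spec (A := A) x
  unfold fracFun
  set a' := (fracPair A x).1 with ha'
  set b' := (fracPair A x).2 with hb'
  have hb'0 : b' ≠ 0 := nonZeroDivisors.ne_zero h.1
  have hbL : algebraMap A L b ≠ 0 := by simpa using (map_ne_zero_iff _ hinj).mpr hb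
  have hb'L : algebraMap A L b' ≠ 0 := by simpa using (map_ne_zero_iff _ hinj).mpr hb'0
  have hcross : a' * b = a * b' := by
    apply hinj
    have := h.2
    rw [hx, div_eq_div_iff hb'L hbL] at this
    simpa using this
  have hder := congrArg D hcross
  simp only [Derivation.leibniz, smul_eq_mul] at hder
  have hcrossL := congrArg (algebraMap A L) hcross
  have hderL := congrArg (algebraMap A L) hder
  simp only [map_mul, map_add] at hcrossL hderL
  rw [div_eq_div_iff (pow_ne_zero 2 hb'L) (pow_ne_zero 2 hbL)]
  linear_combination (algebraMap A L b * algebraMap A L b') * hderL -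
    (algebraMap A L (D b') * algebraMap A L b + algebraMap A L (D b) * algebraMap A L b') * hcrossL

lemma algebraMap_smul_aux (c : k) (a : A) :
    algebraMap A L (c • a) = algebraMap k L c * algebraMap A L a := by
  rw [Algebra.smul_def, map_mul, ← IsScalarTower.algebraMap_apply]

/-- Extension of a derivation of a domain to its fraction field. -/
noncomputable def fracExt (D : Derivation k A A) : Derivation k L L :=
  Derivation.mk'
    { toFun := fracFun D
      map_add' := by
        intro x y
        obtain ⟨a, b, hb, rfl⟩ := IsFractionRing.div_surjective (A := A) x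
        obtain ⟨c, d, hd, rfl⟩ := IsFractionRing.div_surjective (A := A) y
        have hb0 := nonZeroDivisors.ne_zero hb
        have hd0 := nonZeroDivisors.ne_zero hd
        have hinj := IsFractionRing.injective A L
        have hbL : algebraMap A L b ≠ 0 := by simpa using (map_ne_zero_iff _ hinj).mpr hb0
        have hdL : algebraMap A L d ≠ 0 := by simpa using (map_ne_zero_iff _ hinj).mpr hd0
        have : algebraMap A L a / algebraMap A L b + algebraMap A L c / algebraMap A L d =
            algebraMap A L (a * d + c * b) / algebraMap A L (b * d) := by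
          simp only [map_add, map_mul]; field_simp
        rw [this, fracFun_eq D _ _ (mul_ne_zero hb0 hd0), fracFun_eq D _ _ hb0, fracFun_eq D _ _ hd0]
        simp only [map_add, map_mul, Derivation.leibniz, smul_eq_mul]
        field_simp
        ring
      map_smul' := by
        intro c x
        obtain ⟨a, b, hb, rfl⟩ := IsFractionRing.div_surjective (A := A) x
        have hb0 := nonZeroDivisors.ne_zero hb
        have hinj := IsFractionRing.injective A L
        have hbL : algebraMap A L b ≠ 0 := by simpa using (map_ne_zero_iff _ hinj).mpr hb0
        have : c • (algebraMap A L a / algebraMap A L b) =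
            algebraMap A L (c • a) / algebraMap A L b := by
          rw [algebraMap_smul_aux, Algebra.smul_def]
          ring
        simp only [RingHom.id_apply]
        rw [this, fracFun_eq D _ _ hb0, fracFun_eq D _ _ hb0, D.map_smul, algebraMap_smul_aux,
          algebraMap_smul_aux, Algebra.smul_def]
        ring }
    (by
      intro x y
      obtain ⟨a, b, hb, rfl⟩ := IsFractionRing.div_surjective (A := A) x
      obtain ⟨c, d, hd, rfl⟩ := IsFractionRing.div_surjective (A := A) y
      have hb0 := nonZeroDivisors.ne_zero hb
      have hd0 := nonZeroDivisors.ne_zero hd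
      have hinj := IsFractionRing.injective A L
      have hbL : algebraMap A L b ≠ 0 := by simpa using (map_ne_zero_iff _ hinj).mpr hb0
      have hdL : algebraMap A L d ≠ 0 := by simpa using (map_ne_zero_iff _ hinj).mpr hd0
      have : algebraMap A L a / algebraMap A L b * (algebraMap A L c / algebraMap A L d) =
          algebraMap A L (a * c) / algebraMap A L (b * d) := by
        simp only [map_mul]; field_simp
      simp only [AddHom.toFun_eq_coe, LinearMap.coe_toAddHom, LinearMap.coe_mk, AddHom.coe_mk]
      rw [this, fracFun_eq D _ _ (mul_ne_zero hb0 hd0), fracFun_eq D _ _ hb0, fracFun_eq D _ _ hd0]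
      simp only [map_add, map_mul, Derivation.leibniz, smul_eq_mul]
      field_simp
      ring)

@[simp] lemma fracExt_algebraMap (D : Derivation k A A) (a : A) :
    fracExt (L := L) D (algebraMap A L a) = algebraMap A L (D a) := by
  have h1 : algebraMap A L a = algebraMap A L a / algebraMap A L 1 := by simp
  show fracFun D (algebraMap A L a) = _
  rw [h1, fracFun_eq D a 1 one_ne_zero]
  simp

/-- Quotient rule for a derivation of a field. -/
lemma deriv_div_eq (D : Derivation k L L) (a b : L) (hb : b ≠ 0) :
    D (a / b) = (D a * b - a * D b) / b ^ 2 := by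
  have h : a = a / b * b := by field_simp
  have h2 := congrArg D h
  rw [Derivation.leibniz] at h2
  simp only [smul_eq_mul] at h2
  rw [eq_div_iff (pow_ne_zero 2 hb)]
  rw [h2]
  field_simp
  ring

/-- Two derivations of the fraction field agreeing on the ring agree. -/
lemma deriv_ext_frac (D₁ D₂ : Derivation k L L)
    (h : ∀ a : A, D₁ (algebraMap A L a) = D₂ (algebraMap A L a)) : D₁ = D₂ := by
  ext x
  obtain ⟨a, b, hb, rfl⟩ := IsFractionRing.div_surjective (A := A) x
  have hb0 := nonZeroDivisors.ne_zero hb
  have hinj := IsFractionRing.injective A L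
  have hbL : algebraMap A L b ≠ 0 := by simpa using (map_ne_zero_iff _ hinj).mpr hb0
  rw [deriv_div_eq D₁ _ _ hbL, deriv_div_eq D₂ _ _ hbL, h, h]

end FracExt

end Vale.Agent.Lib.P266

namespace Vale.Agent.Lib.P266

section Restrict

variable {k A L : Type*} [Field k] [CommRing A] [IsDomain A] [Algebra k A] [Field L]
  [Algebra A L] [IsFractionRing A L] [Algebra k L] [IsScalarTower k A L]

/-- A derivation of the fraction field preserving the ring restricts to the ring. -/
theorem exists_der_of_stable (E : Derivation k L L)
    (h : ∀ a : A, ∃ a', E (algebraMap A L a) = algebraMap A L a') :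
    ∃ D : Derivation k A A, ∀ a, algebraMap A L (D a) = E (algebraMap A L a) := by
  have hinj : Function.Injective (algebraMap A L) := IsFractionRing.injective A L
  have hsm : ∀ (c : k) (x : A), algebraMap A L (c • x) = c • algebraMap A L x := fun c x => by
    rw [Algebra.smul_def, map_mul, ← IsScalarTower.algebraMap_apply, ← Algebra.smul_def]
  choose e he using h
  refine ⟨Derivation.mk' { toFun := e
                           map_add' := by
                             intro x y
                             apply hinj
                             rw [← he, map_add, map_add, map_add, he, he]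
                           map_smul' := by
                             intro c x
                             apply hinj
                             rw [← he, RingHom.id_apply, hsm, hsm, E.map_smul, he] }
      (by
        intro x y
        apply hinj
        show algebraMap A L (e (x * y)) = algebraMap A L (x • e y + y • e x)
        rw [← he, map_mul, Derivation.leibniz, he, he]
        simp only [smul_eq_mul, map_add, map_mul]), fun a => (he a).symm⟩

end Restrict

section FG

variable {k A L : Type*} [Field k] [CommRing A] [Algebra k A] [Algebra.FiniteType k A] [Field L]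
  [Algebra A L] [Algebra k L] [IsScalarTower k A L]

/-- Clearing denominators of a derivation on a finitely generated algebra. -/
theorem exists_common_denominator (E : Derivation k L L) (P : Ideal A) [hP : P.IsPrime]
    (h : ∀ a : A, ∃ m, m ∉ P ∧ ∃ a', algebraMap A L m * E (algebraMap A L a) = algebraMap A L a') :
    ∃ s, s ∉ P ∧ ∀ a : A, ∃ a', algebraMap A L s * E (algebraMap A L a) = algebraMap A L a' := by
  classical
  obtain ⟨t, ht⟩ := (Algebra.FiniteType.out : (⊤ : Subalgebra k A).FG)
  choose m hm a' ha' using h
  refine ⟨∏ ξ ∈ t, m ξ, ?_, ?_⟩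
  · intro hmem
    obtain ⟨ξ, _, hξ⟩ := (hP.prod_mem_iff).mp hmem
    exact hm ξ hξ
  · intro a
    have ha : a ∈ Algebra.adjoin k (t : Set A) := by rw [ht]; trivial
    induction ha using Algebra.adjoin_induction with
    | mem x hx =>
      have hx' : x ∈ t := hx
      refine ⟨(∏ ξ ∈ t.erase x, m ξ) * a' x, ?_⟩
      rw [← Finset.mul_prod_erase t m hx', map_mul, map_mul, ← ha']
      ring
    | algebraMap c =>
      refine ⟨0, ?_⟩
      rw [← IsScalarTower.algebraMap_apply]
      simp
    | add x y _ _ hx hy =>
      obtain ⟨x', hx'⟩ := hx
      obtain ⟨y', hy'⟩ := hy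
      refine ⟨x' + y', ?_⟩
      rw [map_add, map_add, map_add, mul_add, hx', hy']
    | mul x y _ _ hx hy =>
      obtain ⟨x', hx'⟩ := hx
      obtain ⟨y', hy'⟩ := hy
      refine ⟨x * y' + y * x', ?_⟩
      rw [map_mul, Derivation.leibniz, map_add, map_mul, map_mul, ← hx', ← hy']
      simp only [smul_eq_mul]
      ring

end FG

end Vale.Agent.Lib.P266
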