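import Vale.Agent.Lib.P266.Rank

/-!
The coordinates of a derivation sending the variables into a prime `q`: the trace argument.
-/

set_option linter.unusedSectionVars false
set_option linter.unusedSimpArgs false
set_option linter.unusedVariables false

open MvPolynomial

namespace Vale.Agent.Lib.P266

section CoeffMem

variable {k A L K σ : Type*} [Field k] [CharZero k]
  [CommRing A] [IsDomain A] [Algebra k A] [IsIntegrallyClosed A] [Algebra.FiniteType k A]
  [Field L] [Algebra A L] [IsFractionRing A L] [Algebra k L] [IsScalarTower k A L]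
  [Fintype σ] [DecidableEq σ]
  [Algebra (MvPolynomial σ k) A] [Algebra (MvPolynomial σ k) L]
  [IsScalarTower (MvPolynomial σ k) A L] [IsScalarTower k (MvPolynomial σ k) L]
  [Field K] [CharZero K] [Algebra (MvPolynomial σ k) K] [IsFractionRing (MvPolynomial σ k) K]
  [Algebra K L] [IsScalarTower (MvPolynomial σ k) K L] [FiniteDimensional K L]

include K in
/-- **Trace argument.**  Suppose elements outside the ideal `I` become units after inverting
the complement of the prime `q`, the algebra is integral over the polynomial ring after inverting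
the complement of `q`, and the `D i` form a basis of derivations at a prime containing `I`, with
invertible Jacobian.  Then any derivation sending the variables into `q` has its coordinates in
`I`. -/
theorem coeff_mem (q : Ideal (MvPolynomial σ k)) [hq : q.IsPrime] (I Pm : Ideal A) (hI : I ≤ Pm)
    (D : σ → Derivation k A A)
    (hind : ∀ c : σ → A, ∑ i, c i • D i = 0 → ∀ i, c i = 0)
    (hJ : algebraMap A L (jacOf (fun j => (X j : MvPolynomial σ k)) D) ≠ 0)
    (hunit : ∀ a, a ∉ I → ∃ a' w, w ∉ q ∧ a * a' = algebraMap (MvPolynomial σ k) A w)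
    (hint : ∀ a : A, ∃ w, w ∉ q ∧
      IsIntegral (MvPolynomial σ k) (algebraMap (MvPolynomial σ k) A w * a))
    (hsat : ∀ D' : Derivation k A A, ∃ u, u ∉ Pm ∧ ∃ c : σ → A, u • D' = ∑ i, c i • D i)
    (E : Derivation k A A) (s : σ → MvPolynomial σ k) (hs : ∀ j, s j ∈ q)
    (hE : ∀ j, E (algebraMap (MvPolynomial σ k) A (X j)) = algebraMap (MvPolynomial σ k) A (s j))
    (u : A) (c : σ → A) (huE : u • E = ∑ i, c i • D i) (i₁ : σ) : c i₁ ∈ I := by
  classical
  by_contra hcI
  obtain ⟨a', w, hw, hca⟩ := hunit _ hcI
  -- the hypothesis for the trace theorem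
  have hsat' : ∀ g, Prime g → g ∈ q → ∀ P : Ideal A, P.IsPrime →
      P.comap (algebraMap (MvPolynomial σ k) A) = Ideal.span {g} →
      ∀ D' : Derivation k A A, ∃ u, u ∉ P ∧ ∃ c : σ → A, u • D' = ∑ i, c i • D i := by
    intro g hg hgq P hP hPc D'
    have hPI : P ≤ I := by
      intro x hx
      by_contra hxI
      obtain ⟨b, v, hv, hxb⟩ := hunit x hxI
      have h1 : v ∈ P.comap (algebraMap (MvPolynomial σ k) A) := by
        rw [Ideal.mem_comap, ← hxb]
        exact P.mul_mem_right _ hx
      rw [hPc, Ideal.mem_span_singleton] at h1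
      exact hv (q.mem_of_dvd h1 hgq)
    obtain ⟨u', hu', c', hc'⟩ := hsat D'
    exact ⟨u', fun h => hu' (hI (hPI h)), c', hc'⟩
  have htr := trace_div_jac_prime (K := K) (L := L) q D hind hsat' hint
  -- Cramer
  let N : Matrix σ σ A := Matrix.of fun i j => D i (algebraMap (MvPolynomial σ k) A (X j))
  have hNdet : N.det = jacOf (fun j => (X j : MvPolynomial σ k)) D := rfl
  let b : σ → A := fun j => u * algebraMap (MvPolynomial σ k) A (s j)
  have hmv : N.transpose.mulVec c = b := by
    funext j
    have h1 := congrArg (fun F : Derivation k A A => F (algebraMap (MvPolynomial σ k) A (X j))) huE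
    simp only [sum_smul_deriv_apply, Derivation.smul_apply, smul_eq_mul, hE] at h1
    simp only [b, Matrix.mulVec, dotProduct, Matrix.transpose_apply, N, Matrix.of_apply]
    rw [h1]
    exact Finset.sum_congr rfl (fun i _ => mul_comm _ _)
  have hcr : N.det • c = N.transpose.adjugate.mulVec b := by
    rw [← hmv, Matrix.mulVec_mulVec, Matrix.adjugate_mul, Matrix.det_transpose, Matrix.smul_mulVec,
      Matrix.one_mulVec]
  have hcr1 : N.det * c i₁ = ∑ j, N.transpose.adjugate i₁ j * b j := by
    have := congrFun hcr i₁
    simpa [Matrix.mulVec, dotProduct] using this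
  let e : σ → A := fun j => N.transpose.adjugate i₁ j * u * a'
  have hmain : N.det * algebraMap (MvPolynomial σ k) A w =
      ∑ j, algebraMap (MvPolynomial σ k) A (s j) * e j := by
    rw [← hca, ← mul_assoc, hcr1, Finset.sum_mul]
    apply Finset.sum_congr rfl
    intro j _
    simp only [b, e]
    ring
  -- in the field
  set J : L := algebraMap A L (jacOf (fun j => (X j : MvPolynomial σ k)) D) with hJdef
  have hmainL : algebraMap (MvPolynomial σ k) L w =
      ∑ j, algebraMap (MvPolynomial σ k) L (s j) * (algebraMap A L (e j) / J) := by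
    have h1 := congrArg (algebraMap A L) hmain
    rw [map_mul, map_sum, hNdet, ← hJdef, ← IsScalarTower.algebraMap_apply] at h1
    have h2 : ∀ j, algebraMap A L (algebraMap (MvPolynomial σ k) A (s j) * e j) =
        algebraMap (MvPolynomial σ k) L (s j) * algebraMap A L (e j) := by
      intro j
      rw [map_mul, ← IsScalarTower.algebraMap_apply]
    simp only [h2] at h1
    have h3 : ∑ j, algebraMap (MvPolynomial σ k) L (s j) * (algebraMap A L (e j) / J) =
        (∑ j, algebraMap (MvPolynomial σ k) L (s j) * algebraMap A L (e j)) / J := by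
      rw [Finset.sum_div]
      exact Finset.sum_congr rfl (fun j _ => by ring)
    rw [h3, ← h1]
    field_simp
  -- take traces
  have htrace := congrArg (Algebra.trace K L) hmainL
  have htr1 : ∀ j, Algebra.trace K L (algebraMap (MvPolynomial σ k) L (s j) *
      (algebraMap A L (e j) / J)) = algebraMap (MvPolynomial σ k) K (s j) *
        Algebra.trace K L (algebraMap A L (e j) / J) := by
    intro j
    rw [IsScalarTower.algebraMap_apply (MvPolynomial σ k) K L, ← Algebra.smul_def, map_smul,
      smul_eq_mul]
  rw [IsScalarTower.algebraMap_apply (MvPolynomial σ k) K L, Algebra.trace_algebraMap, map_sum]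
    at htrace
  simp only [htr1] at htrace
  choose s' w' hw' heq using fun j => htr (e j)
  let W : MvPolynomial σ k := ∏ j, w' j
  have hW : W ∉ q := by
    intro h
    obtain ⟨j, _, hj⟩ := (hq.prod_mem_iff).mp h
    exact hw' j hj
  let W' : σ → MvPolynomial σ k := fun j => ∏ l ∈ Finset.univ.erase j, w' l
  have hW' : ∀ j, w' j * W' j = W := fun j => Finset.mul_prod_erase _ _ (Finset.mem_univ j)
  have hS : W * ((Module.finrank K L : MvPolynomial σ k) * w) = ∑ j, s j * (W' j * s' j) := by
    apply IsFractionRing.injective (MvPolynomial σ k) K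
    rw [map_mul, map_mul, map_natCast, map_sum]
    have h1 : algebraMap (MvPolynomial σ k) K W * ((Module.finrank K L : K) *
        algebraMap (MvPolynomial σ k) K w) = algebraMap (MvPolynomial σ k) K W *
        (Module.finrank K L • algebraMap (MvPolynomial σ k) K w) := by
      rw [nsmul_eq_mul]
    rw [h1, htrace, Finset.mul_sum]
    apply Finset.sum_congr rfl
    intro j _
    have h2 := heq j
    have h3 : algebraMap (MvPolynomial σ k) K W =
        algebraMap (MvPolynomial σ k) K (w' j) * algebraMap (MvPolynomial σ k) K (W' j) := by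
      rw [← hW' j, map_mul]
    have h4 : algebraMap (MvPolynomial σ k) K (s j * (W' j * s' j)) =
        algebraMap (MvPolynomial σ k) K (s j) * (algebraMap (MvPolynomial σ k) K (W' j) *
          algebraMap (MvPolynomial σ k) K (s' j)) := by
      rw [map_mul, map_mul]
    rw [h3, h4, ← h2]
    ring
  have hmem : W * ((Module.finrank K L : MvPolynomial σ k) * w) ∈ q := by
    rw [hS]
    exact Ideal.sum_mem _ (fun j _ => q.mul_mem_right _ (hs j))
  have hfr : (Module.finrank K L : MvPolynomial σ k) ∉ q := by
    intro h
    have hpos : 0 < Module.finrank K L := Module.finrank_pos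
    have h0 : (Module.finrank K L : k) ≠ 0 := Nat.cast_ne_zero.mpr hpos.ne'
    have h1 : MvPolynomial.C (Module.finrank K L : k)⁻¹ * (Module.finrank K L : MvPolynomial σ k) = 1 := by
      have h2 : (Module.finrank K L : MvPolynomial σ k) = MvPolynomial.C (Module.finrank K L : k) := by
        simp
      rw [h2, ← map_mul, inv_mul_cancel₀ h0, map_one]
    apply hq.ne_top
    rw [Ideal.eq_top_iff_one, ← h1]
    exact q.mul_mem_left _ h
  rcases hq.mem_or_mem hmem with h | h
  · exact hW h
  · rcases hq.mem_or_mem h with h | h
    · exact hfr h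
    · exact hw h

end CoeffMem

end Vale.Agent.Lib.P266
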