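import Vale.Agent.Lib.P266.Assemble

/-!
The Euler derivation has coordinates in the irrelevant ideal: concrete setup over the polynomial
ring in a graded Noether normalization.
-/

set_option linter.unusedSectionVars false
set_option linter.unusedSimpArgs false
set_option linter.unusedVariables false
set_option linter.style.haveILetI false

open MvPolynomial DirectSum

namespace Vale.Agent.Lib.P266

section Concrete

variable {k A L ι : Type*} [Field k] [CharZero k]
  [CommRing A] [IsDomain A] [Algebra k A] [IsIntegrallyClosed A] [Algebra.FiniteType k A]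
  (𝒜 : ℕ → Submodule k A) [GradedAlgebra 𝒜]
  [Field L] [Algebra A L] [IsFractionRing A L] [Algebra k L] [IsScalarTower k A L]
  [Fintype ι] [DecidableEq ι]
  {t m : ℕ} [Algebra (MvPolynomial (Fin t) k) A] [IsScalarTower k (MvPolynomial (Fin t) k) A]
  [Algebra (MvPolynomial (Fin t) k) L] [IsScalarTower (MvPolynomial (Fin t) k) A L]

include L in
theorem euler_coeff_concrete
    (hDf : ∀ d, algebraMap (MvPolynomial (Fin t) k) A d ∈ 𝒜 0)
    (hinj : Function.Injective (algebraMap (MvPolynomial (Fin t) k) A))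
    (hint0 : ∀ b ∈ 𝒜 0, IsIntegral (MvPolynomial (Fin t) k) b)
    (y : Fin m → A) (hAlg : AlgebraicIndependent (MvPolynomial (Fin t) k) y)
    (N : ℕ) (hN : N ≠ 0) (hyN : ∀ j, y j ∈ 𝒜 N)
    (G : Finset A) (hG : Algebra.adjoin (𝒜 0) (G : Set A) = ⊤)
    (hGpos : ∀ x ∈ G, ∃ n, n ≠ 0 ∧ x ∈ 𝒜 n)
    (hC1 : ∀ O : Subring L, (∀ d, algebraMap (MvPolynomial (Fin t) k) L d ∈ O) →
      (∀ d, d ≠ 0 → (algebraMap (MvPolynomial (Fin t) k) L d)⁻¹ ∈ O) →
      (∀ x, IsIntegral O x → x ∈ O) → (∀ j, algebraMap A L (y j) ∈ O) →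
      ∀ g ∈ G, algebraMap A L g ∈ O)
    (hC2 : ∀ P : Ideal A, P.IsPrime →
      (∀ d, d ≠ 0 → algebraMap (MvPolynomial (Fin t) k) A d ∉ P) → (∀ j, y j ∈ P) →
      ∀ g ∈ G, g ∈ P)
    (Pm : Ideal A) (hIP : irr 𝒜 ≤ Pm)
    (D : ι → Derivation k A A)
    (hind : ∀ c : ι → A, ∑ i, c i • D i = 0 → ∀ i, c i = 0)
    (hsat : ∀ D' : Derivation k A A, ∃ u, u ∉ Pm ∧ ∃ c : ι → A, u • D' = ∑ i, c i • D i)
    (u : A) (c : ι → A) (huE : u • euler 𝒜 = ∑ i, c i • D i) (i : ι) : c i ∈ irr 𝒜 := by
  classical
  let Df := MvPolynomial (Fin t) k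
  let S := MvPolynomial (Fin m ⊕ Fin t) k
  let z : Fin m ⊕ Fin t → A := Sum.elim y (fun l => algebraMap Df A (X l))
  let zAlg : S →ₐ[k] A := aeval z
  have hzfun : ∀ d : Df, zAlg (rename Sum.inr d) = algebraMap Df A d := by
    intro d
    show aeval z (rename Sum.inr d) = _
    rw [aeval_rename]
    have h1 := MvPolynomial.aeval_unique (IsScalarTower.toAlgHom k Df A)
    have h2 := congrArg (fun f => f d) h1
    exact h2.symm
  have hzinl : ∀ j, zAlg (X (Sum.inl j)) = y j := by
    intro j
    show aeval z (X (Sum.inl j)) = _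
    rw [aeval_X]
    rfl
  have hzinj : Function.Injective zAlg := by
    let F : S →ₐ[k] A := ((aeval y : MvPolynomial (Fin m) Df →ₐ[Df] A).restrictScalars k).comp
      (sumAlgEquiv k (Fin m) (Fin t)).toAlgHom
    have hF : zAlg = F := by
      apply MvPolynomial.algHom_ext
      rintro (j | l)
      · simp [F, zAlg, z, sumAlgEquiv_X_inl]
      · simp [F, zAlg, z, sumAlgEquiv_X_inr]
    rw [hF]
    have h1 : Function.Injective (aeval y : MvPolynomial (Fin m) Df →ₐ[Df] A) := hAlg
    have h2 := h1.comp (sumAlgEquiv k (Fin m) (Fin t)).injective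
    exact h2
  -- the prime
  let w : Fin m ⊕ Fin t → Df := Sum.elim (fun _ => 0) X
  let ρ : S →ₐ[k] Df := aeval w
  let q : Ideal S := RingHom.ker ρ
  have hq : q.IsPrime := RingHom.ker_isPrime ρ
  have hρ : ∀ d : Df, ρ (rename Sum.inr d) = d := by
    intro d
    show aeval w (rename Sum.inr d) = _
    rw [aeval_rename]
    have h1 : (w ∘ Sum.inr : Fin t → Df) = X := by
      funext l
      rfl
    rw [h1, aeval_X_left]
    rfl
  have hqd : ∀ d : Df, d ≠ 0 → rename Sum.inr d ∉ q := by
    intro d hd h0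
    apply hd
    rw [← hρ d]
    exact h0
  have hqy : ∀ j : Fin m, (X (Sum.inl j) : S) ∈ q := by
    intro j
    show ρ (X (Sum.inl j)) = 0
    show aeval w (X (Sum.inl j)) = _
    rw [aeval_X]
    rfl
  -- instances
  letI algSA : Algebra S A := zAlg.toRingHom.toAlgebra
  have hSA : ∀ s : S, algebraMap S A s = zAlg s := fun s => rfl
  letI algSL : Algebra S L := ((algebraMap A L).comp (algebraMap S A)).toAlgebra
  have hSL : ∀ s : S, algebraMap S L s = algebraMap A L (zAlg s) := fun s => rfl
  haveI tSAL : IsScalarTower S A L := IsScalarTower.of_algebraMap_eq (fun _ => rfl)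
  haveI tkSA : IsScalarTower k S A := IsScalarTower.of_algebraMap_eq (fun c => (zAlg.commutes c).symm)
  haveI tkSL : IsScalarTower k S L := IsScalarTower.of_algebraMap_eq (fun c => by
    rw [hSL, IsScalarTower.algebraMap_apply k A L]
    congr 1
    exact (zAlg.commutes c).symm)
  have hinjSL : Function.Injective (algebraMap S L) := by
    rw [IsScalarTower.algebraMap_eq S A L]
    exact (IsFractionRing.injective A L).comp hzinj
  haveI : FaithfulSMul S L := (faithfulSMul_iff_algebraMap_injective S L).mpr hinjSL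
  let K := FractionRing S
  letI algKL : Algebra K L := FractionRing.liftAlgebra S L
  haveI tSKL : IsScalarTower S K L := FractionRing.isScalarTower_liftAlgebra S L
  haveI hcharS : CharZero S := charZero_of_injective_algebraMap (algebraMap k S).injective
  haveI hcharK : CharZero K := IsFractionRing.charZero S
  refine euler_coeff_of_setup (L := L) (K := K) (σ := Fin m ⊕ Fin t) 𝒜 q Pm hIP ?_ ?_ ?_ D hind hsat u c huE i
  · -- subrings
    intro O hs hw hcl
    have hDfO : ∀ d, algebraMap Df L d ∈ O := by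
      intro d
      have := hs (rename Sum.inr d)
      rwa [hSL, hzfun, ← IsScalarTower.algebraMap_apply] at this
    have hDfinv : ∀ d, d ≠ 0 → (algebraMap Df L d)⁻¹ ∈ O := by
      intro d hd
      have := hw _ (hqd d hd)
      rwa [hSL, hzfun, ← IsScalarTower.algebraMap_apply] at this
    have hyO : ∀ j, algebraMap A L (y j) ∈ O := by
      intro j
      have := hs (X (Sum.inl j))
      rwa [hSL, hzinl] at this
    have hGO := hC1 O hDfO hDfinv hcl hyO
    have hbO : ∀ b ∈ 𝒜 0, algebraMap A L b ∈ O := by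
      intro b hb
      obtain ⟨p, hpm, hp⟩ := hint0 b hb
      let ι₀ : Df →+* O := (algebraMap Df L).codRestrict O hDfO
      refine hcl _ ⟨p.map ι₀, hpm.map _, ?_⟩
      rw [Polynomial.eval₂_map]
      have h1 : (algebraMap O L).comp ι₀ = (algebraMap A L).comp (algebraMap Df A) := by
        exact RingHom.ext (fun d => IsScalarTower.algebraMap_apply Df A L d)
      rw [h1, ← Polynomial.hom_eval₂, hp, map_zero]
    intro a
    have ha : a ∈ Algebra.adjoin (𝒜 0) (G : Set A) := by rw [hG]; trivial
    induction ha using Algebra.adjoin_induction with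
    | mem x hx => exact hGO x hx
    | algebraMap r => exact hbO _ r.2
    | add x y _ _ hx hy =>
      rw [map_add]
      exact O.add_mem hx hy
    | mul x y _ _ hx hy =>
      rw [map_mul]
      exact O.mul_mem hx hy
  · -- primes
    intro P hP hPc
    have h1 : ∀ d, d ≠ 0 → algebraMap Df A d ∉ P := by
      intro d hd hmem
      apply hqd d hd
      rw [← hPc, Ideal.mem_comap, hSA, hzfun]
      exact hmem
    have h2 : ∀ j, y j ∈ P := by
      intro j
      have := hqy j
      rw [← hPc, Ideal.mem_comap, hSA, hzinl] at this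
      exact this
    have h3 := hC2 P hP h1 h2
    constructor
    · intro a ha
      have h4 := sub_proj0_mem_span 𝒜 G hG hGpos a
      rw [show proj0 𝒜 a = 0 from ha, sub_zero] at h4
      exact (Ideal.span_le.mpr h3) h4
    · intro b hb hb0 hbP
      have hne := Ideal.comap_ne_bot_of_integral_mem hb0 hbP (hint0 b hb)
      obtain ⟨d, hd, hd0⟩ := Submodule.exists_mem_ne_zero_of_ne_bot hne
      exact h1 d hd0 hd
  · -- Euler
    rintro (j | l)
    · refine ⟨C (N : k) * X (Sum.inl j), q.mul_mem_left _ (hqy j), ?_⟩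
      rw [hSA, hSA, map_mul, hzinl, euler_of_mem 𝒜 (hyN j), Algebra.smul_def]
      congr 1
      exact (zAlg.commutes (N : k)).symm
    · refine ⟨0, q.zero_mem, ?_⟩
      have h1 : algebraMap S A (X (Sum.inr l)) = algebraMap Df A (X l) := by
        rw [hSA]
        have := hzfun (X l)
        rwa [rename_X] at this
      rw [h1, map_zero, euler_of_mem 𝒜 (hDf (X l))]
      simp

end Concrete

end Vale.Agent.Lib.P266
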