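import Vale.Agent.Lib.P266.Small

/-!
Core computation: the Jacobian determinant of a basis of derivations has valuation `e - 1` at every
prime over a prime element `g`, hence traces of `a / J` have no pole along `g`.
-/

set_option linter.unusedSectionVars false
set_option linter.unusedSimpArgs false
set_option linter.unusedVariables false

open IsLocalRing nonZeroDivisors

namespace Vale.Agent.Lib.P266

section Core

variable {k S A L K R₀ σ : Type*} [Field k] [CharZero k] [CommRing S] [IsDomain S]
  [IsNoetherianRing S]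
  [CommRing A] [IsDomain A] [Algebra k A] [IsIntegrallyClosed A] [Algebra.FiniteType k A]
  [Field L] [Algebra A L] [IsFractionRing A L] [Algebra k L] [IsScalarTower k A L]
  [Algebra S A] [Algebra S L] [IsScalarTower S A L]
  [CommRing R₀] [IsDomain R₀] [Algebra S R₀] [Algebra R₀ L] [IsScalarTower S R₀ L]
  [Fintype σ] [DecidableEq σ]

/-- The data and facts shared by the local computations. -/
structure CoreData (g : S) (R₀ L A : Type*) [CommRing R₀] [CommRing S] [Field L] [CommRing A]
    [Algebra S R₀] [Algebra R₀ L] [Algebra S L] [Algebra S A] [Algebra A L] : Prop where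
  /-- The inverse of any element outside `(g)` is integral. -/
  hUinv : ∀ w, w ∉ Ideal.span {g} → IsIntegral R₀ ((algebraMap S L w)⁻¹)
  /-- The image of a nonzero element of `S` is nonzero. -/
  hwne : ∀ w, w ≠ 0 → algebraMap S L w ≠ 0
  /-- All elements of `A` are integral. -/
  hAint : ∀ a : A, IsIntegral R₀ (algebraMap A L a)
  /-- All integral elements are fractions with denominators outside `(g)`. -/
  hTA : ∀ t : L, IsIntegral R₀ t → ∃ w, w ∉ Ideal.span {g} ∧ ∃ a : A,
    algebraMap S L w * t = algebraMap A L a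

lemma coreData_hDint {g : S} (hd : CoreData g R₀ L A) (D : Derivation k A A) (t : L)
    (ht : IsIntegral R₀ t) : IsIntegral R₀ (fracExt (L := L) D t) := by
  obtain ⟨w, hw, b, hb⟩ := hd.hTA t ht
  have hw0 : w ≠ 0 := by
    rintro rfl
    exact hw (Ideal.zero_mem _)
  have hwL := hd.hwne w hw0
  have ht' : t = algebraMap A L b / algebraMap S L w := by
    field_simp
    rw [mul_comm]; exact hb
  have hwA : algebraMap S L w = algebraMap A L (algebraMap S A w) :=
    IsScalarTower.algebraMap_apply S A L w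
  rw [ht', deriv_div_eq _ _ _ hwL, div_eq_mul_inv, hwA, fracExt_algebraMap, fracExt_algebraMap,
    ← hwA, ← inv_pow]
  have h1 := hd.hAint (D b)
  have h2 := hd.hAint b
  have h3 := hd.hAint (D (algebraMap S A w))
  have h4 := hd.hAint (algebraMap S A w)
  rw [← hwA] at h4
  exact ((h1.mul h4).sub (h2.mul h3)).mul ((hd.hUinv w hw).pow 2)

/-- The Jacobian determinant of the elements `x` with respect to the derivations `D`. -/
noncomputable def jacOf (x : σ → S) (D : σ → Derivation k A A) : A :=
  (Matrix.of (fun i j => D i (algebraMap S A (x j)))).det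

lemma isIntegral_algebraMap_S (s : S) : IsIntegral R₀ (algebraMap S L s) := by
  rw [IsScalarTower.algebraMap_apply S R₀ L s]
  exact isIntegral_algebraMap

/-- Independence over the ring gives independence over the fraction field. -/
theorem frac_independent (D : σ → Derivation k A A)
    (hind : ∀ c : σ → A, ∑ i, c i • D i = 0 → ∀ i, c i = 0) (c : σ → L)
    (hc : ∑ i, c i • (fracExt (L := L) (D i)) = 0) (i : σ) : c i = 0 := by
  obtain ⟨b, hb⟩ := IsLocalization.exist_integer_multiples_of_finite (A⁰) c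
  choose c' hc' using hb
  have hbne : algebraMap A L (b : A) ≠ 0 := by
    intro h0
    have : (b : A) = 0 := IsFractionRing.injective A L (by simpa using h0)
    exact nonZeroDivisors.ne_zero b.2 this
  have hz : ∑ i, c' i • D i = 0 := by
    ext a
    apply IsFractionRing.injective A L
    have h1 := congrArg (fun F : Derivation k L L => F (algebraMap A L a)) hc
    simp only [sum_smul_deriv_apply, Derivation.coe_zero, Pi.zero_apply] at h1
    simp only [sum_smul_deriv_apply, Derivation.coe_zero, Pi.zero_apply, map_sum, map_mul,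
      map_zero]
    have h2 : ∀ i, algebraMap A L (c' i) = algebraMap A L (b : A) * c i := by
      intro i
      rw [hc' i, Algebra.smul_def]
    have h3 : ∀ i, algebraMap A L (D i a) = fracExt (L := L) (D i) (algebraMap A L a) := fun i =>
      (fracExt_algebraMap (D i) a).symm
    simp only [h2, h3]
    rw [← Finset.sum_congr rfl (fun i _ => (mul_assoc (algebraMap A L (b : A)) (c i) _).symm),
      ← Finset.mul_sum, h1, mul_zero]
  have h4 := hind c' hz i
  have h5 := hc' i
  rw [h4, map_zero, Algebra.smul_def] at h5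
  exact (mul_eq_zero.mp h5.symm).resolve_left hbne

/-- Saturation over the ring at a prime gives saturation over the fraction field. -/
theorem frac_saturated (D : σ → Derivation k A A) (PA : Ideal A) [hPA : PA.IsPrime]
    (hsat : ∀ D' : Derivation k A A, ∃ u, u ∉ PA ∧ ∃ c : σ → A, u • D' = ∑ i, c i • D i)
    (D' : Derivation k L L)
    (hstep1 : ∀ a : A, ∃ m, m ∉ PA ∧ ∃ a',
        algebraMap A L m * D' (algebraMap A L a) = algebraMap A L a') :
    ∃ u, u ∉ PA ∧ ∃ c : σ → A,
      algebraMap A L u • D' = ∑ i, algebraMap A L (c i) • fracExt (L := L) (D i) := by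
  obtain ⟨s, hs, hs'⟩ := exists_common_denominator D' PA hstep1
  obtain ⟨D'', hD''⟩ := exists_der_of_stable (A := A) (algebraMap A L s • D') (fun a => by
    obtain ⟨a', ha'⟩ := hs' a
    refine ⟨a', ?_⟩
    rw [Derivation.smul_apply, smul_eq_mul]
    exact ha')
  obtain ⟨u, hu, c, hc⟩ := hsat D''
  refine ⟨u * s, ?_, c, ?_⟩
  · intro h
    rcases hPA.mem_or_mem h with h | h
    · exact hu h
    · exact hs h
  · apply deriv_ext_frac (A := A)
    intro a
    have h1 := congrArg (fun F : Derivation k A A => algebraMap A L (F a)) hc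
    simp only [sum_smul_deriv_apply, Derivation.smul_apply, smul_eq_mul, map_mul, map_sum, hD'']
      at h1
    simp only [sum_smul_deriv_apply, Derivation.smul_apply, smul_eq_mul, map_mul]
    have h3 : ∀ i, fracExt (L := L) (D i) (algebraMap A L a) = algebraMap A L (D i a) := fun i =>
      fracExt_algebraMap (D i) a
    simp only [h3]
    rw [← h1]
    ring

/-- The residue derivation of an element integral over the localization vanishes. -/
theorem local_alg {V : Type*} [CommRing V] [IsDomain V] [IsLocalRing V] [Algebra V L]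
    {g : S} (hinjV : Function.Injective (algebraMap V L))
    [(Ideal.span {g}).IsPrime] [IsLocalization (Ideal.span {g}).primeCompl R₀]
    (φ : k →+* V) (hφ : ∀ c, algebraMap V L (φ c) = algebraMap k L c)
    (ψ : S →+* V) (hψ : ∀ s, algebraMap V L (ψ s) = algebraMap S L s)
    (ρ : R₀ →+* V) (hρ : ∀ r, algebraMap V L (ρ r) = algebraMap R₀ L r)
    (hψU : ∀ w, w ∉ Ideal.span {g} → ψ w ∉ maximalIdeal V)
    (D' : Derivation k L L) (e : V → V)
    (he : ∀ v, D' (algebraMap V L v) = algebraMap V L (e v))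
    (x : σ → S) (pd : σ → S → S)
    (hchain : ∀ (s : S), D' (algebraMap S L s) =
      ∑ j, algebraMap S L (pd j s) * D' (algebraMap S L (x j)))
    (i0 : σ) (hi0 : pd i0 g ∉ Ideal.span {g})
    (hψgm : ψ g ∈ maximalIdeal V)
    (π : V) (hπ : maximalIdeal V = Ideal.span {π}) (h1 : e π ∈ maximalIdeal V)
    (h2 : ∀ j, j ≠ i0 → e (ψ (x j)) ∈ maximalIdeal V)
    (hV : ∀ v : V, ∃ a b : V, v * b = a ∧ b ∉ maximalIdeal V ∧ IsIntegral R₀ (algebraMap V L a) ∧
      IsIntegral R₀ (algebraMap V L b)) (v : V) : e v ∈ maximalIdeal V := by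
  have hadd : ∀ x y, e (x + y) = e x + e y := by
    intro a b
    apply hinjV
    rw [← he, map_add, map_add, map_add, he, he]
  have hmul : ∀ x y, e (x * y) = x * e y + y * e x := by
    intro a b
    apply hinjV
    rw [← he, map_mul, Derivation.leibniz, he, he]
    simp only [smul_eq_mul, map_add, map_mul]
  have he0 : e 0 = 0 := by
    have := hadd 0 0
    simpa using this
  have he1 : e 1 = 0 := by
    have := hmul 1 1
    simp only [mul_one, one_mul] at this
    have h2 : e 1 + e 1 = e 1 := this.symm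
    simpa using h2
  have hneg : ∀ x, e (-x) = - e x := by
    intro a
    have := hadd a (-a)
    rw [add_neg_cancel, he0] at this
    exact eq_neg_of_add_eq_zero_right this.symm
  have hprimeM : (maximalIdeal V).IsPrime := (maximalIdeal.isMaximal V).isPrime
  have hII : ∀ y ∈ maximalIdeal V, e y ∈ maximalIdeal V := by
    intro y hy
    rw [hπ, Ideal.mem_span_singleton'] at hy
    obtain ⟨r, rfl⟩ := hy
    rw [hmul]
    refine add_mem (Ideal.mul_mem_left _ _ h1) (Ideal.mul_mem_right _ _ ?_)
    rw [hπ]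
    exact Ideal.mem_span_singleton_self _
  have hE : ∀ s : S, e (ψ s) = ∑ j, ψ (pd j s) * e (ψ (x j)) := by
    intro s
    apply hinjV
    rw [← he, map_sum]
    simp only [map_mul, ← he, hψ]
    exact hchain s
  have hzi0 : e (ψ (x i0)) ∈ maximalIdeal V := by
    have h3 := hE g
    have h4 : ψ (pd i0 g) * e (ψ (x i0)) =
        e (ψ g) - ∑ j ∈ Finset.univ.erase i0, ψ (pd j g) * e (ψ (x j)) := by
      rw [h3, ← Finset.add_sum_erase _ _ (Finset.mem_univ i0)]
      ring
    have h5 : ψ (pd i0 g) * e (ψ (x i0)) ∈ maximalIdeal V := by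
      rw [h4]
      apply sub_mem (hII _ hψgm)
      apply Ideal.sum_mem
      intro j hj
      exact Ideal.mul_mem_left _ _ (h2 j (Finset.ne_of_mem_erase hj))
    exact (hprimeM.mem_or_mem h5).resolve_left (hψU _ hi0)
  have hzall : ∀ j, e (ψ (x j)) ∈ maximalIdeal V := by
    intro j
    by_cases hj : j = i0
    · rw [hj]; exact hzi0
    · exact h2 j hj
  have hSall : ∀ s, e (ψ s) ∈ maximalIdeal V := by
    intro s
    rw [hE]
    exact Ideal.sum_mem _ (fun j _ => Ideal.mul_mem_left _ _ (hzall j))
  let C : Subring V :=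
    { carrier := {y | e y ∈ maximalIdeal V}
      mul_mem' := by
        intro a b ha hb
        simp only [Set.mem_ofPred_eq] at ha hb ⊢
        rw [hmul]
        exact add_mem (Ideal.mul_mem_left _ _ hb) (Ideal.mul_mem_left _ _ ha)
      one_mem' := by
        simp only [Set.mem_ofPred_eq]
        rw [he1]; exact Ideal.zero_mem _
      add_mem' := by
        intro a b ha hb
        simp only [Set.mem_ofPred_eq] at ha hb ⊢
        rw [hadd]
        exact add_mem ha hb
      zero_mem' := by
        simp only [Set.mem_ofPred_eq]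
        rw [he0]; exact Ideal.zero_mem _
      neg_mem' := by
        intro a ha
        simp only [Set.mem_ofPred_eq] at ha ⊢
        rw [hneg]
        exact neg_mem ha }
  have hCmem : ∀ y, y ∈ C ↔ e y ∈ maximalIdeal V := fun y => Iff.rfl
  have hq : ∀ n : ℕ, n ≠ 0 → ∃ c ∈ C, c * (n : V) = 1 := by
    intro n hn
    refine ⟨φ ((n : k)⁻¹), ?_, ?_⟩
    · rw [hCmem]
      have : e (φ ((n : k)⁻¹)) = 0 := by
        apply hinjV
        rw [← he, hφ, map_zero]
        exact D'.map_algebraMap _
      rw [this]; exact Ideal.zero_mem _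
    · have : ((n : ℕ) : V) = φ (n : k) := by simp
      rw [this, ← map_mul, inv_mul_cancel₀ (Nat.cast_ne_zero.mpr hn), map_one]
  have hRC : ∀ r, ρ r ∈ C := by
    intro r
    obtain ⟨⟨s, w⟩, hr⟩ := IsLocalization.mk'_surjective (Ideal.span {g}).primeCompl r
    have hspec : r * algebraMap S R₀ w = algebraMap S R₀ s := by
      rw [← hr]; exact IsLocalization.mk'_spec _ _ _
    have h6 : ρ r * ψ (w : S) = ψ s := by
      apply hinjV
      rw [map_mul, hρ, hψ, hψ, IsScalarTower.algebraMap_apply S R₀ L,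
        IsScalarTower.algebraMap_apply S R₀ L s, ← map_mul, hspec]
    have h7 := hSall s
    rw [← h6, hmul] at h7
    have h8 : ψ (w : S) * e (ρ r) ∈ maximalIdeal V := by
      have h9 : ρ r * e (ψ (w : S)) ∈ maximalIdeal V := Ideal.mul_mem_left _ _ (hSall _)
      have := sub_mem h7 h9
      simpa using this
    rw [hCmem]
    exact (hprimeM.mem_or_mem h8).resolve_left (hψU _ w.2)
  have hTe : ∀ t : V, IsIntegral R₀ (algebraMap V L t) → e t ∈ maximalIdeal V := by
    intro t ht
    have hi : IsIntegral C t := by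
      obtain ⟨f, hfm, hf⟩ := ht
      let ρC : R₀ →+* C := ρ.codRestrict C hRC
      refine ⟨f.map ρC, hfm.map ρC, ?_⟩
      rw [Polynomial.eval₂_map]
      apply hinjV
      rw [Polynomial.hom_eval₂, map_zero]
      have hcomp : (algebraMap V L).comp ((algebraMap C V).comp ρC) = algebraMap R₀ L := by
        ext r
        exact hρ r
      rw [hcomp]
      exact hf
    exact deriv_mem_of_isIntegral e hadd hmul C (maximalIdeal V) (fun c hc => hc) hII hq _ hi
  obtain ⟨a, b, hvb, hb, hai, hbi⟩ := hV v
  have h10 : e a ∈ maximalIdeal V := hTe _ hai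
  have h11 : e b ∈ maximalIdeal V := hTe _ hbi
  rw [← hvb, hmul] at h10
  have h12 : b * e v ∈ maximalIdeal V := by
    have := sub_mem h10 (Ideal.mul_mem_left _ v h11)
    simpa using this
  exact (hprimeM.mem_or_mem h12).resolve_left hb

theorem core_local {g : S} (hg0 : g ≠ 0) (hd : CoreData g R₀ L A)
    [(Ideal.span {g}).IsPrime] [IsLocalization.AtPrime R₀ (Ideal.span {g})]
    (x : σ → S) (pd : σ → S → S)
    (hchain : ∀ (D' : Derivation k L L) (s : S), D' (algebraMap S L s) =
      ∑ j, algebraMap S L (pd j s) * D' (algebraMap S L (x j)))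
    (i0 : σ) (hi0 : pd i0 g ∉ Ideal.span {g})
    (D : σ → Derivation k A A)
    (hind : ∀ c : σ → A, ∑ i, c i • D i = 0 → ∀ i, c i = 0)
    (hsat : ∀ P : Ideal A, P.IsPrime → P.comap (algebraMap S A) = Ideal.span {g} →
      ∀ D' : Derivation k A A, ∃ u, u ∉ P ∧ ∃ c : σ → A, u • D' = ∑ i, c i • D i)
    (T₀ : Subalgebra R₀ L) (hT₀ : ∀ t, t ∈ T₀ ↔ IsIntegral R₀ t)
    [IsDedekindDomain T₀] [IsFractionRing T₀ L]
    (P : Ideal T₀) [hP : P.IsMaximal]
    (hgP : (⟨algebraMap S L g, (hT₀ _).mpr (isIntegral_algebraMap_S g)⟩ : T₀) ∈ P) :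
    algebraMap A L (jacOf x D) ≠ 0 ∧ ∃ a ∈ P, ∃ b, b ∉ P ∧
      algebraMap S L g / algebraMap A L (jacOf x D) * algebraMap T₀ L b =
        algebraMap T₀ L a := by
  classical
  have hpr : P.IsPrime := hP.isPrime
  have hPle : P.primeCompl ≤ (T₀)⁰ := Ideal.primeCompl_le_nonZeroDivisors _
  let V : Subalgebra T₀ L := Localization.subalgebra.ofField L _ hPle
  have hPbot : P ≠ ⊥ := by
    intro h
    rw [h] at hgP
    have h0 : algebraMap S L g = 0 := by
      have := congrArg (Subtype.val) (Ideal.mem_bot.mp hgP)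
      simpa using this
    exact hd.hwne g hg0 h0
  have hDVRV : IsDiscreteValuationRing V :=
    IsLocalization.AtPrime.isDiscreteValuationRing_of_dedekind_domain T₀ hPbot V
  -- basic membership facts
  have hT₀V : ∀ t : L, t ∈ T₀ → t ∈ V := by
    intro t ht
    exact Subalgebra.algebraMap_mem V (⟨t, ht⟩ : T₀)
  have hintV : ∀ t : L, IsIntegral R₀ t → t ∈ V := fun t ht => hT₀V t ((hT₀ t).mpr ht)
  have hSV : ∀ s : S, algebraMap S L s ∈ V := fun s => hintV _ (isIntegral_algebraMap_S s)
  have hAV : ∀ a : A, algebraMap A L a ∈ V := fun a => hintV _ (hd.hAint a)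
  have hkV : ∀ c : k, algebraMap k L c ∈ V := by
    intro c
    rw [IsScalarTower.algebraMap_apply k A L c]
    exact hAV _
  let ψ : S →+* V := (algebraMap S L).codRestrict V hSV
  let φ : k →+* V := (algebraMap k L).codRestrict V hkV
  let ρ : R₀ →+* V := (algebraMap R₀ L).codRestrict V (fun r => hintV _ isIntegral_algebraMap)
  have hψ : ∀ s, algebraMap V L (ψ s) = algebraMap S L s := fun s => rfl
  have hφ : ∀ c, algebraMap V L (φ c) = algebraMap k L c := fun c => rfl
  have hρ' : ∀ r, algebraMap V L (ρ r) = algebraMap R₀ L r := fun r => rfl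
  let E : σ → Derivation k L L := fun i => fracExt (D i)
  have hET₀ : ∀ i t, t ∈ T₀ → E i t ∈ T₀ := by
    intro i t ht
    exact (hT₀ _).mpr (coreData_hDint hd (D i) t ((hT₀ t).mp ht))
  have hstabV : ∀ E' : Derivation k L L, (∀ t, t ∈ T₀ → E' t ∈ V) → ∀ v, v ∈ V → E' v ∈ V := by
    intro E' hE' v hv
    obtain ⟨a, b, hb, rfl⟩ := hv
    have hb0 : algebraMap T₀ L b ≠ 0 := by
      intro h0
      have : b = 0 := Subtype.ext (by simpa using h0)
      exact hb (this ▸ P.zero_mem)
    have hbinv : (algebraMap T₀ L b)⁻¹ ∈ V := ⟨1, b, hb, by simp⟩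
    have h1 : E' (algebraMap T₀ L a * (algebraMap T₀ L b)⁻¹) =
        (E' (algebraMap T₀ L a) * algebraMap T₀ L b - algebraMap T₀ L a * E' (algebraMap T₀ L b)) *
          ((algebraMap T₀ L b)⁻¹) ^ 2 := by
      rw [← div_eq_mul_inv, deriv_div_eq _ _ _ hb0, div_eq_mul_inv, inv_pow]
    rw [h1]
    have ha' : E' (algebraMap T₀ L a) ∈ V := hE' _ a.2
    have hb' : E' (algebraMap T₀ L b) ∈ V := hE' _ b.2
    have haV : algebraMap T₀ L a ∈ V := hT₀V _ a.2
    have hbV : algebraMap T₀ L b ∈ V := hT₀V _ b.2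
    exact V.mul_mem (V.sub_mem (V.mul_mem ha' hbV) (V.mul_mem haV hb')) (V.pow_mem hbinv 2)
  have hstab : ∀ i (v : V), ∃ v' : V, E i (algebraMap V L v) = algebraMap V L v' := by
    intro i v
    exact ⟨⟨E i v, hstabV (E i) (fun t ht => hT₀V _ (hET₀ i t ht)) v v.2⟩, rfl⟩
  -- independence over `L`
  have hindL : ∀ c : σ → L, ∑ i, c i • E i = 0 → ∀ i, c i = 0 := frac_independent D hind
  -- saturation
  have hAT : ∀ a : A, algebraMap A L a ∈ T₀ := fun a => (hT₀ _).mpr (hd.hAint a)
  have hST : ∀ s : S, algebraMap S L s ∈ T₀ := fun s => (hT₀ _).mpr (isIntegral_algebraMap_S s)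
  let ρA : A →+* T₀ := (algebraMap A L).codRestrict T₀ hAT
  let ρS : S →+* T₀ := (algebraMap S L).codRestrict T₀ hST
  have hρAS : ∀ s, ρA (algebraMap S A s) = ρS s := by
    intro s
    apply Subtype.ext
    exact (IsScalarTower.algebraMap_apply S A L s).symm
  have hunitP : ∀ w, w ∉ Ideal.span {g} → ρS w ∉ P := by
    intro w hw hmem
    have hw0 : w ≠ 0 := by
      rintro rfl
      exact hw (Ideal.zero_mem _)
    let inv : T₀ := ⟨(algebraMap S L w)⁻¹, (hT₀ _).mpr (hd.hUinv w hw)⟩
    have h1 : ρS w * inv = 1 := by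
      apply Subtype.ext
      exact mul_inv_cancel₀ (hd.hwne w hw0)
    have h2 : (1 : T₀) ∈ P := h1 ▸ P.mul_mem_right _ hmem
    exact hP.ne_top ((Ideal.eq_top_iff_one _).mpr h2)
  have hsatL : ∀ D' : Derivation k L L, (∀ v : V, ∃ v' : V, D' (algebraMap V L v) = algebraMap V L v') →
      ∃ d : σ → V, D' = ∑ i, (algebraMap V L (d i)) • E i := by
    intro D' hD'
    let PA : Ideal A := P.comap ρA
    have hPAprime : PA.IsPrime := Ideal.comap_isPrime ρA P
    have hcomap : PA.comap (algebraMap S A) = Ideal.span {g} := by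
      ext s
      constructor
      · intro hs
        by_contra hcon
        apply hunitP s hcon
        rw [← hρAS]
        exact hs
      · intro hs
        obtain ⟨r, rfl⟩ := Ideal.mem_span_singleton'.mp hs
        show ρA (algebraMap S A (r * g)) ∈ P
        rw [hρAS, map_mul]
        exact P.mul_mem_left _ hgP
    have hstep1 : ∀ a : A, ∃ m, m ∉ PA ∧ ∃ a',
        algebraMap A L m * D' (algebraMap A L a) = algebraMap A L a' := by
      intro a
      obtain ⟨v', hv'⟩ := hD' ⟨algebraMap A L a, hAV a⟩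
      obtain ⟨t, b, hb, hv⟩ := v'.2
      obtain ⟨w₁, hw₁, a₁, ha₁⟩ := hd.hTA t ((hT₀ _).mp t.2)
      obtain ⟨w₂, hw₂, a₂, ha₂⟩ := hd.hTA b ((hT₀ _).mp b.2)
      have hb0 : algebraMap T₀ L b ≠ 0 := by
        intro h0
        have : b = 0 := Subtype.ext (by simpa using h0)
        exact hb (this ▸ P.zero_mem)
      refine ⟨algebraMap S A w₁ * a₂, ?_, a₁ * algebraMap S A w₂, ?_⟩
      · intro hmem
        have hmem' : ρA (algebraMap S A w₁ * a₂) ∈ P := hmem
        rw [map_mul, hρAS] at hmem'
        rcases hpr.mem_or_mem hmem' with h | h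
        · exact hunitP w₁ hw₁ h
        · have h6 : ρA a₂ = ρS w₂ * b := by
            apply Subtype.ext
            exact ha₂.symm
          rw [h6] at h
          rcases hpr.mem_or_mem h with h' | h'
          · exact hunitP w₂ hw₂ h'
          · exact hb h'
      · have hv'' : D' (algebraMap A L a) = algebraMap T₀ L t * (algebraMap T₀ L b)⁻¹ := by
          have : D' (algebraMap V L ⟨algebraMap A L a, hAV a⟩) = algebraMap V L v' := hv'
          rw [← hv]
          exact this
        rw [hv'', map_mul, map_mul, ← IsScalarTower.algebraMap_apply S A L,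
          ← IsScalarTower.algebraMap_apply S A L, ← ha₁, ← ha₂]
        show (_ * (algebraMap S L w₂ * algebraMap T₀ L b)) * _ =
          algebraMap S L w₁ * algebraMap T₀ L t * algebraMap S L w₂
        field_simp
    obtain ⟨u, hu, c, heq⟩ := frac_saturated D PA (hsat PA hPAprime hcomap) D' hstep1
    have husT : ρA u ∈ P.primeCompl := hu
    have hus0 : algebraMap A L u ≠ 0 := by
      intro h0
      have : ρA u = 0 := Subtype.ext h0
      exact husT (this ▸ P.zero_mem)
    let d : σ → V := fun i => ⟨algebraMap A L (c i) * (algebraMap A L u)⁻¹,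
      ⟨ρA (c i), ρA u, husT, rfl⟩⟩
    refine ⟨d, ?_⟩
    ext y
    have h1 := congrArg (fun F : Derivation k L L => F y) heq
    simp only [sum_smul_deriv_apply, Derivation.smul_apply, smul_eq_mul] at h1
    rw [sum_smul_deriv_apply]
    show D' y = ∑ i, (algebraMap A L (c i) * (algebraMap A L u)⁻¹) * E i y
    have h2 : D' y = (algebraMap A L u)⁻¹ * (algebraMap A L u * D' y) := by
      field_simp
    rw [h2, h1, Finset.mul_sum]
    apply Finset.sum_congr rfl
    intro i _
    show (algebraMap A L u)⁻¹ * (algebraMap A L (c i) * E i y) = _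
    ring
  have hψg0 : ψ g ≠ 0 := by
    intro h
    exact hd.hwne g hg0 (by simpa [ψ] using congrArg (algebraMap V L) h)
  have hψgm : ψ g ∈ maximalIdeal V := by
    have := (IsLocalization.AtPrime.to_map_mem_maximal_iff V P _).mpr hgP
    exact this
  have hdg : ∀ D' : Derivation k L L, D' (algebraMap V L (ψ g)) =
      ∑ j, algebraMap V L (ψ (pd j g)) * D' (algebraMap V L (ψ (x j))) := fun D' => hchain D' g
  have hψU : ∀ w, w ∉ Ideal.span {g} → ψ w ∉ maximalIdeal V := by
    intro w hw hmem
    have hw0 : w ≠ 0 := by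
      rintro rfl
      exact hw (Ideal.zero_mem _)
    let inv : V := ⟨(algebraMap S L w)⁻¹, hintV _ (hd.hUinv w hw)⟩
    have hh1 : ψ w * inv = 1 := by
      apply Subtype.ext
      exact mul_inv_cancel₀ (hd.hwne w hw0)
    exact (mem_maximalIdeal _).mp hmem (IsUnit.of_mul_eq_one _ hh1)
  have hV' : ∀ v : V, ∃ a b : V, v * b = a ∧ b ∉ maximalIdeal V ∧
      IsIntegral R₀ (algebraMap V L a) ∧ IsIntegral R₀ (algebraMap V L b) := by
    intro v
    obtain ⟨a, b, hb, hv⟩ := v.2
    have hb0 : algebraMap T₀ L b ≠ 0 := by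
      intro h0
      have : b = 0 := Subtype.ext (by simpa using h0)
      exact hb (this ▸ P.zero_mem)
    refine ⟨⟨algebraMap T₀ L a, hT₀V _ a.2⟩, ⟨algebraMap T₀ L b, hT₀V _ b.2⟩, ?_, ?_,
      (hT₀ _).mp a.2, (hT₀ _).mp b.2⟩
    · apply Subtype.ext
      show (v : L) * algebraMap T₀ L b = algebraMap T₀ L a
      rw [hv]
      field_simp
    · intro hmem
      let inv : V := ⟨(algebraMap T₀ L b)⁻¹, ⟨1, b, hb, by simp⟩⟩
      have hh1 : (⟨algebraMap T₀ L b, hT₀V _ b.2⟩ : V) * inv = 1 := by
        apply Subtype.ext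
        exact mul_inv_cancel₀ hb0
      exact (mem_maximalIdeal _).mp hmem (IsUnit.of_mul_eq_one _ hh1)
  have hlocR : IsLocalization (Ideal.span {g}).primeCompl R₀ := ‹_›
  have halg : ∀ (D' : Derivation k L L) (e : V → V),
      (∀ v, D' (algebraMap V L v) = algebraMap V L (e v)) →
      ∀ π, Irreducible π → e π ∈ maximalIdeal V →
      (∀ j, j ≠ i0 → e (ψ (x j)) ∈ maximalIdeal V) → ∀ v, e v ∈ maximalIdeal V := by
    intro D' e he π hπ h1 h2 v
    exact local_alg (g := g) Subtype.val_injective φ hφ ψ hψ ρ hρ' hψU D' e he x pd (hchain D') i0 hi0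
      hψgm π hπ.maximalIdeal_eq h1 h2 hV' v
  obtain ⟨ρ', hρ, hgρ⟩ := local_step φ hφ E hstab hindL hsatL (fun j => ψ (x j)) i0 (ψ g) hψg0 hψgm
    (fun j => ψ (pd j g)) hdg halg
  have hdet : (Matrix.of (fun i j => E i (algebraMap V L (ψ (x j))))).det =
      algebraMap A L (jacOf x D) := by
    unfold jacOf
    rw [RingHom.map_det]
    congr 1
    ext i j
    show fracExt (D i) (algebraMap S L (x j)) = algebraMap A L (D i (algebraMap S A (x j)))
    rw [IsScalarTower.algebraMap_apply S A L, fracExt_algebraMap]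
  rw [hdet] at hgρ
  have hgρ' : algebraMap S L g = algebraMap A L (jacOf x D) * (ρ' : L) := hgρ
  obtain ⟨t, b, hb, hρ''⟩ := ρ'.2
  have hb0 : algebraMap T₀ L b ≠ 0 := by
    intro h0
    have : b = 0 := Subtype.ext (by simpa using h0)
    exact hb (this ▸ P.zero_mem)
  have hp0 : algebraMap A L (jacOf x D) ≠ 0 := by
    intro h0
    rw [h0, zero_mul] at hgρ'
    exact hd.hwne g hg0 hgρ'
  have htP : t ∈ P := by
    by_contra ht
    have ht0 : algebraMap T₀ L t ≠ 0 := by
      intro h0
      have : t = 0 := Subtype.ext (by simpa using h0)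
      exact ht (this ▸ P.zero_mem)
    let inv : V := ⟨algebraMap T₀ L b * (algebraMap T₀ L t)⁻¹, ⟨b, t, ht, rfl⟩⟩
    have hh1 : ρ' * inv = 1 := by
      apply Subtype.ext
      show (ρ' : L) * (algebraMap T₀ L b * (algebraMap T₀ L t)⁻¹) = 1
      rw [hρ'']
      field_simp
    exact (mem_maximalIdeal _).mp hρ (IsUnit.of_mul_eq_one _ hh1)
  refine ⟨hp0, t, htP, b, hb, ?_⟩
  rw [hgρ', hρ'']
  field_simp

end Core

end Vale.Agent.Lib.P266
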