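import Vale.Agent.Lib.P266.Basic

/-!
The key lemma on a discrete valuation ring with a derivation basis.
-/

set_option linter.unusedSectionVars false
set_option linter.unusedSimpArgs false

open IsLocalRing

namespace Vale.Agent.Lib.P266

section DVR

variable {k V ι : Type*} [Field k] [CharZero k] [CommRing V] [IsDomain V]
  [IsDiscreteValuationRing V] [Algebra k V] [Fintype ι] [DecidableEq ι]

/-- Dividing a derivation by a nonzero element when all values are divisible. -/
lemma exists_div_derivation (D : Derivation k V V) (π : V) (hπ : π ≠ 0)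
    (h : ∀ v, π ∣ D v) : ∃ D₁ : Derivation k V V, D = π • D₁ := by
  choose e he using h
  have hadd : ∀ x y, e (x + y) = e x + e y := by
    intro x y
    apply mul_left_cancel₀ hπ
    rw [← he, map_add, he, he]; ring
  have hsmul : ∀ (c : k) x, e (c • x) = c • e x := by
    intro c x
    apply mul_left_cancel₀ hπ
    rw [← he, D.map_smul, he, mul_smul_comm]
  have hlei : ∀ x y, e (x * y) = x • e y + y • e x := by
    intro x y
    apply mul_left_cancel₀ hπ
    rw [← he, Derivation.leibniz, he, he]
    simp only [smul_eq_mul]; ring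
  refine ⟨Derivation.mk' { toFun := e, map_add' := hadd, map_smul' := by simpa using hsmul } hlei, ?_⟩
  ext v
  simp [he]

/-- Main unit determinant lemma. -/
theorem det_isUnit (D : ι → Derivation k V V)
    (hind : ∀ c : ι → V, ∑ i, c i • D i = 0 → ∀ i, c i = 0)
    (hsat : ∀ D' : Derivation k V V, ∃ d : ι → V, D' = ∑ i, d i • D i)
    (w : ι → V)
    (halg : ∀ D' : Derivation k V V, (∀ j, D' (w j) ∈ maximalIdeal V) → ∀ v, D' v ∈ maximalIdeal V) :
    IsUnit (Matrix.of (fun i j => D i (w j))).det := by
  by_contra hnu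
  set M : Matrix ι ι V := Matrix.of (fun i j => D i (w j)) with hM
  have hdetm : M.det ∈ maximalIdeal V := (mem_maximalIdeal _).mpr hnu
  let κ := ResidueField V
  let M' : Matrix ι ι κ := M.map (residue V)
  have hdet0 : M'.det = 0 := by
    have : M'.det = residue V M.det := by
      rw [RingHom.map_det]; rfl
    rw [this, residue_eq_zero_iff]; exact hdetm
  obtain ⟨c', hc'ne, hc'⟩ := Matrix.exists_vecMul_eq_zero_iff.mpr hdet0
  have hsurj := residue_surjective (R := V)
  choose lift hlift using hsurj
  let c : ι → V := fun i => lift (c' i)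
  have hc : ∀ i, residue V (c i) = c' i := fun i => hlift _
  obtain ⟨i1, hi1⟩ := Function.ne_iff.mp hc'ne
  have hi1' : c i1 ∉ maximalIdeal V := by
    intro hmem
    apply hi1
    have := (residue_eq_zero_iff _).mpr hmem
    rw [hc] at this
    exact this
  let D' : Derivation k V V := ∑ i, c i • D i
  have hD'w : ∀ j, D' (w j) ∈ maximalIdeal V := by
    intro j
    rw [← residue_eq_zero_iff]
    have h := congrFun hc' j
    simp only [Matrix.vecMul, dotProduct, Pi.zero_apply] at h
    have : residue V (D' (w j)) = ∑ i, c' i * M' i j := by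
      simp only [D', sum_smul_deriv_apply, map_sum, map_mul, hc]
      rfl
    rw [this, h]
  have hall := halg D' hD'w
  obtain ⟨π, hπ⟩ := IsDiscreteValuationRing.exists_irreducible V
  have hπ0 : π ≠ 0 := hπ.ne_zero
  have hdvd : ∀ v, π ∣ D' v := by
    intro v
    have := hall v
    rw [hπ.maximalIdeal_eq, Ideal.mem_span_singleton] at this
    exact this
  obtain ⟨D₁, hD₁⟩ := exists_div_derivation D' π hπ0 hdvd
  obtain ⟨d, hd⟩ := hsat D₁
  have hzero : ∑ i, (c i - π * d i) • D i = 0 := by
    have h1 : ∑ i, c i • D i = π • ∑ i, d i • D i := by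
      rw [← hd, ← hD₁]
    simp only [sub_smul, Finset.sum_sub_distrib, h1, Finset.smul_sum, mul_smul]
    simp
  have := hind _ hzero i1
  apply hi1'
  have hci : c i1 = π * d i1 := sub_eq_zero.mp this
  rw [hci]
  apply Ideal.mul_mem_right
  rw [hπ.maximalIdeal_eq]
  exact Ideal.mem_span_singleton_self _

/-- A nonzero element `g` of the maximal ideal, whose differential along `z` has a unit coefficient
at `i0`, is a multiple by an element of the maximal ideal of the Jacobian determinant of `z`. -/
theorem exists_factor (D : ι → Derivation k V V)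
    (hind : ∀ c : ι → V, ∑ i, c i • D i = 0 → ∀ i, c i = 0)
    (hsat : ∀ D' : Derivation k V V, ∃ d : ι → V, D' = ∑ i, d i • D i)
    (z : ι → V) (i0 : ι) (g : V) (hg0 : g ≠ 0) (hgm : g ∈ maximalIdeal V)
    (dg : ι → V) (hdg : ∀ i, D i g = ∑ j, dg j * D i (z j))
    (halg : ∀ (D' : Derivation k V V) (π : V), Irreducible π → D' π ∈ maximalIdeal V →
      (∀ j, j ≠ i0 → D' (z j) ∈ maximalIdeal V) → ∀ v, D' v ∈ maximalIdeal V) :
    ∃ ρ ∈ maximalIdeal V, g = (Matrix.of (fun i j => D i (z j))).det * ρ := by
  obtain ⟨π, hπ⟩ := IsDiscreteValuationRing.exists_irreducible V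
  have hπm : π ∈ maximalIdeal V := by
    rw [hπ.maximalIdeal_eq]; exact Ideal.mem_span_singleton_self _
  obtain ⟨n, hn⟩ := IsDiscreteValuationRing.associated_pow_irreducible hg0 hπ
  obtain ⟨u, hu⟩ := hn
  have hn0 : n ≠ 0 := by
    rintro rfl
    have : IsUnit g := by
      rw [pow_zero] at hu
      exact IsUnit.of_mul_eq_one _ hu
    exact (mem_maximalIdeal _).mp hgm this
  obtain ⟨e, rfl⟩ := Nat.exists_eq_succ_of_ne_zero hn0
  -- write `g = ε * π ^ (e + 1)`
  set ε : V := ((u⁻¹ : Vˣ) : V) with hε
  have hεu : IsUnit ε := (u⁻¹).isUnit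
  have hgε : g = ε * π ^ (e + 1) := by
    rw [← hu, hε, mul_comm g, ← mul_assoc, Units.inv_mul, one_mul]
  set P : Matrix ι ι V := Matrix.of (fun i j => D i (z j)) with hP
  -- the determinant with `π` in column `i0`
  set w : ι → V := Function.update z i0 π with hw
  have hwdet : IsUnit (Matrix.of (fun i j => D i (w j))).det := by
    apply det_isUnit D hind hsat w
    intro D' hD' v
    apply halg D' π hπ
    · have := hD' i0
      simpa [hw] using this
    · intro j hj
      have := hD' j
      simpa [hw, Function.update_of_ne hj] using this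
  have hΔ : (Matrix.of (fun i j => D i (w j))) = P.updateCol i0 (fun i => D i π) := by
    ext i j
    by_cases hj : j = i0
    · subst hj; simp [hw]
    · simp [hw, hP, Matrix.updateCol_apply, hj, Function.update_of_ne hj]
  set Δ := (P.updateCol i0 (fun i => D i π)).det with hΔdef
  have hΔu : IsUnit Δ := by rw [hΔdef, ← hΔ]; exact hwdet
  set Δ' := (P.updateCol i0 (fun i => D i ε)).det with hΔ'def
  -- compute `D i g`
  have hDg : ∀ i, D i g = π ^ e * ((((e : V) + 1) * ε) * D i π + π * D i ε) := by
    intro i
    rw [hgε, Derivation.leibniz, Derivation.leibniz_pow]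
    simp only [smul_eq_mul, nsmul_eq_mul, Nat.add_sub_cancel]
    push_cast
    ring
  have h1 : (P.updateCol i0 (fun i => D i g)).det = dg i0 * P.det := by
    have : (fun i => D i g) = fun k => ∑ j, dg j • P k j := by
      funext i
      rw [hdg]
      simp [hP]
    rw [this, Matrix.det_updateCol_sum]
    simp
  have h2 : (P.updateCol i0 (fun i => D i g)).det =
      π ^ e * ((((e : V) + 1) * ε) * Δ + π * Δ') := by
    have : (fun i => D i g) = (π ^ e) • (((((e : V) + 1) * ε) • (fun i => D i π)) +
        (π • (fun i => D i ε))) := by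
      funext i
      simp [hDg]
    rw [this, Matrix.det_updateCol_smul, Matrix.det_updateCol_add, Matrix.det_updateCol_smul,
      Matrix.det_updateCol_smul]
  set υ := ((e : V) + 1) * ε * Δ + π * Δ' with hυ
  have heu : IsUnit ((e : V) + 1) := by
    have : ((e : V) + 1) = algebraMap k V ((e : k) + 1) := by simp
    rw [this]
    apply IsUnit.map
    exact isUnit_iff_ne_zero.mpr (by exact_mod_cast Nat.succ_ne_zero e)
  have hυu : IsUnit υ := by
    by_contra hnot
    have hm : υ ∈ maximalIdeal V := (mem_maximalIdeal _).mpr hnot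
    have h3 : ((e : V) + 1) * ε * Δ ∈ maximalIdeal V := by
      have : ((e : V) + 1) * ε * Δ = υ - π * Δ' := by rw [hυ]; ring
      rw [this]
      exact sub_mem hm (Ideal.mul_mem_right _ _ hπm)
    exact (mem_maximalIdeal _).mp h3 ((heu.mul hεu).mul hΔu)
  obtain ⟨υ', hυ'⟩ := hυu.exists_right_inv
  refine ⟨π * ε * dg i0 * υ', ?_, ?_⟩
  · rw [mul_assoc, mul_assoc]
    exact Ideal.mul_mem_right _ _ hπm
  · have h4 : dg i0 * P.det = π ^ e * υ := by rw [← h1, h2]
    calc g = ε * π ^ (e + 1) := hgε
      _ = π * ε * (π ^ e * υ) * υ' := by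
        rw [mul_assoc (π * ε), mul_assoc (π ^ e), hυ']; ring
      _ = π * ε * (dg i0 * P.det) * υ' := by rw [h4]
      _ = P.det * (π * ε * dg i0 * υ') := by ring

end DVR

end Vale.Agent.Lib.P266
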