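import Mathlib

/-!
Tameness of the different in residue characteristic zero.
-/

set_option linter.unusedSectionVars false
set_option linter.unusedSimpArgs false
set_option linter.unusedVariables false
set_option linter.style.haveILetI false
set_option linter.overlappingInstances false

open UniqueFactorizationMonoid

namespace Vale.Agent.Lib.P266

attribute [local instance] FractionRing.liftAlgebra

theorem exists_not_mem_different {R₀ T : Type*} [CommRing R₀] [IsDedekindDomain R₀] [CommRing T]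
    [IsDedekindDomain T] [Algebra R₀ T] [Module.Finite R₀ T] [Module.IsTorsionFree R₀ T]
    [Algebra.IsSeparable (FractionRing R₀) (FractionRing T)]
    (p : Ideal R₀) [hpm : p.IsMaximal] (hp : p ≠ ⊥) [CharZero (R₀ ⧸ p)]
    (P : Ideal T) [hP : P.IsMaximal] (hpP : p.map (algebraMap R₀ T) ≤ P) :
    ∃ e, p.map (algebraMap R₀ T) ≤ P ^ e ∧ ∃ z ∈ differentIdeal R₀ T, z ∉ P ^ e := by
  classical
  letI : Field (R₀ ⧸ p) := Ideal.Quotient.field p
  have hp' : p.map (algebraMap R₀ T) ≠ ⊥ :=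
    (Ideal.map_eq_bot_iff_of_injective (FaithfulSMul.algebraMap_injective R₀ T)).not.mpr hp
  obtain ⟨Q, h₁, h₂⟩ := Ideal.eq_prime_pow_mul_coprime hp' P
  set e := Multiset.count P (normalizedFactors (p.map (algebraMap R₀ T))) with he
  have he0 : e ≠ 0 := by
    intro h0
    rw [h0, pow_zero, one_mul] at h₂
    rw [h₂] at hpP
    rw [sup_eq_left.mpr hpP] at h₁
    exact hP.ne_top h₁
  have hcop : IsCoprime (P ^ e) Q := (Ideal.isCoprime_iff_sup_eq.mpr h₁).pow_left
  have hmul : P ^ e * Q = p.map (algebraMap R₀ T) := h₂.symm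
  have hnottop : P ^ e ≠ ⊤ := by
    intro ht
    have : P ^ e ≤ P := Ideal.pow_le_self he0
    rw [ht] at this
    exact hP.ne_top (top_le_iff.mp this)
  let algQ : Algebra (R₀ ⧸ p) (T ⧸ Q) := Ideal.Quotient.algebraQuotientOfLEComap (by
      rw [← Ideal.map_le_iff_le_comap, ← hmul]
      exact Ideal.mul_le_right)
  let algP : Algebra (R₀ ⧸ p) (T ⧸ P ^ e) := Ideal.Quotient.algebraQuotientOfLEComap (by
      rw [← Ideal.map_le_iff_le_comap, ← hmul]
      exact Ideal.mul_le_left)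
  have : IsScalarTower R₀ (R₀ ⧸ p) (T ⧸ Q) := .of_algebraMap_eq' rfl
  have : IsScalarTower R₀ (R₀ ⧸ p) (T ⧸ P ^ e) := .of_algebraMap_eq' rfl
  have : Module.Finite (R₀ ⧸ p) (T ⧸ Q) :=
    Module.Finite.of_restrictScalars_finite R₀ (R₀ ⧸ p) (T ⧸ Q)
  have : Module.Finite (R₀ ⧸ p) (T ⧸ P ^ e) :=
    Module.Finite.of_restrictScalars_finite R₀ (R₀ ⧸ p) (T ⧸ P ^ e)
  let E : (T ⧸ p.map (algebraMap R₀ T)) ≃ₐ[R₀ ⧸ p] ((T ⧸ P ^ e) × T ⧸ Q) :=
    { __ := (Ideal.quotEquivOfEq hmul.symm).trans (Ideal.quotientMulEquivQuotientProd _ Q hcop),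
      commutes' := Quotient.ind fun _ ↦ rfl }
  obtain ⟨y, hy⟩ := Ideal.Quotient.mk_surjective (E.symm (1, 0))
  have hnot : ¬ P ^ e ∣ differentIdeal R₀ T := by
    refine not_dvd_differentIdeal_of_intTrace_not_mem R₀ (P ^ e) Q hmul y ?_ ?_
    · have := congr((E $hy).2)
      simp at this
      simpa [E, Ideal.Quotient.eq_zero_iff_mem] using this
    · rw [← Ideal.Quotient.eq_zero_iff_mem, ← Algebra.trace_quotient_eq_of_isDedekindDomain,
        hy, Algebra.trace_eq_of_algEquiv, Algebra.trace_prod_apply]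
      have hnt : Nontrivial (T ⧸ P ^ e) := Ideal.Quotient.nontrivial_iff.mpr hnottop
      have h1 : (1 : T ⧸ P ^ e) = algebraMap (R₀ ⧸ p) (T ⧸ P ^ e) 1 := (map_one _).symm
      rw [map_zero, add_zero, h1, Algebra.trace_algebraMap, nsmul_eq_mul, mul_one]
      have hpos : Module.finrank (R₀ ⧸ p) (T ⧸ P ^ e) ≠ 0 := Module.finrank_pos.ne'
      exact_mod_cast hpos
  refine ⟨e, ?_, ?_⟩
  · rw [← hmul]
    exact Ideal.mul_le_left
  · rw [Ideal.dvd_iff_le] at hnot
    obtain ⟨z, hz, hz'⟩ := SetLike.not_le_iff_exists.mp hnot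
    exact ⟨z, hz, hz'⟩

section General

open nonZeroDivisors

/-- In residue characteristic zero, every element of the trace dual has a multiple by an element
which at `P` has valuation smaller than the ramification index. -/
theorem exists_dual_mult {k R₀ K L T : Type*} [Field k] [CharZero k] [CommRing R₀] [IsDedekindDomain R₀]
    [Field K] [Algebra R₀ K] [IsFractionRing R₀ K] [Field L] [Algebra K L] [FiniteDimensional K L]
    [Algebra R₀ L] [IsScalarTower R₀ K L] [CommRing T] [IsDedekindDomain T] [Algebra R₀ T]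
    [Algebra T L] [IsScalarTower R₀ T L] [IsFractionRing T L] [IsIntegralClosure T R₀ L]
    [Module.Finite R₀ T] [Module.IsTorsionFree R₀ T] [Algebra.IsSeparable K L]
    (φ₀ : k →+* R₀) (p : Ideal R₀) [hpm : p.IsMaximal] (hp : p ≠ ⊥)
    (P : Ideal T) [hP : P.IsMaximal] (hpP : p.map (algebraMap R₀ T) ≤ P)
    (ξ : L) (hξ : ∀ t : T, ∃ r : R₀, algebraMap R₀ K r = Algebra.trace K L (ξ * algebraMap T L t)) :
    ∃ e, p.map (algebraMap R₀ T) ≤ P ^ e ∧ ∃ z : T, z ∉ P ^ e ∧ ∃ t : T,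
      ξ * algebraMap T L z = algebraMap T L t := by
  classical
  have hnt : Nontrivial (R₀ ⧸ p) := Ideal.Quotient.nontrivial_iff.mpr hpm.ne_top
  have hchar : CharZero (R₀ ⧸ p) :=
    charZero_of_injective_ringHom ((Ideal.Quotient.mk p).comp φ₀).injective
  have hcharR₀ : CharZero R₀ := charZero_of_injective_ringHom φ₀.injective
  have hcharF : CharZero (FractionRing R₀) := IsFractionRing.charZero R₀
  have hlocF : IsLocalization (Algebra.algebraMapSubmonoid T R₀⁰) (FractionRing T) :=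
    IsIntegralClosure.isLocalization _ (FractionRing R₀) _ _
  have hfdF : FiniteDimensional (FractionRing R₀) (FractionRing T) := .of_isLocalization R₀ T R₀⁰
  have hsepF : Algebra.IsSeparable (FractionRing R₀) (FractionRing T) := inferInstance
  obtain ⟨e, he, z, hz, hz'⟩ := exists_not_mem_different p hp P hpP
  refine ⟨e, he, z, hz', ?_⟩
  have hne1 : (1 : FractionalIdeal T⁰ L) ≠ 0 := one_ne_zero
  have hdual : ξ ∈ FractionalIdeal.dual R₀ K (1 : FractionalIdeal T⁰ L) := by
    rw [FractionalIdeal.mem_dual hne1]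
    rintro a ⟨t, -, rfl⟩
    obtain ⟨r, hr⟩ := hξ t
    exact ⟨r, hr⟩
  have h1 : algebraMap T L z ∈ ((differentIdeal R₀ T : Ideal T) : FractionalIdeal T⁰ L) :=
    (FractionalIdeal.mem_coeIdeal _).mpr ⟨z, hz, rfl⟩
  rw [coeIdeal_differentIdeal R₀ K L T] at h1
  have h2 := FractionalIdeal.mul_mem_mul hdual h1
  rw [mul_inv_cancel₀ (FractionalIdeal.dual_ne_zero R₀ K hne1)] at h2
  obtain ⟨t, -, ht⟩ := (FractionalIdeal.mem_one_iff _).mp h2 |> fun ⟨t, ht⟩ => (⟨t, trivial, ht⟩ :
    ∃ t : T, True ∧ algebraMap T L t = _)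
  exact ⟨t, ht.symm⟩

end General

end Vale.Agent.Lib.P266
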