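import Mathlib

/-!
Filtered algebras with a given associated graded ring: the basic calculus of symbols.
-/

set_option linter.unusedSectionVars false
set_option linter.unusedSimpArgs false
set_option linter.unusedVariables false
set_option linter.style.haveILetI false

open DirectSum

namespace Vale.Agent.Lib.P266

variable {k A R : Type*} [Field k] [CommRing A] [Algebra k A] [CommRing R] [Algebra k R]

/-- `F` is a decreasing multiplicative filtration of `A` by ideals, with `F 0 = ⊤`, whose topology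
is the `F 1`-adic one, and the graded ring `R = ⨁ 𝓡 n` is its associated graded ring with symbol
maps `σ n`: these induce `k`-linear isomorphisms `F n / F (n + 1) ≃ 𝓡 n`, compatible with products.
-/
structure IsAssocGraded (F : ℕ → Ideal A) (𝓡 : ℕ → Submodule k R) (σ : ℕ → A →ₗ[k] R) : Prop where
  /-- The filtration starts with the whole ring. -/
  top : F 0 = ⊤
  /-- The filtration is decreasing. -/
  anti : ∀ n, F (n + 1) ≤ F n
  /-- The filtration is multiplicative. -/
  mul : ∀ i j, F i * F j ≤ F (i + j)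
  /-- The filtration is cofinal with the powers of `F 1`. -/
  cofinal : ∀ N, ∃ M, F M ≤ F 1 ^ N
  /-- The symbol of an element of `F n` has degree `n`. -/
  mem : ∀ n, ∀ x ∈ F n, σ n x ∈ 𝓡 n
  /-- The kernel of the symbol map on `F n` is `F (n + 1)`. -/
  ker : ∀ n, ∀ x ∈ F n, (σ n x = 0 ↔ x ∈ F (n + 1))
  /-- The symbol map is onto `𝓡 n`. -/
  surj : ∀ n, ∀ r ∈ 𝓡 n, ∃ x ∈ F n, σ n x = r
  /-- The symbol map is multiplicative. -/
  sym_mul : ∀ i j, ∀ x ∈ F i, ∀ y ∈ F j, σ (i + j) (x * y) = σ i x * σ j y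

section Basic

variable {F : ℕ → Ideal A} {𝓡 : ℕ → Submodule k R} {σ : ℕ → A →ₗ[k] R} [GradedAlgebra 𝓡]

namespace IsAssocGraded

variable (h : IsAssocGraded F 𝓡 σ)
include h

lemma antitone {i j : ℕ} (hij : i ≤ j) : F j ≤ F i := by
  induction hij with
  | refl => exact le_rfl
  | step _ ih => exact (h.anti _).trans ih

lemma mem_zero (x : A) : x ∈ F 0 := by
  rw [h.top]
  trivial

lemma mul_mem {i j : ℕ} {x y : A} (hx : x ∈ F i) (hy : y ∈ F j) : x * y ∈ F (i + j) :=
  h.mul i j (Ideal.mul_mem_mul hx hy)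

lemma pow_le (n : ℕ) : F 1 ^ n ≤ F n := by
  induction n with
  | zero =>
    rw [h.top]
    exact le_top
  | succ n ih =>
    rw [pow_succ]
    exact (Ideal.mul_mono_left ih).trans (h.mul n 1)

lemma sym_one : σ 0 1 = 1 := by
  obtain ⟨x, hx, hx1⟩ := h.surj 0 1 SetLike.GradedOne.one_mem
  have h1 := h.sym_mul 0 0 x hx 1 (h.mem_zero 1)
  rw [mul_one, zero_add, hx1, one_mul] at h1
  exact h1.symm

lemma sym_algebraMap (c : k) : σ 0 (algebraMap k A c) = algebraMap k R c := by
  rw [Algebra.algebraMap_eq_smul_one, map_smul, h.sym_one, Algebra.algebraMap_eq_smul_one]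

lemma sym_add_cast {i j n : ℕ} (hn : i + j = n) {x y : A} (hx : x ∈ F i) (hy : y ∈ F j) :
    σ n (x * y) = σ i x * σ j y := by
  subst hn
  exact h.sym_mul i j x hx y hy

lemma rational (h0 : ∀ r ∈ 𝓡 0, ∃ c : k, r = algebraMap k R c) (a : A) :
    ∃ c : k, a - algebraMap k A c ∈ F 1 := by
  obtain ⟨c, hc⟩ := h0 _ (h.mem 0 a (h.mem_zero a))
  refine ⟨c, (h.ker 0 _ (h.mem_zero _)).mp ?_⟩
  rw [map_sub, h.sym_algebraMap, hc, sub_self]

lemma one_not_mem [Nontrivial R] : (1 : A) ∉ F 1 := by
  intro h1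
  have := (h.ker 0 1 (h.mem_zero 1)).mpr h1
  rw [h.sym_one] at this
  exact one_ne_zero this

lemma isMaximal [Nontrivial R] (h0 : ∀ r ∈ 𝓡 0, ∃ c : k, r = algebraMap k R c) : (F 1).IsMaximal := by
  rw [Ideal.isMaximal_iff]
  refine ⟨h.one_not_mem, ?_⟩
  intro J x hle hx hxJ
  obtain ⟨c, hc⟩ := h.rational h0 x
  have hc0 : c ≠ 0 := by
    rintro rfl
    apply hx
    simpa using hc
  have h1 : algebraMap k A c ∈ J := by
    have : algebraMap k A c = x - (x - algebraMap k A c) := by ring
    rw [this]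
    exact J.sub_mem hxJ (hle hc)
  have h2 : algebraMap k A c * algebraMap k A c⁻¹ = 1 := by
    rw [← map_mul, mul_inv_cancel₀ hc0, map_one]
  rw [← h2]
  exact J.mul_mem_right _ h1

lemma cancel [Nontrivial R] (h0 : ∀ r ∈ 𝓡 0, ∃ c : k, r = algebraMap k R c)
    {s z : A} {n : ℕ} (hs : s ∉ F 1) (hz : s * z ∈ F n) : z ∈ F n := by
  rcases Nat.eq_zero_or_pos n with rfl | hn
  · exact h.mem_zero z
  have hmax := h.isMaximal h0
  have hrad : (F n).radical = F 1 := by
    apply le_antisymm
    · have h1 : F n ≤ F 1 := h.antitone hn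
      calc (F n).radical ≤ (F 1).radical := Ideal.radical_mono h1
        _ = F 1 := hmax.isPrime.radical
    · intro v hv
      exact ⟨n, h.pow_le n (Ideal.pow_mem_pow hv n)⟩
  have hprim : (F n).IsPrimary := Ideal.isPrimary_of_isMaximal_radical (by rw [hrad]; exact hmax)
  rw [Ideal.isPrimary_iff] at hprim
  rw [mul_comm] at hz
  rcases hprim.2 hz with h1 | h1
  · exact h1
  · rw [hrad] at h1
    exact absurd h1 hs

end IsAssocGraded

/-- A graded family of subspaces closed under products and containing homogeneous algebra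
generators is everything. -/
lemma graded_family_eq (S : ℕ → Submodule k R) (hle : ∀ n, S n ≤ 𝓡 n) (G : Set R)
    (hG : Algebra.adjoin k G = ⊤) (hgen : ∀ g ∈ G, ∃ n, g ∈ S n) (h1 : (1 : R) ∈ S 0)
    (hmul : ∀ i j a b, a ∈ S i → b ∈ S j → a * b ∈ S (i + j)) (n : ℕ) (r : R) (hr : r ∈ 𝓡 n) :
    r ∈ S n := by
  classical
  have hcl : ∀ m ∈ Submonoid.closure G, ∃ n, m ∈ S n := by
    intro m hm
    induction hm using Submonoid.closure_induction with
    | mem x hx => exact hgen x hx
    | one => exact ⟨0, h1⟩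
    | mul x y _ _ hx hy =>
      obtain ⟨i, hi⟩ := hx
      obtain ⟨j, hj⟩ := hy
      exact ⟨i + j, hmul i j x y hi hj⟩
  have hall : ∀ a : R, ∀ l, (decompose 𝓡 a l : R) ∈ S l := by
    intro a
    have ha : a ∈ Submodule.span k (Submonoid.closure G : Set R) := by
      rw [← Algebra.adjoin_eq_span, hG]
      trivial
    induction ha using Submodule.span_induction with
    | mem x hx =>
      intro l
      obtain ⟨n', hn'⟩ := hcl x hx
      by_cases hl : n' = l
      · subst hl
        rw [decompose_of_mem_same 𝓡 (hle _ hn')]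
        exact hn'
      · rw [decompose_of_mem_ne 𝓡 (hle _ hn') hl]
        exact (S l).zero_mem
    | zero =>
      intro l
      simp
    | add x y _ _ hx hy =>
      intro l
      rw [decompose_add, DirectSum.add_apply, Submodule.coe_add]
      exact (S l).add_mem (hx l) (hy l)
    | smul c x _ hx =>
      intro l
      rw [decompose_smul, DirectSum.smul_apply, Submodule.coe_smul]
      exact (S l).smul_mem c (hx l)
  have := hall r n
  rwa [decompose_of_mem_same 𝓡 hr] at this

end Basic

end Vale.Agent.Lib.P266
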