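import Vale.Agent.Lib.P266.Concrete

/-!
Main structure theorem for normal graded algebras with projective module of derivations.
-/

set_option linter.unusedSectionVars false
set_option linter.unusedSimpArgs false
set_option linter.unusedVariables false
set_option linter.style.haveILetI false

open MvPolynomial DirectSum

namespace Vale.Agent.Lib.P266

section Final

variable {k A L ι : Type*} [Field k] [CharZero k]
  [CommRing A] [IsDomain A] [Algebra k A] [IsIntegrallyClosed A] [Algebra.FiniteType k A]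
  (𝒜 : ℕ → Submodule k A) [GradedAlgebra 𝒜]
  [Field L] [Algebra A L] [IsFractionRing A L] [Algebra k L] [IsScalarTower k A L]
  [Fintype ι] [DecidableEq ι]

lemma finiteType_grade_zero : Algebra.FiniteType (𝒜 0) A := by
  classical
  obtain ⟨t, ht⟩ := (Algebra.FiniteType.out : (⊤ : Subalgebra k A).FG)
  have key : ∀ a ∈ Algebra.adjoin k (t : Set A), a ∈ Algebra.adjoin (𝒜 0) (t : Set A) := by
    intro a ha
    induction ha using Algebra.adjoin_induction with
    | mem x hx => exact Algebra.subset_adjoin hx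
    | algebraMap c =>
      exact Subalgebra.algebraMap_mem _ (⟨algebraMap k A c, SetLike.algebraMap_mem_graded 𝒜 c⟩ : 𝒜 0)
    | add x y _ _ hx hy => exact add_mem hx hy
    | mul x y _ _ hx hy => exact mul_mem hx hy
  exact ⟨⟨t, eq_top_iff.mpr fun a _ => key a (by rw [ht]; trivial)⟩⟩

omit [CharZero k] [IsDomain A] [IsIntegrallyClosed A] in
lemma derivation_finite : Module.Finite A (Derivation k A A) := by
  classical
  have hNoeth : IsNoetherianRing A := Algebra.FiniteType.isNoetherianRing k A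
  obtain ⟨t, ht⟩ := (Algebra.FiniteType.out : (⊤ : Subalgebra k A).FG)
  let Φ : Derivation k A A →ₗ[A] (t → A) :=
    { toFun := fun D g => D g
      map_add' := fun _ _ => rfl
      map_smul' := fun _ _ => rfl }
  have hΦ : Function.Injective Φ := by
    intro D₁ D₂ h
    ext a
    have h1 : Set.EqOn D₁ D₂ (t : Set A) := fun g hg => congrFun h ⟨g, hg⟩
    exact Derivation.eqOn_adjoin h1 (by rw [ht]; trivial)
  exact Module.Finite.of_injective Φ hΦ

include L in
theorem euler_coeff_aux (Pm : Ideal A) (hIP : irr 𝒜 ≤ Pm)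
    (D : ι → Derivation k A A)
    (hind : ∀ c : ι → A, ∑ i, c i • D i = 0 → ∀ i, c i = 0)
    (hsat : ∀ D' : Derivation k A A, ∃ u, u ∉ Pm ∧ ∃ c : ι → A, u • D' = ∑ i, c i • D i)
    (u : A) (c : ι → A) (huE : u • euler 𝒜 = ∑ i, c i • D i) (i : ι) : c i ∈ irr 𝒜 := by
  classical
  let p0 : A →ₐ[k] A :=
    { toRingHom := proj0 𝒜
      commutes' := fun c => proj0_of_mem 𝒜 (SetLike.algebraMap_mem_graded 𝒜 c) }
  let B : Subalgebra k A := p0.range
  have hBmem : ∀ b : B, (b : A) ∈ 𝒜 0 := by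
    rintro ⟨_, a, rfl⟩
    exact proj0_mem 𝒜 a
  have hmemB : ∀ b ∈ 𝒜 0, b ∈ B := fun b hb => ⟨b, proj0_of_mem 𝒜 hb⟩
  have hBfg : Algebra.FiniteType k B :=
    Algebra.FiniteType.of_surjective p0.rangeRestrict p0.rangeRestrict_surjective
  obtain ⟨t, f, finj, fint⟩ := exists_integral_inj_algHom_of_fg k B
  let Df := MvPolynomial (Fin t) k
  let fA : Df →ₐ[k] A := B.val.comp f
  letI algDfA : Algebra Df A := fA.toRingHom.toAlgebra
  have hDfA : ∀ d : Df, algebraMap Df A d = (f d : A) := fun d => rfl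
  haveI : IsScalarTower k Df A := IsScalarTower.of_algebraMap_eq (fun c => (fA.commutes c).symm)
  letI algDfL : Algebra Df L := ((algebraMap A L).comp (algebraMap Df A)).toAlgebra
  haveI : IsScalarTower Df A L := IsScalarTower.of_algebraMap_eq (fun _ => rfl)
  have hDf : ∀ d, algebraMap Df A d ∈ 𝒜 0 := fun d => hBmem (f d)
  have hinj : Function.Injective (algebraMap Df A) := by
    intro d₁ d₂ h
    exact finj (Subtype.ext h)
  have hint0 : ∀ b ∈ 𝒜 0, IsIntegral Df b := by
    intro b hb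
    obtain ⟨p, hpm, hp⟩ := fint ⟨b, hmemB b hb⟩
    refine ⟨p, hpm, ?_⟩
    have h1 := congrArg (B.val : B →ₐ[k] A) hp
    have h2 : (B.val : B →ₐ[k] A) (Polynomial.eval₂ f.toRingHom ⟨b, hmemB b hb⟩ p) =
        Polynomial.eval₂ (algebraMap Df A) b p := by
      have := Polynomial.hom_eval₂ p f.toRingHom (B.val : B →ₐ[k] A).toRingHom ⟨b, hmemB b hb⟩
      exact this
    rw [h2] at h1
    simpa using h1
  have hft : Algebra.FiniteType (𝒜 0) A := finiteType_grade_zero 𝒜
  obtain ⟨G, hG, hGpos⟩ := GradedAlgebra.exists_finset_adjoin_eq_top_and_homogeneous_ne_zero 𝒜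
  choose! δ hδ0 hδ using hGpos
  let N : ℕ := ∏ g ∈ G, δ g
  have hN : N ≠ 0 := Finset.prod_ne_zero_iff.mpr hδ0
  have hdvd : ∀ g ∈ G, δ g ∣ N := fun g hg => Finset.dvd_prod_of_mem δ hg
  let e := G.equivFin
  let u₀ : Fin G.card → A := fun i => (e.symm i : A) ^ (N / δ (e.symm i))
  have hu₀ : ∀ i, u₀ i ∈ 𝒜 N := by
    intro i
    have h1 := SetLike.pow_mem_graded (N / δ (e.symm i)) (hδ _ (e.symm i).2)
    have h2 : (N / δ (e.symm i)) • δ (e.symm i) = N := by
      rw [smul_eq_mul]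
      exact Nat.div_mul_cancel (hdvd _ (e.symm i).2)
    rwa [h2] at h1
  obtain ⟨m, y, hyN, hAlg, hC1, hC2⟩ := graded_noether (L := L) 𝒜 hDf hinj N hN G.card u₀ hu₀
  have hpos : ∀ g ∈ G, 0 < N / δ g := fun g hg =>
    Nat.div_pos (Nat.le_of_dvd (Nat.pos_of_ne_zero hN) (hdvd g hg)) (Nat.pos_of_ne_zero (hδ0 g hg))
  have hC1' : ∀ O : Subring L, (∀ d, algebraMap Df L d ∈ O) →
      (∀ d, d ≠ 0 → (algebraMap Df L d)⁻¹ ∈ O) →
      (∀ x, IsIntegral O x → x ∈ O) → (∀ j, algebraMap A L (y j) ∈ O) →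
      ∀ g ∈ G, algebraMap A L g ∈ O := by
    intro O h1 h2 h3 h4 g hg
    have h5 := hC1 O h1 h2 h3 h4 (e ⟨g, hg⟩)
    simp only [u₀, Equiv.symm_apply_apply, map_pow] at h5
    apply h3
    apply IsIntegral.of_pow (hpos g hg)
    exact (isIntegral_algebraMap (R := O) (x := (⟨_, h5⟩ : O)))
  have hC2' : ∀ P : Ideal A, P.IsPrime → (∀ d, d ≠ 0 → algebraMap Df A d ∉ P) → (∀ j, y j ∈ P) →
      ∀ g ∈ G, g ∈ P := by
    intro P hP h1 h2 g hg
    have h5 := hC2 P hP h1 h2 (e ⟨g, hg⟩)
    simp only [u₀, Equiv.symm_apply_apply] at h5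
    exact hP.mem_of_pow_mem _ h5
  exact euler_coeff_concrete (L := L) 𝒜 hDf hinj hint0 y hAlg N hN hyN G hG
    (fun g hg => ⟨δ g, hδ0 g hg, hδ g hg⟩) hC1' hC2' Pm hIP D hind hsat u c huE i

/-- **Structure theorem.** Let `A` be a normal finitely generated `ℕ`-graded algebra over a field
of characteristic zero whose module of derivations is projective.  Locally on the degree zero
part near any prime, `A` is a polynomial ring over its degree zero part on homogeneous generators
of positive degree. -/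
theorem graded_structure [Module.Projective A (Derivation k A A)] (Pm : Ideal A) [hPm : Pm.IsPrime]
    (hIP : irr 𝒜 ≤ Pm) :
    ∃ X : Finset A, (∀ x ∈ X, ∃ n, n ≠ 0 ∧ x ∈ 𝒜 n) ∧
      AlgebraicIndependent (𝒜 0) (fun x : X => (x : A)) ∧
      ∃ u, u ∈ 𝒜 0 ∧ u ∉ Pm ∧ ∀ a, ∃ N, u ^ N * a ∈ Algebra.adjoin (𝒜 0) (X : Set A) := by
  classical
  have hfin : Module.Finite A (Derivation k A A) := derivation_finite
  obtain ⟨n, D, hind, hsat⟩ := exists_local_basis_module (M := Derivation k A A) Pm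
  obtain ⟨u, hu, c, hc⟩ := hsat (euler 𝒜)
  have hft : Algebra.FiniteType (𝒜 0) A := finiteType_grade_zero 𝒜
  exact structure_of_euler 𝒜 Pm hIP u hu c
    (euler_coeff_aux (L := FractionRing A) 𝒜 Pm hIP D hind hsat u c hc) D hc

end Final

end Vale.Agent.Lib.P266
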