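import Vale.Agent.Lib.P266.TraceCut

/-!
The constant term of the trace of an element that vanishes at all points of the fibre over the
origin except one rational point, where it does not vanish.
-/

set_option linter.unusedSectionVars false
set_option linter.unusedSimpArgs false
set_option linter.unusedVariables false
set_option linter.style.haveILetI false

open Polynomial

namespace Vale.Agent.Lib.P266

section PolyFactor

variable {k : Type*} [Field k]

lemma nextCoeff_of_factors (c : k) (h : k[X])
    (hf : ∀ π : k[X], π.Monic → Irreducible π → π ∣ h → π = X ∨ π = X - C c) :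
    ∀ n : ℕ, ∀ q : k[X], q.natDegree = n → q.Monic → q ∣ h →
      ∃ β : ℕ, q.nextCoeff = -(β : k) * c := by
  intro n
  induction n using Nat.strong_induction_on with
  | _ n ih =>
    intro q hn hq hqh
    by_cases hu : IsUnit q
    · have h1 : q = 1 := hq.eq_one_of_isUnit hu
      refine ⟨0, ?_⟩
      rw [h1]
      simp [Polynomial.nextCoeff]
    · obtain ⟨π, hπm, hπi, hπq⟩ := Polynomial.exists_monic_irreducible_factor q hu
      obtain ⟨q', rfl⟩ := hπq
      have hq' : q'.Monic := hπm.of_mul_monic_left hq
      have hπd : π.natDegree ≠ 0 := hπi.natDegree_pos.ne'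
      have hlt : q'.natDegree < n := by
        rw [← hn, hπm.natDegree_mul hq']
        omega
      obtain ⟨β, hβ⟩ := ih _ hlt q' rfl hq' (dvd_trans (dvd_mul_left _ _) hqh)
      rw [hπm.nextCoeff_mul hq', hβ]
      rcases hf π hπm hπi (dvd_trans (dvd_mul_right _ _) hqh) with rfl | rfl
      · refine ⟨β, ?_⟩
        rw [show (X : k[X]) = X - C 0 by simp, nextCoeff_X_sub_C]
        simp
      · refine ⟨β + 1, ?_⟩
        rw [nextCoeff_X_sub_C]
        push_cast
        ring

lemma nextCoeff_map_of_monic {R S : Type*} [CommRing R] [CommRing S] [Nontrivial S] (f : R →+* S)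
    (h : R[X]) (hm : h.Monic) : (h.map f).nextCoeff = f h.nextCoeff := by
  have hd : (h.map f).natDegree = h.natDegree := hm.natDegree_map f
  unfold Polynomial.nextCoeff
  rw [hd]
  by_cases h0 : h.natDegree = 0
  · simp [h0]
  · simp [h0, coeff_map]

end PolyFactor

section TraceResidue

variable {k A L K P : Type*} [Field k] [CharZero k]
  [CommRing A] [IsDomain A] [Algebra k A]
  [Field L] [Algebra A L] [IsFractionRing A L]
  [CommRing P] [IsDomain P] [IsIntegrallyClosed P] [Algebra k P]
  [Algebra P A] [Algebra P L]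
  [IsScalarTower P A L] [IsScalarTower k P A]
  [Field K] [Algebra P K] [IsFractionRing P K]
  [Algebra K L] [IsScalarTower P K L] [FiniteDimensional K L]

/-- The key computation: the irreducible factors of the reduction of the minimal polynomial. -/
theorem minpoly_factor (hint : ∀ a : A, IsIntegral P a)
    (hinj : Function.Injective (algebraMap P A))
    (φ : P →+* k) (hφC : ∀ c : k, φ (algebraMap k P c) = c)
    (m : Ideal A) [hm : m.IsMaximal]
    (c : k) (w : A) (hwc : w - algebraMap k A c ∈ m)
    (hother : ∀ M : Ideal A, M.IsPrime → (∀ p : P, φ p = 0 → algebraMap P A p ∈ M) →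
      M ≠ m → w ∈ M)
    (π : k[X]) (hπm : π.Monic) (hπi : Irreducible π)
    (hπ : π ∣ (minpoly P w).map φ) :
    π = X ∨ π = X - C c := by
  classical
  set h := minpoly P w with hh
  haveI : Fact (Irreducible π) := ⟨hπi⟩
  let E := AdjoinRoot π
  let Ψ : P[X] →+* E := Polynomial.eval₂RingHom ((AdjoinRoot.of π).comp φ) (AdjoinRoot.root π)
  have hΨ : ∀ p : P[X], Ψ p = Polynomial.eval₂ (AdjoinRoot.of π) (AdjoinRoot.root π) (p.map φ) := by
    intro p
    show Polynomial.eval₂ ((AdjoinRoot.of π).comp φ) (AdjoinRoot.root π) p = _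
    rw [Polynomial.eval₂_map]
  have hroot : Polynomial.eval₂ (AdjoinRoot.of π) (AdjoinRoot.root π) π = 0 := AdjoinRoot.eval₂_root π
  have hΨh : Ψ h = 0 := by
    rw [hΨ]
    obtain ⟨q, hq⟩ := hπ
    rw [hq, Polynomial.eval₂_mul, hroot, zero_mul]
  let Q : P[X] →+* A := ((Polynomial.aeval w : P[X] →ₐ[P] A) : P[X] →+* A)
  letI algQ : Algebra P[X] A := Q.toAlgebra
  have hQC : ∀ p : P, algebraMap P[X] A (Polynomial.C p) = algebraMap P A p := by
    intro p
    show (Polynomial.aeval w : P[X] →ₐ[P] A) (Polynomial.C p) = _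
    simp
  haveI tow : IsScalarTower P P[X] A := IsScalarTower.of_algebraMap_eq (fun p => (hQC p).symm)
  haveI : Algebra.IsIntegral P[X] A := ⟨fun a => (hint a).tower_top⟩
  have hprime : (RingHom.ker Ψ).IsPrime := RingHom.ker_isPrime Ψ
  haveI : Module.IsTorsionFree P A := Module.isTorsionFree_iff_algebraMap_injective.mpr hinj
  have hI : (⊥ : Ideal A).comap (algebraMap P[X] A) ≤ RingHom.ker Ψ := by
    intro p hp
    have h0 : (Polynomial.aeval w : P[X] →ₐ[P] A) p = 0 := by
      rw [Ideal.mem_comap, Ideal.mem_bot] at hp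
      exact hp
    obtain ⟨q, rfl⟩ := minpoly.isIntegrallyClosed_dvd (hint w) h0
    rw [RingHom.mem_ker, map_mul, hΨh, zero_mul]
  obtain ⟨M, -, hMp, hMc⟩ := Ideal.exists_ideal_over_prime_of_isIntegral (RingHom.ker Ψ) ⊥ hI
  have hofinj : Function.Injective (AdjoinRoot.of π) := (AdjoinRoot.of π).injective
  have hPM : ∀ p : P, algebraMap P A p ∈ M ↔ φ p = 0 := by
    intro p
    rw [← hQC, ← Ideal.mem_comap, hMc, RingHom.mem_ker]
    have : Ψ (Polynomial.C p) = AdjoinRoot.of π (φ p) := by
      show Polynomial.eval₂ ((AdjoinRoot.of π).comp φ) (AdjoinRoot.root π) (Polynomial.C p) = _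
      simp
    rw [this]
    exact ⟨fun h0 => hofinj (by simpa using h0), fun h0 => by simp [h0]⟩
  have hkM : ∀ c' : k, algebraMap k A c' ∈ M → c' = 0 := by
    intro c' h0
    by_contra hne
    apply hMp.ne_top
    rw [Ideal.eq_top_iff_one]
    have h1 : algebraMap k A c' * algebraMap k A c'⁻¹ = 1 := by
      rw [← map_mul, mul_inv_cancel₀ hne, map_one]
    rw [← h1]
    exact M.mul_mem_right _ h0
  -- the value of `π` at `w` lies in `M`
  have hvM : Polynomial.aeval w π ∈ M := by
    have h1 : Ψ (π.map (algebraMap k P)) = 0 := by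
      rw [hΨ, Polynomial.map_map]
      have : φ.comp (algebraMap k P) = RingHom.id k := by
        ext c
        exact hφC c
      rw [this, Polynomial.map_id, hroot]
    have h2 : π.map (algebraMap k P) ∈ M.comap (algebraMap P[X] A) := by
      rw [hMc, RingHom.mem_ker]
      exact h1
    have h3 : algebraMap P[X] A (π.map (algebraMap k P)) = Polynomial.aeval w π := by
      show (Polynomial.aeval w : P[X] →ₐ[P] A) (π.map (algebraMap k P)) = _
      exact Polynomial.aeval_map_algebraMap P w π
    rw [Ideal.mem_comap, h3] at h2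
    exact h2
  have hdiff : ∀ c' : k, w - algebraMap k A c' ∈ M → π.eval c' = 0 := by
    intro c' hb
    apply hkM
    have h1 := Polynomial.sub_dvd_eval_sub w (algebraMap k A c') (π.map (algebraMap k A))
    have h2 : Polynomial.eval w (π.map (algebraMap k A)) = Polynomial.aeval w π :=
      Polynomial.eval_map_algebraMap π w
    have h3 : Polynomial.eval (algebraMap k A c') (π.map (algebraMap k A)) =
        algebraMap k A (π.eval c') := by
      rw [Polynomial.eval_map_apply]
    rw [h2, h3] at h1
    have h4 : Polynomial.aeval w π - algebraMap k A (π.eval c') ∈ M := Ideal.mem_of_dvd _ h1 hb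
    have h5 := M.sub_mem hvM h4
    simpa using h5
  have hroot_eq : ∀ c' : k, π.eval c' = 0 → π = X - C c' := by
    intro c' h0
    have h1 : (X - C c') ∣ π := Polynomial.dvd_iff_isRoot.mpr h0
    have h2 : Associated (X - C c') π :=
      (Polynomial.irreducible_X_sub_C c').associated_of_dvd hπi h1
    exact (eq_of_monic_of_associated (Polynomial.monic_X_sub_C c') hπm h2).symm
  have hMX : ∀ p : P, φ p = 0 → algebraMap P A p ∈ M := fun p hp => (hPM p).mpr hp
  by_cases hMm : M = m
  · right
    apply hroot_eq
    apply hdiff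
    rw [hMm]
    exact hwc
  · left
    have hw0 : w ∈ M := hother M hMp hMX hMm
    have h0 := hroot_eq 0 (hdiff 0 (by simpa using hw0))
    simpa using h0

include K L in
/-- The constant term of the trace of `w`. -/
theorem trace_residue (hint : ∀ a : A, IsIntegral P a)
    (hinj : Function.Injective (algebraMap P A))
    (φ : P →+* k) (hφC : ∀ c : k, φ (algebraMap k P c) = c)
    (m : Ideal A) [hm : m.IsMaximal]
    (hφm : ∀ p : P, algebraMap P A p - algebraMap k A (φ p) ∈ m)
    (c : k) (hc : c ≠ 0) (w : A) (hwc : w - algebraMap k A c ∈ m)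
    (hother : ∀ M : Ideal A, M.IsPrime → (∀ p : P, φ p = 0 → algebraMap P A p ∈ M) →
      M ≠ m → w ∈ M)
    (s : P)
    (hs : algebraMap P K s = Algebra.trace K L (algebraMap A L w)) :
    φ s ≠ 0 := by
  classical
  set h := minpoly P w with hh
  have hmon : h.Monic := minpoly.monic (hint w)
  haveI : Module.IsTorsionFree P A := Module.isTorsionFree_iff_algebraMap_injective.mpr hinj
  -- the root of the reduction
  have hroot : (h.map φ).eval c = 0 := by
    let κ : A →+* A ⧸ m := Ideal.Quotient.mk m
    have hκw : κ w = κ (algebraMap k A c) := Ideal.Quotient.eq.mpr hwc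
    have hκP : κ.comp (algebraMap P A) = (κ.comp (algebraMap k A)).comp φ := by
      ext1 p
      exact Ideal.Quotient.eq.mpr (hφm p)
    have h0 : Polynomial.eval₂ (algebraMap P A) w h = 0 := minpoly.aeval P w
    have h1 := congrArg κ h0
    rw [Polynomial.hom_eval₂, map_zero, hκP, hκw, ← Polynomial.eval₂_map] at h1
    have h2 : (κ.comp (algebraMap k A)) ((h.map φ).eval c) = 0 := by
      rw [← Polynomial.eval₂_at_apply]
      exact h1
    exact (map_eq_zero _).mp h2
  have hfac := minpoly_factor hint hinj φ hφC m c w hwc hother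
  obtain ⟨q, hq⟩ : (X - C c) ∣ h.map φ := Polynomial.dvd_iff_isRoot.mpr hroot
  have hmapmon : (h.map φ).Monic := hmon.map φ
  have hqm : q.Monic := (Polynomial.monic_X_sub_C c).of_mul_monic_left (hq ▸ hmapmon)
  obtain ⟨β, hβ⟩ := nextCoeff_of_factors c (h.map φ) (fun π hπm hπi hπ => hfac π hπm hπi hπ)
    q.natDegree q rfl hqm ⟨X - C c, by rw [hq]; ring⟩
  have hnext : φ h.nextCoeff = -((β : k) + 1) * c := by
    rw [← nextCoeff_map_of_monic φ h hmon, hq, (Polynomial.monic_X_sub_C c).nextCoeff_mul hqm, hβ,
      nextCoeff_X_sub_C]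
    ring
  -- the trace
  have hmin : minpoly K (algebraMap A L w) = h.map (algebraMap P K) :=
    minpoly.isIntegrallyClosed_eq_field_fractions K L (hint w)
  have htr := trace_eq_finrank_mul_minpoly_nextCoeff K (algebraMap A L w)
  rw [hmin, nextCoeff_map_of_monic _ h hmon, ← hs] at htr
  have hinjK : Function.Injective (algebraMap P K) := IsFractionRing.injective P K
  have hs' : s = ((Module.finrank (IntermediateField.adjoin K {algebraMap A L w}) L : ℕ) : P) *
      (-h.nextCoeff) := by
    apply hinjK
    rw [htr]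
    simp
  intro h0
  rw [hs', map_mul, map_neg, hnext, map_natCast] at h0
  have hr : ((Module.finrank (IntermediateField.adjoin K {algebraMap A L w}) L : ℕ) : k) ≠ 0 := by
    have : Module.finrank (IntermediateField.adjoin K {algebraMap A L w}) L ≠ 0 :=
      Module.finrank_pos.ne'
    exact_mod_cast this
  have hβ1 : (β : k) + 1 ≠ 0 := by
    exact_mod_cast Nat.succ_ne_zero β
  simp only [neg_mul, neg_neg, mul_eq_zero] at h0
  rcases h0 with h0 | h0 | h0
  · exact hr h0
  · exact hβ1 h0
  · exact hc h0

end TraceResidue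

end Vale.Agent.Lib.P266
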