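import Vale.Agent.Lib.P266.TraceCut
import Vale.Agent.Lib.P266.TraceResidue

/-!
The Jacobian of a basis of derivations near a rational point `m` over the origin does not lie in the
ideal generated by the polynomial variables, even after multiplication by a unit at `m`.
-/

set_option linter.unusedSectionVars false
set_option linter.unusedSimpArgs false
set_option linter.unusedVariables false
set_option linter.style.haveILetI false

open IsLocalRing nonZeroDivisors MvPolynomial

namespace Vale.Agent.Lib.P266

section JacLocal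

variable {k A L K σ : Type*} [Field k] [CharZero k]
  [CommRing A] [IsDomain A] [Algebra k A] [IsIntegrallyClosed A] [Algebra.FiniteType k A]
  [Field L] [Algebra A L] [IsFractionRing A L] [Algebra k L] [IsScalarTower k A L]
  [Fintype σ] [DecidableEq σ]
  [Algebra (MvPolynomial σ k) A] [Algebra (MvPolynomial σ k) L]
  [IsScalarTower (MvPolynomial σ k) A L] [IsScalarTower k (MvPolynomial σ k) L]
  [IsScalarTower k (MvPolynomial σ k) A]
  [Field K] [CharZero K] [Algebra (MvPolynomial σ k) K] [IsFractionRing (MvPolynomial σ k) K]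
  [Algebra K L] [IsScalarTower (MvPolynomial σ k) K L] [FiniteDimensional K L]

omit [Algebra.FiniteType k A] [IsIntegrallyClosed A] in
/-- A derivation killing the polynomial subring of an integral extension vanishes. -/
lemma deriv_eq_zero_of_kills (hint : ∀ a : A, IsIntegral (MvPolynomial σ k) a)
    (hinj : Function.Injective (algebraMap (MvPolynomial σ k) A))
    (D : Derivation k A A) (hD : ∀ j, D (algebraMap (MvPolynomial σ k) A (X j)) = 0) : D = 0 := by
  classical
  have hD' : ∀ p : MvPolynomial σ k, D (algebraMap (MvPolynomial σ k) A p) = 0 := by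
    intro p
    have h : algebraMap (MvPolynomial σ k) A p =
        aeval (fun j => algebraMap (MvPolynomial σ k) A (X j)) p := by
      have := MvPolynomial.aeval_unique (IsScalarTower.toAlgHom k (MvPolynomial σ k) A)
      exact congrArg (fun f => f p) this
    rw [h, chain_rule]
    exact Finset.sum_eq_zero (fun j _ => by rw [hD j, mul_zero])
  let D₁ : Derivation (MvPolynomial σ k) A A := Derivation.mk'
    { toFun := D
      map_add' := map_add D
      map_smul' := fun p a => by
        simp only [RingHom.id_apply, Algebra.smul_def, Derivation.leibniz, smul_eq_mul, hD', mul_zero,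
          add_zero]
        rfl }
    (fun a b => by
      show D (a * b) = _
      rw [Derivation.leibniz]
      rfl)
  have hD₁ : ∀ a, D₁ a = D a := fun a => rfl
  haveI : Module.IsTorsionFree (MvPolynomial σ k) A :=
    Module.isTorsionFree_iff_algebraMap_injective.mpr hinj
  ext a
  have hpos := minpoly.natDegree_pos (hint a)
  have h0 := D₁.map_aeval (minpoly (MvPolynomial σ k) a) a
  rw [minpoly.aeval, map_zero] at h0
  rw [Derivation.coe_zero, Pi.zero_apply]
  have hne : Polynomial.aeval a (Polynomial.derivative (minpoly (MvPolynomial σ k) a)) ≠ 0 := by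
    intro hz
    have hdvd := minpoly.isIntegrallyClosed_dvd (hint a) hz
    have hder0 : Polynomial.derivative (minpoly (MvPolynomial σ k) a) ≠ 0 := by
      intro hz'
      have := Polynomial.natDegree_eq_zero_of_derivative_eq_zero hz'
      omega
    have := Polynomial.natDegree_le_of_dvd hdvd hder0
    have h3 := Polynomial.natDegree_derivative_lt (ne_of_gt hpos)
    omega
  rcases smul_eq_zero.mp h0.symm with h | h
  · exact absurd h hne
  · rw [← hD₁]
    exact h

/-- The Jacobian of a family of independent derivations is nonzero. -/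
lemma jac_ne_zero (hint : ∀ a : A, IsIntegral (MvPolynomial σ k) a)
    (hinj : Function.Injective (algebraMap (MvPolynomial σ k) A))
    (D : σ → Derivation k A A)
    (hind : ∀ c : σ → A, ∑ i, c i • D i = 0 → ∀ i, c i = 0) :
    jacOf (fun j => (X j : MvPolynomial σ k)) D ≠ 0 := by
  intro hJ
  obtain ⟨v, hv, hv0⟩ := Matrix.exists_vecMul_eq_zero_iff.mpr hJ
  apply hv
  funext i
  refine hind v (deriv_eq_zero_of_kills hint hinj _ ?_) i
  intro j
  have := congrFun hv0 j
  simp only [Matrix.vecMul, dotProduct, Matrix.of_apply, Pi.zero_apply] at this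
  rw [sum_smul_deriv_apply]
  exact this

/-- Stabilization of the colon ideals. -/
lemma exists_colon_stable [IsNoetherianRing A] (u₀ J : A) :
    ∃ N : ℕ, ∀ y : A, u₀ ^ (N + 1) * y ∈ Ideal.span {J} → u₀ ^ N * y ∈ Ideal.span {J} := by
  let I : ℕ →o Ideal A :=
    { toFun := fun n => Submodule.comap (LinearMap.mulLeft A (u₀ ^ n)) (Ideal.span {J})
      monotone' := by
        intro a b hab y hy
        obtain ⟨c, rfl⟩ := Nat.exists_eq_add_of_le hab
        simp only [Submodule.mem_comap, LinearMap.mulLeft_apply] at hy ⊢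
        rw [pow_add, mul_comm (u₀ ^ a), mul_assoc]
        exact Ideal.mul_mem_left _ _ hy }
  obtain ⟨N, hN⟩ := monotone_stabilizes_iff_noetherian.mpr (inferInstance : IsNoetherian A A) I
  refine ⟨N, fun y hy => ?_⟩
  have h1 : y ∈ I (N + 1) := hy
  rw [← hN (N + 1) (Nat.le_succ N)] at h1
  exact h1

/-- All traces of `u₀ ^ (N + 1) * a / J` are polynomials. -/
theorem trace_cut_poly (hint : ∀ a : A, IsIntegral (MvPolynomial σ k) a)
    (D : σ → Derivation k A A)
    (hind : ∀ c : σ → A, ∑ i, c i • D i = 0 → ∀ i, c i = 0)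
    (u₀ : A) (hu0 : u₀ ≠ 0) (hsat : ∀ D' : Derivation k A A, ∃ c : σ → A, u₀ • D' = ∑ i, c i • D i)
    (N : ℕ) (hN : ∀ y : A, u₀ ^ (N + 1) * y ∈ Ideal.span {jacOf (fun j => (X j : MvPolynomial σ k)) D} →
      u₀ ^ N * y ∈ Ideal.span {jacOf (fun j => (X j : MvPolynomial σ k)) D})
    (hJ : jacOf (fun j => (X j : MvPolynomial σ k)) D ≠ 0)
    (a : A) :
    ∃ s : MvPolynomial σ k, algebraMap (MvPolynomial σ k) K s = Algebra.trace K L
      (algebraMap A L (u₀ ^ (N + 1)) * algebraMap A L a /
        algebraMap A L (jacOf (fun j => (X j : MvPolynomial σ k)) D)) := by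
  classical
  set x := Algebra.trace K L (algebraMap A L (u₀ ^ (N + 1)) * algebraMap A L a /
        algebraMap A L (jacOf (fun j => (X j : MvPolynomial σ k)) D)) with hx
  obtain ⟨s, w, hrel, hsw⟩ := IsFractionRing.exists_reduced_fraction (A := MvPolynomial σ k) x
  have hw0 : (w : MvPolynomial σ k) ≠ 0 := nonZeroDivisors.ne_zero w.2
  have hwK : algebraMap (MvPolynomial σ k) K w ≠ 0 := by
    intro h
    exact hw0 (IsFractionRing.injective (MvPolynomial σ k) K (by simpa using h))
  have heq : algebraMap (MvPolynomial σ k) K w * x = algebraMap (MvPolynomial σ k) K s := by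
    rw [← hsw]
    exact IsLocalization.mk'_spec' _ _ _
  have hwU : IsUnit (w : MvPolynomial σ k) := by
    by_contra hwU
    obtain ⟨g, hgp, hgw⟩ := WfDvdMonoid.exists_irreducible_factor hwU hw0
    have hg : Prime g := hgp.prime
    obtain ⟨i0, hi0⟩ := exists_pderiv_not_mem g hg.ne_zero hg.not_isUnit
    obtain ⟨s', w', hw', hsw'⟩ := trace_cut_mem (k := k) (K := K) (L := L)
      (fun j => (X j : MvPolynomial σ k)) (fun j => pderiv j)
      chain_algebraMap g hg i0 hi0 D hind u₀ hu0 hsat N hN hJ
      (fun a => ⟨1, by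
        rw [Ideal.mem_span_singleton]
        intro h1
        exact hg.not_dvd_one h1, by simpa using hint a⟩) a
    rw [← hx] at hsw'
    have hcross : (w' : MvPolynomial σ k) * s = s' * w := by
      apply IsFractionRing.injective (MvPolynomial σ k) K
      rw [map_mul, map_mul, ← hsw', ← heq]
      ring
    have hgd : g ∣ w' * s := by
      rw [hcross]
      exact hgw.mul_left _
    have hgw' : ¬ g ∣ w' := by
      intro h
      apply hw'
      rw [Ideal.mem_span_singleton]
      exact h
    have hgs : g ∣ s := (hg.dvd_or_dvd hgd).resolve_left hgw'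
    exact hg.not_isUnit (hrel hgs hgw)
  obtain ⟨v, hv⟩ := hwU
  refine ⟨(↑v⁻¹ : MvPolynomial σ k) * s, ?_⟩
  rw [map_mul, ← heq, ← mul_assoc, ← map_mul, ← hv, Units.inv_mul, map_one, one_mul]

omit [IsIntegrallyClosed A] [Algebra.FiniteType k A] in
/-- The elements of the polynomial ring modulo a maximal ideal containing the variables. -/
lemma algebraMap_sub_constantCoeff_mem (I : Ideal A) (hX : ∀ j, algebraMap (MvPolynomial σ k) A
    (MvPolynomial.X j) ∈ I) (p : MvPolynomial σ k) :
    algebraMap (MvPolynomial σ k) A p - algebraMap k A (MvPolynomial.constantCoeff p) ∈ I := by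
  induction p using MvPolynomial.induction_on with
  | C c =>
    have : algebraMap (MvPolynomial σ k) A (MvPolynomial.C c) = algebraMap k A c := by
      rw [IsScalarTower.algebraMap_apply k (MvPolynomial σ k) A]
      rfl
    rw [this]
    simp
  | add p q hp hq =>
    have h1 : algebraMap (MvPolynomial σ k) A (p + q) -
        algebraMap k A (MvPolynomial.constantCoeff (p + q)) =
        (algebraMap (MvPolynomial σ k) A p - algebraMap k A (MvPolynomial.constantCoeff p)) +
        (algebraMap (MvPolynomial σ k) A q - algebraMap k A (MvPolynomial.constantCoeff q)) := by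
      simp only [map_add]
      ring
    rw [h1]
    exact add_mem hp hq
  | mul_X p j hp =>
    have h1 : algebraMap (MvPolynomial σ k) A (p * MvPolynomial.X j) -
        algebraMap k A (MvPolynomial.constantCoeff (p * MvPolynomial.X j)) =
        algebraMap (MvPolynomial σ k) A p * algebraMap (MvPolynomial σ k) A (MvPolynomial.X j) := by
      simp
    rw [h1]
    exact I.mul_mem_left _ (hX j)

omit [IsIntegrallyClosed A] [Algebra.FiniteType k A] in
/-- A cut-off element: outside `m`, inside all other primes over the origin. -/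
lemma exists_cutoff [IsNoetherianRing A] (hint : ∀ a : A, IsIntegral (MvPolynomial σ k) a)
    (hinj : Function.Injective (algebraMap (MvPolynomial σ k) A))
    (φ : MvPolynomial σ k →+* k) (hφC : ∀ c : k, φ (algebraMap k (MvPolynomial σ k) c) = c)
    (m : Ideal A) [hm : m.IsMaximal] :
    ∃ w₀ : A, w₀ ∉ m ∧ ∀ M : Ideal A, M.IsPrime →
      (∀ p : MvPolynomial σ k, φ p = 0 → algebraMap (MvPolynomial σ k) A p ∈ M) → M ≠ m → w₀ ∈ M := by
  classical
  let I : Ideal A := Ideal.map (algebraMap (MvPolynomial σ k) A) (RingHom.ker φ)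
  have hsurj : Function.Surjective φ := fun c => ⟨algebraMap k _ c, hφC c⟩
  have hmaxφ : (RingHom.ker φ).IsMaximal := RingHom.ker_isMaximal_of_surjective φ hsurj
  haveI : Algebra.IsIntegral (MvPolynomial σ k) A := ⟨hint⟩
  have hImax : ∀ M : Ideal A, M.IsPrime → I ≤ M → M.IsMaximal := by
    intro M hM hIM
    have hle : RingHom.ker φ ≤ M.comap (algebraMap (MvPolynomial σ k) A) :=
      Ideal.map_le_iff_le_comap.mp hIM
    have heq : M.comap (algebraMap (MvPolynomial σ k) A) = RingHom.ker φ :=
      (hmaxφ.eq_of_le (Ideal.comap_ne_top _ hM.ne_top) hle).symm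
    haveI := hM
    apply Ideal.isMaximal_of_isIntegral_of_isMaximal_comap (R := MvPolynomial σ k) M
    rw [heq]
    exact hmaxφ
  have hmin : ∀ M : Ideal A, M.IsPrime → I ≤ M → M ∈ I.minimalPrimes := by
    intro M hM hIM
    refine ⟨⟨hM, hIM⟩, ?_⟩
    rintro M' ⟨hM', hIM'⟩ hle
    exact ((hImax M' hM' hIM').eq_of_le hM.ne_top hle).symm.le
  have hfin : I.minimalPrimes.Finite := Ideal.finite_minimalPrimes_of_isNoetherianRing A I
  have hb : ∀ M : Ideal A, ∃ b : A, (M.IsPrime → I ≤ M → M ≠ m → b ∈ M) ∧ b ∉ m := by
    intro M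
    by_cases hMc : M.IsPrime ∧ I ≤ M ∧ M ≠ m
    · obtain ⟨h1, h2, h3⟩ := hMc
      have h4 : ¬ M ≤ m := by
        intro hle
        exact h3 ((hImax M h1 h2).eq_of_le hm.ne_top hle)
      obtain ⟨b, hbM, hbm⟩ := SetLike.not_le_iff_exists.mp h4
      exact ⟨b, fun _ _ _ => hbM, hbm⟩
    · refine ⟨1, fun h1 h2 h3 => absurd ⟨h1, h2, h3⟩ hMc, ?_⟩
      intro h1
      exact hm.ne_top ((Ideal.eq_top_iff_one _).mpr h1)
  choose b hbM hbm using hb
  refine ⟨∏ M ∈ hfin.toFinset, b M, ?_, ?_⟩
  · intro h
    obtain ⟨M, -, hM⟩ := (hm.isPrime.prod_mem_iff).mp h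
    exact hbm M hM
  · intro M hM hMI hMm
    have hI : I ≤ M := by
      rw [Ideal.map_le_iff_le_comap]
      intro p hp
      exact hMI p hp
    exact Ideal.mem_of_dvd _ (Finset.dvd_prod_of_mem b (hfin.mem_toFinset.mpr (hmin M hM hI)))
      (hbM M hM hI hMm)

include K L in
/-- **Non-membership theorem.**  Let `A` be a normal finitely generated algebra, integral over the
polynomial ring `P = k[X_j]`; let `m` be a rational point over the origin, `D_i` a basis of the
derivations near `m`.  Then the Jacobian of the `X_j` with respect to `D_i` does not lie in the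
ideal generated by the `X_j`, even locally at `m`. -/
theorem jac_not_mem (hint : ∀ a : A, IsIntegral (MvPolynomial σ k) a)
    (hinj : Function.Injective (algebraMap (MvPolynomial σ k) A))
    (m : Ideal A) [hm : m.IsMaximal] (hrat : ∀ a : A, ∃ c : k, a - algebraMap k A c ∈ m)
    (hXm : ∀ j, algebraMap (MvPolynomial σ k) A (X j) ∈ m)
    (D : σ → Derivation k A A)
    (hind : ∀ c : σ → A, ∑ i, c i • D i = 0 → ∀ i, c i = 0)
    (u₀ : A) (hu0 : u₀ ∉ m) (hsat : ∀ D' : Derivation k A A, ∃ c : σ → A, u₀ • D' = ∑ i, c i • D i)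
    (s : A) (hs : s ∉ m) (c : σ → A) :
    s * jacOf (fun j => (X j : MvPolynomial σ k)) D ≠
      ∑ j, c j * algebraMap (MvPolynomial σ k) A (X j) := by
  classical
  intro heq
  haveI : IsNoetherianRing A := Algebra.FiniteType.isNoetherianRing k A
  set J := jacOf (fun j => (X j : MvPolynomial σ k)) D with hJdef
  have hu00 : u₀ ≠ 0 := fun h => hu0 (h ▸ m.zero_mem)
  have hJ : J ≠ 0 := jac_ne_zero hint hinj D hind
  have hJL : algebraMap A L J ≠ 0 := by
    simpa using (map_ne_zero_iff _ (IsFractionRing.injective A L)).mpr hJ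
  obtain ⟨N, hN⟩ := exists_colon_stable u₀ J
  let φ : MvPolynomial σ k →+* k := MvPolynomial.constantCoeff
  have hφC : ∀ c : k, φ (algebraMap k (MvPolynomial σ k) c) = c := fun c => by
    show MvPolynomial.constantCoeff (C c) = c
    simp
  obtain ⟨w₀, hw₀, hw₀M⟩ := exists_cutoff hint hinj φ hφC m
  let w : A := u₀ ^ (N + 1) * s * w₀
  have hwm : w ∉ m := by
    intro h
    rcases hm.isPrime.mem_or_mem h with h | h
    · rcases hm.isPrime.mem_or_mem h with h | h
      · exact hu0 (hm.isPrime.mem_of_pow_mem _ h)
      · exact hs h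
    · exact hw₀ h
  obtain ⟨r, hr⟩ := hrat w
  have hr0 : r ≠ 0 := by
    rintro rfl
    apply hwm
    simpa using hr
  have hφm : ∀ p : MvPolynomial σ k, algebraMap (MvPolynomial σ k) A p - algebraMap k A (φ p) ∈ m :=
    algebraMap_sub_constantCoeff_mem m hXm
  choose t ht using fun j => trace_cut_poly (K := K) (L := L) hint D hind u₀ hu00 hsat N hN hJ (w₀ * c j)
  have htr : algebraMap (MvPolynomial σ k) K (∑ j, X j * t j) =
      Algebra.trace K L (algebraMap A L w) := by
    have h1 : algebraMap A L w = ∑ j, algebraMap (MvPolynomial σ k) K (X j) •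
        (algebraMap A L (u₀ ^ (N + 1)) * algebraMap A L (w₀ * c j) / algebraMap A L J) := by
      have h2 : algebraMap A L w = algebraMap A L (u₀ ^ (N + 1)) * algebraMap A L w₀ *
          algebraMap A L (s * J) / algebraMap A L J := by
        simp only [w, map_mul]
        field_simp
      rw [h2, heq, map_sum, Finset.mul_sum, Finset.sum_div]
      apply Finset.sum_congr rfl
      intro j _
      rw [Algebra.smul_def, ← IsScalarTower.algebraMap_apply (MvPolynomial σ k) K L,
        IsScalarTower.algebraMap_apply (MvPolynomial σ k) A L, map_mul, map_mul]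
      ring
    rw [h1, map_sum, map_sum]
    apply Finset.sum_congr rfl
    intro j _
    rw [map_smul, smul_eq_mul, ← ht j, map_mul]
  refine trace_residue (K := K) (L := L) hint hinj φ hφC m hφm r hr0 w hr ?_ _ htr ?_
  · intro M hM hMX hMm
    exact M.mul_mem_left _ (hw₀M M hM hMX hMm)
  · show MvPolynomial.constantCoeff _ = 0
    rw [map_sum]
    exact Finset.sum_eq_zero (fun j _ => by simp)

end JacLocal

end Vale.Agent.Lib.P266
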