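import Mathlib

/-!
Noether normalization with prescribed leading terms (Nagata's trick with high exponents).
-/

set_option linter.unusedSectionVars false
set_option linter.unusedSimpArgs false
set_option linter.unusedVariables false
set_option linter.style.haveILetI false

open Polynomial

namespace Vale.Agent.Lib.P266

section Nagata

variable {k A : Type*} [Field k] [CommRing A] [Nontrivial A] [Algebra k A]

lemma deg_C_mul_le' {S : Type*} [CommRing S] (a : S) (p : S[X]) : (C a * p).degree ≤ p.degree := by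
  calc (C a * p).degree ≤ (C a).degree + p.degree := degree_mul_le _ _
    _ ≤ 0 + p.degree := by gcongr; exact degree_C_le
    _ = p.degree := zero_add _

lemma digits_two_inj {D a a' x x' : ℕ} (ha : a < D) (ha' : a' < D)
    (h : a + D * x = a' + D * x') : a = a' ∧ x = x' := by
  have hD : 0 < D := by omega
  have h1 : (a + D * x) % D = a := by
    rw [Nat.add_mul_mod_self_left, Nat.mod_eq_of_lt ha]
  have h2 : (a' + D * x') % D = a' := by
    rw [Nat.add_mul_mod_self_left, Nat.mod_eq_of_lt ha']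
  have h3 : a = a' := by rw [← h1, h, h2]
  subst h3
  refine ⟨rfl, ?_⟩
  have := Nat.add_left_cancel h
  exact Nat.eq_of_mul_eq_mul_left hD this

/-- The weight of a monomial in three variables. -/
def nagataWeight (D : ℕ) (e : Fin 3 →₀ ℕ) : ℕ := e 2 + D * (e 0 + D * e 1)

lemma nagataWeight_inj {D : ℕ} {e e' : Fin 3 →₀ ℕ} (he : ∀ i, e i < D) (he' : ∀ i, e' i < D)
    (h : nagataWeight D e = nagataWeight D e') : e = e' := by
  obtain ⟨h2, h3⟩ := digits_two_inj (he 2) (he' 2) h
  obtain ⟨h0, h1⟩ := digits_two_inj (he 0) (he' 0) h3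
  have h1' : e 1 = e' 1 := h1
  ext i
  fin_cases i
  · exact h0
  · exact h1'
  · exact h2

/-- The single step of Nagata's trick. -/
theorem nagata_step (x₀ x₁ t : A) (F : MvPolynomial (Fin 3) k) (hF : F ≠ 0)
    (h0 : MvPolynomial.aeval ![x₀, x₁, t] F = 0) (D : ℕ) (hD : F.totalDegree < D)
    (S : Subalgebra k A) (h₀ : x₀ - t ^ D ∈ S) (h₁ : x₁ - t ^ (D * D) ∈ S) :
    IsIntegral S t := by
  classical
  have hD0 : D ≠ 0 := by omega
  have hDD0 : D * D ≠ 0 := Nat.mul_ne_zero hD0 hD0
  let a₀ : S := ⟨x₀ - t ^ D, h₀⟩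
  let a₁ : S := ⟨x₁ - t ^ (D * D), h₁⟩
  let p₀ : S[X] := X ^ D + C a₀
  let p₁ : S[X] := X ^ (D * D) + C a₁
  have hp₀ : p₀.Monic := monic_X_pow_add_C a₀ hD0
  have hp₁ : p₁.Monic := monic_X_pow_add_C a₁ hDD0
  have hd₀ : p₀.natDegree = D := natDegree_X_pow_add_C
  have hd₁ : p₁.natDegree = D * D := natDegree_X_pow_add_C
  let Ψ : MvPolynomial (Fin 3) k →ₐ[k] S[X] := MvPolynomial.aeval ![p₀, p₁, X]
  have heval : ∀ f, Polynomial.aeval t (Ψ f) = MvPolynomial.aeval ![x₀, x₁, t] f := by
    intro f
    have : ((Polynomial.aeval t : S[X] →ₐ[S] A).restrictScalars k).comp Ψ =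
        MvPolynomial.aeval ![x₀, x₁, t] := by
      apply MvPolynomial.algHom_ext
      intro i
      fin_cases i
      · simp [Ψ, p₀, a₀]
      · simp [Ψ, p₁, a₁]
      · simp [Ψ]
    exact congrArg (fun g => g f) this
  -- monomials
  let q : (Fin 3 →₀ ℕ) → S[X] := fun e => p₀ ^ e 0 * p₁ ^ e 1 * X ^ e 2
  have hqm : ∀ e, (q e).Monic := fun e => ((hp₀.pow _).mul (hp₁.pow _)).mul (monic_X_pow _)
  have hqd : ∀ e, (q e).natDegree = nagataWeight D e := by
    intro e
    rw [(((hp₀.pow _).mul (hp₁.pow _))).natDegree_mul (monic_X_pow _),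
      (hp₀.pow _).natDegree_mul (hp₁.pow _), hp₀.natDegree_pow, hp₁.natDegree_pow, hd₀, hd₁,
      natDegree_X_pow]
    unfold nagataWeight
    ring
  have hΨm : ∀ e c, Ψ (MvPolynomial.monomial e c) = C (algebraMap k S c) * q e := by
    intro e c
    simp only [Ψ, MvPolynomial.aeval_monomial]
    rw [Finsupp.prod_fintype _ _ (by simp), Fin.prod_univ_three]
    simp [q, Polynomial.algebraMap_apply]
  have hsupp : ∀ e ∈ F.support, ∀ i, e i < D := by
    intro e he i
    exact lt_of_le_of_lt ((MvPolynomial.monomial_le_degreeOf i he).trans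
      (MvPolynomial.degreeOf_le_totalDegree F i)) hD
  obtain ⟨e₀, he₀, hmax⟩ := Finset.exists_max_image F.support (nagataWeight D)
    (MvPolynomial.support_nonempty.mpr hF)
  have hc₀ : MvPolynomial.coeff e₀ F ≠ 0 := MvPolynomial.mem_support_iff.mp he₀
  let c₀ := MvPolynomial.coeff e₀ F
  have hΨF : Ψ F = C (algebraMap k S c₀) * q e₀ +
      ∑ e ∈ F.support.erase e₀, C (algebraMap k S (MvPolynomial.coeff e F)) * q e := by
    conv_lhs => rw [← F.support_sum_monomial_coeff]
    rw [map_sum, ← Finset.add_sum_erase _ _ he₀]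
    simp only [hΨm]
    rfl
  let c₀u : S := algebraMap k S c₀⁻¹
  have hc₀u : c₀u * algebraMap k S c₀ = 1 := by
    simp only [c₀u]
    rw [← map_mul, inv_mul_cancel₀ hc₀, map_one]
  have hq0 : (C c₀u * Ψ F) = q e₀ + C c₀u *
      ∑ e ∈ F.support.erase e₀, C (algebraMap k S (MvPolynomial.coeff e F)) * q e := by
    rw [hΨF, mul_add, ← mul_assoc, ← C_mul, hc₀u, C_1, one_mul]
  have hdeglt : (C c₀u * ∑ e ∈ F.support.erase e₀,
      C (algebraMap k S (MvPolynomial.coeff e F)) * q e).degree < (q e₀).degree := by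
    refine lt_of_le_of_lt (deg_C_mul_le' _ _) ?_
    have hpos : (⊥ : WithBot ℕ) < (q e₀).degree := by
      rw [bot_lt_iff_ne_bot, Ne, degree_eq_bot]
      exact (hqm e₀).ne_zero
    refine lt_of_le_of_lt (degree_sum_le _ _) ((Finset.sup_lt_iff hpos).mpr ?_)
    intro e he
    obtain ⟨hne, hemem⟩ := Finset.mem_erase.mp he
    refine lt_of_le_of_lt (deg_C_mul_le' _ _) ?_
    rw [degree_eq_natDegree (hqm e).ne_zero, degree_eq_natDegree (hqm e₀).ne_zero, hqd, hqd]
    have hle := hmax e hemem
    have hnew : nagataWeight D e ≠ nagataWeight D e₀ := fun h =>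
      hne (nagataWeight_inj (hsupp e hemem) (hsupp e₀ he₀) h)
    exact_mod_cast lt_of_le_of_ne hle hnew
  have hmonic : (C c₀u * Ψ F).Monic := by
    rw [hq0]
    exact (hqm e₀).add_of_left hdeglt
  refine ⟨_, hmonic, ?_⟩
  have h3 : Polynomial.aeval t (C c₀u * Ψ F) = 0 := by
    rw [map_mul, heval, h0, mul_zero]
  exact h3

/-- Elements integral over a subalgebra all of whose elements are integral over `Q` are integral
over `Q`. -/
lemma isIntegral_of_subalgebra {Q : Type*} [CommRing Q] [Algebra Q A]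
    (S : Subalgebra k A) (hS : ∀ a ∈ S, IsIntegral Q a) (t : A) (ht : IsIntegral S t) :
    IsIntegral Q t := by
  let C' := integralClosure Q A
  let f : S →+* C' :=
    { toFun := fun a => ⟨a, hS a a.2⟩
      map_one' := rfl
      map_mul' := fun _ _ => rfl
      map_zero' := rfl
      map_add' := fun _ _ => rfl }
  obtain ⟨p, hm, hp⟩ := ht
  have h1 : IsIntegral C' t := ⟨p.map f, hm.map f, by
    rw [Polynomial.eval₂_map]
    exact hp⟩
  exact isIntegral_trans t h1

/-- Noether normalization with prescribed leading terms. -/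
theorem nagata_lift (hdep : ∀ a b c : A, ¬ AlgebraicIndependent k ![a, b, c]) (m : Ideal A) (N : ℕ) :
    ∀ (p : ℕ) (w : Fin p → A) (x : Fin 2 → A), (∀ i, x i ∈ m) → (∀ l, w l ∈ m) →
      ∃ y : Fin 2 → A, (∀ i, y i - x i ∈ m ^ N) ∧ (∀ i, y i ∈ m) ∧
        (∀ i, IsIntegral (Algebra.adjoin k (Set.range y)) (x i)) ∧
        ∀ l, IsIntegral (Algebra.adjoin k (Set.range y)) (w l) := by
  intro p
  induction p with
  | zero =>
    intro w x hx hw
    refine ⟨x, fun i => by simp, hx, fun i => ?_, fun l => l.elim0⟩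
    have hmem : x i ∈ Algebra.adjoin k (Set.range x) := Algebra.subset_adjoin ⟨i, rfl⟩
    exact isIntegral_algebraMap (R := Algebra.adjoin k (Set.range x)) (x := (⟨x i, hmem⟩ :
      Algebra.adjoin k (Set.range x)))
  | succ p ih =>
    intro w x hx hw
    let t := w (Fin.last p)
    have ht : t ∈ m := hw _
    have hnot := hdep (x 0) (x 1) t
    rw [algebraicIndependent_iff] at hnot
    push Not at hnot
    obtain ⟨F, hF, hF0⟩ := hnot
    let D := max N (F.totalDegree + 1)
    have hDN : N ≤ D := le_max_left _ _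
    have hDF : F.totalDegree < D := lt_of_lt_of_le (Nat.lt_succ_self _) (le_max_right _ _)
    have hD0 : D ≠ 0 := by omega
    let x' : Fin 2 → A := ![x 0 - t ^ D, x 1 - t ^ (D * D)]
    have hr : ∀ i, ∃ r, N ≤ r ∧ x' i = x i - t ^ r := by
      intro i
      fin_cases i
      · exact ⟨D, hDN, rfl⟩
      · refine ⟨D * D, ?_, rfl⟩
        exact hDN.trans (Nat.le_mul_of_pos_left _ (Nat.pos_of_ne_zero hD0))
    have hx' : ∀ i, x' i ∈ m := by
      intro i
      obtain ⟨r, hr1, hr2⟩ := hr i
      fin_cases i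
      · exact m.sub_mem (hx 0) (Ideal.pow_mem_of_mem m ht _ (Nat.pos_of_ne_zero hD0))
      · exact m.sub_mem (hx 1) (Ideal.pow_mem_of_mem m ht _ (Nat.pos_of_ne_zero (Nat.mul_ne_zero hD0 hD0)))
    obtain ⟨y, hy1, hy2, hy3, hy4⟩ := ih (fun l => w l.castSucc) x' hx' (fun l => hw _)
    set T := Algebra.adjoin k (Set.range y) with hT
    have htN : ∀ r, N ≤ r → t ^ r ∈ m ^ N := fun r hr =>
      Ideal.pow_le_pow_right hr (Ideal.pow_mem_pow ht r)
    let S := Algebra.adjoin k (Set.range x')
    have hST : ∀ a ∈ S, IsIntegral T a := by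
      intro a ha
      induction ha using Algebra.adjoin_induction with
      | mem a ha =>
        obtain ⟨i, rfl⟩ := ha
        exact hy3 i
      | algebraMap c =>
        exact (isIntegral_algebraMap (R := T) (x := algebraMap k T c))
      | add a b _ _ ha hb => exact ha.add hb
      | mul a b _ _ ha hb => exact ha.mul hb
    have htS : IsIntegral S t := by
      refine nagata_step (x 0) (x 1) t F hF0 hF D hDF S ?_ ?_
      · exact Algebra.subset_adjoin ⟨0, rfl⟩
      · exact Algebra.subset_adjoin ⟨1, rfl⟩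
    have htT : IsIntegral T t := isIntegral_of_subalgebra S hST t htS
    refine ⟨y, ?_, hy2, ?_, ?_⟩
    · intro i
      obtain ⟨r, hr1, hr2⟩ := hr i
      have : y i - x i = (y i - x' i) - t ^ r := by
        rw [hr2]
        ring
      rw [this]
      exact (m ^ N).sub_mem (hy1 i) (htN r hr1)
    · intro i
      obtain ⟨r, hr1, hr2⟩ := hr i
      have : x i = x' i + t ^ r := by
        rw [hr2]
        ring
      rw [this]
      exact (hy3 i).add (htT.pow r)
    · intro l
      refine Fin.lastCases ?_ (fun l => ?_) l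
      · exact htT
      · exact hy4 l

/-- Noether normalization with prescribed leading terms on a surface with a rational point. -/
theorem exists_nn_lift [IsDomain A] [Algebra.FiniteType k A] (hA : Algebra.trdeg k A = 2)
    (m : Ideal A) (hrat : ∀ a : A, ∃ c : k, a - algebraMap k A c ∈ m) (N : ℕ)
    (x : Fin 2 → A) (hx : ∀ i, x i ∈ m) :
    ∃ y : Fin 2 → A, (∀ i, y i - x i ∈ m ^ N) ∧ (∀ i, y i ∈ m) ∧ AlgebraicIndependent k y ∧
      ∀ a : A, IsIntegral (Algebra.adjoin k (Set.range y)) a := by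
  classical
  have hdep : ∀ a b c : A, ¬ AlgebraicIndependent k ![a, b, c] := by
    intro a b c h
    have h1 := h.lift_cardinalMk_le_trdeg
    rw [hA] at h1
    simp only [Cardinal.mk_fintype, Fintype.card_fin, Cardinal.lift_natCast, Cardinal.lift_ofNat] at h1
    have h2 : (3 : ℕ) ≤ 2 := by exact_mod_cast h1
    exact absurd h2 (by norm_num)
  obtain ⟨t, ht⟩ := (Algebra.FiniteType.out : (⊤ : Subalgebra k A).FG)
  choose c hc using hrat
  let e := t.equivFin
  obtain ⟨y, hy1, hy2, hy3, hy4⟩ := nagata_lift hdep m N t.card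
    (fun l => (e.symm l : A) - algebraMap k A (c (e.symm l))) x hx (fun l => hc _)
  set T := Algebra.adjoin k (Set.range y) with hT
  have hgen : ∀ g ∈ t, IsIntegral T g := by
    intro g hg
    have h1 := hy4 (e ⟨g, hg⟩)
    simp only [Equiv.symm_apply_apply] at h1
    have h2 : g = (g - algebraMap k A (c g)) + algebraMap T A (algebraMap k T (c g)) := by
      have : algebraMap T A (algebraMap k T (c g)) = algebraMap k A (c g) := rfl
      rw [this]
      ring
    rw [h2]
    exact h1.add isIntegral_algebraMap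
  have hall : ∀ a : A, IsIntegral T a := by
    intro a
    have ha : a ∈ Algebra.adjoin k (t : Set A) := by
      rw [ht]
      trivial
    induction ha using Algebra.adjoin_induction with
    | mem a ha => exact hgen a ha
    | algebraMap c =>
      exact (isIntegral_algebraMap (R := T) (x := algebraMap k T c))
    | add a b _ _ ha hb => exact ha.add hb
    | mul a b _ _ ha hb => exact ha.mul hb
  refine ⟨y, hy1, hy2, ?_, hall⟩
  haveI : Algebra.IsAlgebraic T A := ⟨fun a => (hall a).isAlgebraic⟩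
  have hle : Cardinal.lift (Cardinal.mk (Fin 2)) ≤ Cardinal.lift (Algebra.trdeg k A) := by
    rw [hA]
    simp
  exact (Algebra.IsAlgebraic.isTranscendenceBasis_of_lift_le_trdeg_of_finite k y hle).1

end Nagata

end Vale.Agent.Lib.P266
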