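import Vale.Agent.Lib.P266.FilterMain
import Vale.Agent.Lib.P266.JacLocal
import Vale.Agent.Lib.P266.Nagata
import Vale.Agent.Lib.P266.Final

/-!
Assembly of the filtered theorem, given the property of the derivations of the graded ring.
-/

set_option linter.unusedSectionVars false
set_option linter.unusedSimpArgs false
set_option linter.unusedVariables false
set_option linter.style.haveILetI false

open DirectSum MvPolynomial

namespace Vale.Agent.Lib.P266

section Uniform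

/-- A uniform denominator for a frame near a prime. -/
lemma uniform_denominator {A M ι : Type*} [CommRing A] [AddCommGroup M] [Module A M] [Fintype ι]
    [Module.Finite A M] (P : Ideal A) [hP : P.IsPrime] (D : ι → M)
    (hsat : ∀ D' : M, ∃ u, u ∉ P ∧ ∃ c : ι → A, u • D' = ∑ i, c i • D i) :
    ∃ u₀, u₀ ∉ P ∧ ∀ D' : M, ∃ c : ι → A, u₀ • D' = ∑ i, c i • D i := by
  classical
  obtain ⟨t, ht⟩ := (Module.Finite.fg_top : (⊤ : Submodule A M).FG)
  choose u hu c hc using hsat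
  refine ⟨∏ g ∈ t, u g, ?_, ?_⟩
  · intro h
    obtain ⟨g, -, hg⟩ := (hP.prod_mem_iff).mp h
    exact hu g hg
  · intro D'
    have hD' : D' ∈ Submodule.span A (t : Set M) := by
      rw [ht]
      trivial
    induction hD' using Submodule.span_induction with
    | mem g hg =>
      obtain ⟨w, hw⟩ := Finset.dvd_prod_of_mem u hg
      refine ⟨fun i => w * c g i, ?_⟩
      rw [hw, mul_comm, mul_smul, hc g, Finset.smul_sum]
      exact Finset.sum_congr rfl (fun i _ => by rw [mul_smul])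
    | zero => exact ⟨0, by simp⟩
    | add x y _ _ hx hy =>
      obtain ⟨c₁, h₁⟩ := hx
      obtain ⟨c₂, h₂⟩ := hy
      refine ⟨c₁ + c₂, ?_⟩
      rw [smul_add, h₁, h₂, ← Finset.sum_add_distrib]
      exact Finset.sum_congr rfl (fun i _ => by rw [Pi.add_apply, add_smul])
    | smul a x _ hx =>
      obtain ⟨c₁, h₁⟩ := hx
      refine ⟨fun i => a * c₁ i, ?_⟩
      rw [smul_comm, h₁, Finset.smul_sum]
      exact Finset.sum_congr rfl (fun i _ => by rw [mul_smul])

end Uniform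

section Core

variable {k A R L K : Type*} [Field k] [CharZero k]
  [CommRing A] [IsDomain A] [Algebra k A] [IsIntegrallyClosed A] [Algebra.FiniteType k A]
  [Field L] [Algebra A L] [IsFractionRing A L] [Algebra k L] [IsScalarTower k A L]
  [Algebra (MvPolynomial (Fin 2) k) A] [Algebra (MvPolynomial (Fin 2) k) L]
  [IsScalarTower (MvPolynomial (Fin 2) k) A L] [IsScalarTower k (MvPolynomial (Fin 2) k) L]
  [IsScalarTower k (MvPolynomial (Fin 2) k) A]
  [Field K] [CharZero K] [Algebra (MvPolynomial (Fin 2) k) K]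
  [IsFractionRing (MvPolynomial (Fin 2) k) K]
  [Algebra K L] [IsScalarTower (MvPolynomial (Fin 2) k) K L] [FiniteDimensional K L]
  [CommRing R] [IsDomain R] [Algebra k R] [Algebra.FiniteType k R]
  {𝓡 : ℕ → Submodule k R} [GradedAlgebra 𝓡] {F : ℕ → Ideal A} {σ : ℕ → A →ₗ[k] R}

include K L in
theorem filtered_core (h : IsAssocGraded F 𝓡 σ) (h0 : ∀ r ∈ 𝓡 0, ∃ c : k, r = algebraMap k R c)
    (hint : ∀ a : A, IsIntegral (MvPolynomial (Fin 2) k) a)
    (hinj : Function.Injective (algebraMap (MvPolynomial (Fin 2) k) A))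
    {u : Fin 2 → R} {d : Fin 2 → ℕ} {y : Fin 2 → A}
    (hXy : ∀ j, algebraMap (MvPolynomial (Fin 2) k) A (X j) = y j)
    (hu : ∀ j, u j ∈ 𝓡 (d j)) (hy : ∀ j, y j ∈ F (d j)) (hσy : ∀ j, σ (d j) (y j) = u j)
    (hym : ∀ j, y j ∈ F 1)
    (a : ℕ) (htop : ∀ n, d 0 + d 1 + a < n → ∀ r ∈ 𝓡 n, r ∈ Ideal.span (Set.range u))
    (hH : ∀ κ : ℤ, κ ≤ a → ∀ θ : Derivation k R R,
      (∀ n, ∀ r ∈ 𝓡 n, (0 ≤ (n : ℤ) + κ → θ r ∈ 𝓡 ((n : ℤ) + κ).toNat) ∧
        ((n : ℤ) + κ < 0 → θ r = 0)) →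
      ∃ f : R, (κ < 0 → f = 0) ∧ (0 ≤ κ → f ∈ 𝓡 κ.toNat) ∧ ∀ n, ∀ r ∈ 𝓡 n, θ r = (n : k) • (f * r))
    (hnum : ∀ m n f g, f ∈ 𝓡 m → g ∈ 𝓡 n → ¬ f ∣ g → ¬ g ∣ f → a ≤ m + n + 1) :
    ¬ Module.Projective A (Derivation k A A) := by
  classical
  intro hproj
  haveI : IsNoetherianRing A := Algebra.FiniteType.isNoetherianRing k A
  haveI hm : (F 1).IsMaximal := h.isMaximal h0
  haveI : Module.Finite A (Derivation k A A) := derivation_finite
  have hrat := h.rational h0
  -- the non-membership input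
  have hT1 : ∀ D₀ D₁ : Derivation k A A, IsFrame (F 1) D₀ D₁ → ∀ s', s' ∉ F 1 →
      s' * (D₀ (y 0) * D₁ (y 1) - D₀ (y 1) * D₁ (y 0)) ∉ Ideal.span (Set.range y) := by
    rintro D₀ D₁ ⟨hi, u₀, hu₀, hs⟩ s' hs' hmem
    obtain ⟨c, hc⟩ := Ideal.mem_span_range_iff_exists_fun.mp hmem
    let D : Fin 2 → Derivation k A A := ![D₀, D₁]
    have hind : ∀ c : Fin 2 → A, ∑ i, c i • D i = 0 → ∀ i, c i = 0 := by
      intro c hc i
      rw [Fin.sum_univ_two] at hc
      obtain ⟨h1, h2⟩ := hi _ _ hc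
      fin_cases i
      · exact h1
      · exact h2
    have hsat : ∀ D' : Derivation k A A, ∃ c : Fin 2 → A, u₀ • D' = ∑ i, c i • D i := by
      intro D'
      obtain ⟨c₀, c₁, hc⟩ := hs D'
      exact ⟨![c₀, c₁], by rw [Fin.sum_univ_two]; exact hc⟩
    refine jac_not_mem (K := K) (L := L) hint hinj (F 1) hrat (fun j => by rw [hXy]; exact hym j) D hind
      u₀ hu₀ hsat s' hs' c ?_
    have hJ : jacOf (fun j => (X j : MvPolynomial (Fin 2) k)) D =
        D₀ (y 0) * D₁ (y 1) - D₀ (y 1) * D₁ (y 0) := by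
      unfold jacOf
      rw [Matrix.det_fin_two]
      simp [D, hXy]
    rw [hJ, ← hc]
    exact (Finset.sum_congr rfl (fun j _ => by rw [hXy])).symm
  -- the cut-off
  let φ : MvPolynomial (Fin 2) k →+* k := MvPolynomial.constantCoeff
  have hφC : ∀ c : k, φ (algebraMap k (MvPolynomial (Fin 2) k) c) = c := fun c => by
    show MvPolynomial.constantCoeff (C c) = c
    simp
  obtain ⟨w₀, hw₀, hw₀M⟩ := exists_cutoff hint hinj φ hφC (F 1)
  set I := Ideal.span (Set.range y) with hI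
  have hrad : ∀ v ∈ F 1, w₀ * v ∈ I.radical := by
    intro v hv
    rw [Ideal.radical_eq_sInf, Ideal.mem_sInf]
    rintro M ⟨hIM, hM⟩
    by_cases hMm : M = F 1
    · rw [hMm]
      exact Ideal.mul_mem_left _ _ hv
    · refine Ideal.mul_mem_right _ _ (hw₀M M hM ?_ hMm)
      intro p hp
      apply hIM
      have hs := algebraMap_sub_constantCoeff_mem I (fun j => by
        rw [hXy]
        exact Ideal.subset_span ⟨j, rfl⟩) p
      have hp' : MvPolynomial.constantCoeff p = 0 := hp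
      rw [hp', map_zero, sub_zero] at hs
      exact hs
  obtain ⟨T, hT⟩ := Ideal.exists_radical_pow_le_of_fg I (IsNoetherian.noetherian I.radical)
  have hcutT : ∀ v ∈ F 1 ^ T, w₀ ^ T * v ∈ I := by
    intro v hv
    apply hT
    have h1 : Ideal.span {w₀} * F 1 ≤ I.radical := by
      rw [Ideal.span_singleton_mul_le_iff]
      exact hrad
    have h2 : (Ideal.span {w₀} * F 1) ^ T ≤ I.radical ^ T := Ideal.pow_right_mono h1 T
    apply h2
    rw [mul_pow]
    exact Ideal.mul_mem_mul (Ideal.pow_mem_pow (Ideal.mem_span_singleton_self _) T) hv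
  have hsm : w₀ ^ T ∉ F 1 := fun h1 => hw₀ (hm.isPrime.mem_of_pow_mem _ h1)
  have hcut := h.cut_of_pow hu hy hσy (d 0 + d 1 + a) htop (w₀ ^ T) T hcutT
  -- the frame
  obtain ⟨n, D, hind, hsat⟩ := exists_local_basis_module (M := Derivation k A A) (F 1)
  have hsat0 : ∀ D' : Derivation k A A, ∃ u : A, u ≠ 0 ∧ ∃ c : Fin n → A, u • D' = ∑ i, c i • D i := by
    intro D'
    obtain ⟨u, hu, c, hc⟩ := hsat D'
    exact ⟨u, fun h0 => hu (h0 ▸ (F 1).zero_mem), c, hc⟩
  obtain ⟨C', hCM, hMC⟩ := rank_matrix (K := K) (L := L) (σ := Fin 2) D hind hsat0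
  have hcard : Fintype.card (Fin n) = Fintype.card (Fin 2) := Matrix.square_of_invertible _ _ hMC hCM
  simp only [Fintype.card_fin] at hcard
  subst hcard
  obtain ⟨u₀, hu₀, hs₀⟩ := uniform_denominator (F 1) D hsat
  have hfr : IsFrame (F 1) (D 0) (D 1) := by
    refine ⟨fun c₀ c₁ hc => ?_, u₀, hu₀, fun D' => ?_⟩
    · have := hind ![c₀, c₁] (by rw [Fin.sum_univ_two]; exact hc)
      exact ⟨this 0, this 1⟩
    · obtain ⟨c, hc⟩ := hs₀ D'
      rw [Fin.sum_univ_two] at hc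
      exact ⟨c 0, c 1, hc⟩
  exact filtered_contra (d := d) h a (w₀ ^ T) hcut hsm hT1 h0 hy hH hnum (D 0) (D 1) hfr

end Core

section Wrapper

variable {k A R : Type*} [Field k] [CharZero k]
  [CommRing A] [IsDomain A] [Algebra k A] [IsIntegrallyClosed A] [Algebra.FiniteType k A]
  [CommRing R] [IsDomain R] [Algebra k R] [Algebra.FiniteType k R]
  {𝓡 : ℕ → Submodule k R} [GradedAlgebra 𝓡] {F : ℕ → Ideal A} {σ : ℕ → A →ₗ[k] R}
  {L : Type*} [Field L] [Algebra A L] [IsFractionRing A L] [Algebra k L] [IsScalarTower k A L]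

include L in
/-- The filtered theorem, given the property of the derivations of the graded ring. -/
theorem filtered_of_H_aux (hA : Algebra.trdeg k A = 2)
    (h : IsAssocGraded F 𝓡 σ) (h0 : ∀ r ∈ 𝓡 0, ∃ c : k, r = algebraMap k R c)
    (u : Fin 2 → R) (d : Fin 2 → ℕ) (hd : ∀ j, d j ≠ 0) (hu : ∀ j, u j ∈ 𝓡 (d j))
    (a : ℕ) (htop : ∀ n, d 0 + d 1 + a < n → ∀ r ∈ 𝓡 n, r ∈ Ideal.span (Set.range u))
    (hH : ∀ κ : ℤ, κ ≤ a → ∀ θ : Derivation k R R,
      (∀ n, ∀ r ∈ 𝓡 n, (0 ≤ (n : ℤ) + κ → θ r ∈ 𝓡 ((n : ℤ) + κ).toNat) ∧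
        ((n : ℤ) + κ < 0 → θ r = 0)) →
      ∃ f : R, (κ < 0 → f = 0) ∧ (0 ≤ κ → f ∈ 𝓡 κ.toNat) ∧ ∀ n, ∀ r ∈ 𝓡 n, θ r = (n : k) • (f * r))
    (hnum : ∀ m n f g, f ∈ 𝓡 m → g ∈ 𝓡 n → ¬ f ∣ g → ¬ g ∣ f → a ≤ m + n + 1) :
    ¬ Module.Projective A (Derivation k A A) := by
  classical
  have hmax : (F 1).IsMaximal := h.isMaximal h0
  have hrat := h.rational h0
  -- lifts of the parameters
  have hlift : ∀ j, ∃ z ∈ F (d j), σ (d j) z = u j := fun j => h.surj _ _ (hu j)
  choose z hz hzσ using hlift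
  have hzm : ∀ j, z j ∈ F 1 := fun j => h.antitone (Nat.one_le_iff_ne_zero.mpr (hd j)) (hz j)
  obtain ⟨y, hy1, hy2, hy3, hy4⟩ := exists_nn_lift hA (F 1) hrat (d 0 + d 1 + 1) z hzm
  have hyd : ∀ j, y j - z j ∈ F (d j + 1) := by
    intro j
    refine h.antitone ?_ (h.pow_le _ (hy1 j))
    fin_cases j <;> simp <;> omega
  have hy : ∀ j, y j ∈ F (d j) := by
    intro j
    have : y j = (y j - z j) + z j := by ring
    rw [this]
    exact (F (d j)).add_mem (h.anti _ (hyd j)) (hz j)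
  have hσy : ∀ j, σ (d j) (y j) = u j := by
    intro j
    have h1 := (h.ker _ _ (h.anti _ (hyd j))).mpr (hyd j)
    rw [map_sub, sub_eq_zero, hzσ] at h1
    exact h1
  -- the polynomial subring
  let Pol := MvPolynomial (Fin 2) k
  let ι : Pol →ₐ[k] A := aeval y
  letI algPA : Algebra Pol A := ι.toRingHom.toAlgebra
  have hPA : ∀ p : Pol, algebraMap Pol A p = ι p := fun p => rfl
  have hXy : ∀ j, algebraMap Pol A (X j) = y j := fun j => by
    rw [hPA]
    exact aeval_X y j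
  have hinj : Function.Injective (algebraMap Pol A) := hy3
  haveI tkPA : IsScalarTower k Pol A := IsScalarTower.of_algebraMap_eq (fun c => (ι.commutes c).symm)
  have hintT : ∀ a ∈ Algebra.adjoin k (Set.range y), IsIntegral Pol a := by
    intro a ha
    induction ha using Algebra.adjoin_induction with
    | mem a ha =>
      obtain ⟨j, rfl⟩ := ha
      rw [← hXy]
      exact isIntegral_algebraMap
    | algebraMap c =>
      rw [IsScalarTower.algebraMap_apply k Pol A]
      exact isIntegral_algebraMap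
    | add a b _ _ ha hb => exact ha.add hb
    | mul a b _ _ ha hb => exact ha.mul hb
  have hint : ∀ a : A, IsIntegral Pol a := fun a => isIntegral_of_subalgebra _ hintT a (hy4 a)
  letI algPL : Algebra Pol L := ((algebraMap A L).comp (algebraMap Pol A)).toAlgebra
  haveI tPAL : IsScalarTower Pol A L := IsScalarTower.of_algebraMap_eq (fun _ => rfl)
  haveI tkPL : IsScalarTower k Pol L := IsScalarTower.of_algebraMap_eq (fun c => by
    show algebraMap k L c = algebraMap A L (algebraMap Pol A (algebraMap k Pol c))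
    rw [← IsScalarTower.algebraMap_apply k Pol A, ← IsScalarTower.algebraMap_apply k A L])
  have hinjPL : Function.Injective (algebraMap Pol L) := by
    rw [IsScalarTower.algebraMap_eq Pol A L]
    exact (IsFractionRing.injective A L).comp hinj
  haveI : FaithfulSMul Pol L := (faithfulSMul_iff_algebraMap_injective Pol L).mpr hinjPL
  let K := FractionRing Pol
  letI algKL : Algebra K L := FractionRing.liftAlgebra Pol L
  haveI tPKL : IsScalarTower Pol K L := FractionRing.isScalarTower_liftAlgebra Pol L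
  haveI hcharP : CharZero Pol := charZero_of_injective_algebraMap (algebraMap k Pol).injective
  haveI hcharK : CharZero K := IsFractionRing.charZero Pol
  have hfd : FiniteDimensional K L := finiteDimensional_of_hint (k := k) (S := Pol)
    (fun c => ⟨algebraMap k Pol c, by
      rw [IsScalarTower.algebraMap_apply k Pol A, ← IsScalarTower.algebraMap_apply Pol A L]⟩)
    (fun a => ⟨1, one_ne_zero, by simpa using hint a⟩)
  exact filtered_core (K := K) (L := L) h h0 hint hinj hXy hu hy hσy hy2 a htop hH hnum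

omit [Field L] [Algebra A L] [IsFractionRing A L] [Algebra k L] [IsScalarTower k A L] in
/-- The filtered theorem, given the property of the derivations of the graded ring. -/
theorem filtered_of_H (hA : Algebra.trdeg k A = 2)
    (h : IsAssocGraded F 𝓡 σ) (h0 : ∀ r ∈ 𝓡 0, ∃ c : k, r = algebraMap k R c)
    (u : Fin 2 → R) (d : Fin 2 → ℕ) (hd : ∀ j, d j ≠ 0) (hu : ∀ j, u j ∈ 𝓡 (d j))
    (a : ℕ) (htop : ∀ n, d 0 + d 1 + a < n → ∀ r ∈ 𝓡 n, r ∈ Ideal.span (Set.range u))
    (hH : ∀ κ : ℤ, κ ≤ a → ∀ θ : Derivation k R R,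
      (∀ n, ∀ r ∈ 𝓡 n, (0 ≤ (n : ℤ) + κ → θ r ∈ 𝓡 ((n : ℤ) + κ).toNat) ∧
        ((n : ℤ) + κ < 0 → θ r = 0)) →
      ∃ f : R, (κ < 0 → f = 0) ∧ (0 ≤ κ → f ∈ 𝓡 κ.toNat) ∧ ∀ n, ∀ r ∈ 𝓡 n, θ r = (n : k) • (f * r))
    (hnum : ∀ m n f g, f ∈ 𝓡 m → g ∈ 𝓡 n → ¬ f ∣ g → ¬ g ∣ f → a ≤ m + n + 1) :
    ¬ Module.Projective A (Derivation k A A) :=
  filtered_of_H_aux (L := FractionRing A) hA h h0 u d hd hu a htop hH hnum

end Wrapper

end Vale.Agent.Lib.P266
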