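import Vale.Agent.Lib.P266.FilterOrder

/-!
The main argument for filtered algebras: maximal order frames, the Euler form of symbols and the
contradiction with the non-membership theorem.
-/

set_option linter.unusedSectionVars false
set_option linter.unusedSimpArgs false
set_option linter.unusedVariables false
set_option linter.style.haveILetI false

open DirectSum

namespace Vale.Agent.Lib.P266

variable {k A R : Type*} [Field k] [CommRing A] [Algebra k A] [CommRing R] [Algebra k R]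

/-- A frame of derivations near the ideal `m`. -/
def IsFrame (m : Ideal A) (D₀ D₁ : Derivation k A A) : Prop :=
  (∀ c₀ c₁ : A, c₀ • D₀ + c₁ • D₁ = 0 → c₀ = 0 ∧ c₁ = 0) ∧
    ∃ u₀, u₀ ∉ m ∧ ∀ D' : Derivation k A A, ∃ c₀ c₁ : A, u₀ • D' = c₀ • D₀ + c₁ • D₁

lemma IsFrame.swap {m : Ideal A} {D₀ D₁ : Derivation k A A} (h : IsFrame m D₀ D₁) :
    IsFrame m D₁ D₀ := by
  obtain ⟨h1, u₀, hu, h2⟩ := h
  refine ⟨fun c₀ c₁ hc => ?_, u₀, hu, fun D' => ?_⟩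
  · rw [add_comm] at hc
    exact (h1 c₁ c₀ hc).symm
  · obtain ⟨c₀, c₁, hc⟩ := h2 D'
    exact ⟨c₁, c₀, by rw [hc, add_comm]⟩

lemma IsFrame.improve {m : Ideal A} {D₀ D₁ : Derivation k A A} (h : IsFrame m D₀ D₁) (a : A) :
    IsFrame m D₀ (D₁ - a • D₀) := by
  obtain ⟨h1, u₀, hu, h2⟩ := h
  refine ⟨fun c₀ c₁ hc => ?_, u₀, hu, fun D' => ?_⟩
  · have h3 : (c₀ - c₁ * a) • D₀ + c₁ • D₁ = 0 := by
      rw [← hc, smul_sub, sub_smul, mul_smul]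
      abel
    obtain ⟨h4, h5⟩ := h1 _ _ h3
    subst h5
    simpa using h4
  · obtain ⟨c₀, c₁, hc⟩ := h2 D'
    refine ⟨c₀ + c₁ * a, c₁, ?_⟩
    rw [hc, smul_sub, add_smul, mul_smul]
    abel

lemma IsFrame.left_ne_zero {m : Ideal A} [Nontrivial A] {D₀ D₁ : Derivation k A A}
    (h : IsFrame m D₀ D₁) : D₀ ≠ 0 := by
  intro h0
  have := (h.1 1 0 (by simp [h0])).1
  exact one_ne_zero this

section Main

variable {F : ℕ → Ideal A} {𝓡 : ℕ → Submodule k R} {σ : ℕ → A →ₗ[k] R} [GradedAlgebra 𝓡]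

lemma hasOrder_nat {D : Derivation k A A} {κ : ℕ} :
    HasOrder F D (κ : ℤ) ↔ ∀ n, ∀ x ∈ F n, D x ∈ F (n + κ) := by
  have : ∀ n : ℕ, ((n : ℤ) + (κ : ℤ)).toNat = n + κ := fun n => by omega
  simp only [HasOrder, this]

namespace IsAssocGraded

variable (h : IsAssocGraded F 𝓡 σ)
include h

/-- Reduction of an element of high filtration modulo the parameters. -/
lemma red_step {u : Fin 2 → R} {d : Fin 2 → ℕ} {y : Fin 2 → A}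
    (hu : ∀ j, u j ∈ 𝓡 (d j)) (hy : ∀ j, y j ∈ F (d j)) (hσy : ∀ j, σ (d j) (y j) = u j)
    (n : ℕ) (hn : ∀ r ∈ 𝓡 n, r ∈ Ideal.span (Set.range u)) (x : A) (hx : x ∈ F n) :
    ∃ c : Fin 2 → A, x - ∑ j, c j * y j ∈ F (n + 1) := by
  classical
  obtain ⟨r, hr⟩ := Ideal.mem_span_range_iff_exists_fun.mp (hn _ (h.mem n x hx))
  have hlift : ∀ j, ∃ c : A, c * y j ∈ F n ∧
      σ n (c * y j) = (decompose 𝓡 (r j * u j) n : R) := by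
    intro j
    by_cases hj : d j ≤ n
    · obtain ⟨c, hc, hc1⟩ := h.surj (n - d j) (decompose 𝓡 (r j) (n - d j) : R)
        (SetLike.coe_mem _)
      refine ⟨c, ?_, ?_⟩
      · have := h.mul_mem hc (hy j)
        rwa [Nat.sub_add_cancel hj] at this
      · rw [h.sym_add_cast (Nat.sub_add_cancel hj) hc (hy j), hc1, hσy,
          DirectSum.coe_decompose_mul_of_right_mem_of_le 𝓡 (hu j) hj]
    · refine ⟨0, by simp, ?_⟩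
      rw [DirectSum.coe_decompose_mul_of_right_mem_of_not_le 𝓡 (hu j) hj]
      simp
  choose c hc1 hc2 using hlift
  refine ⟨c, ?_⟩
  have hmem : x - ∑ j, c j * y j ∈ F n :=
    (F n).sub_mem hx ((F n).sum_mem (fun j _ => hc1 j))
  refine (h.ker n _ hmem).mp ?_
  rw [map_sub, map_sum]
  simp only [hc2]
  have h1 : (σ n x) = (decompose 𝓡 (σ n x) n : R) :=
    (decompose_of_mem_same 𝓡 (h.mem n x hx)).symm
  have h2 : (decompose 𝓡 (σ n x) n : R) = ∑ j, (decompose 𝓡 (r j * u j) n : R) := by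
    rw [← hr, decompose_sum, DFinsupp.finset_sum_apply, AddSubmonoidClass.coe_finset_sum]
  rw [h1, h2, sub_self]

lemma red_all {u : Fin 2 → R} {d : Fin 2 → ℕ} {y : Fin 2 → A}
    (hu : ∀ j, u j ∈ 𝓡 (d j)) (hy : ∀ j, y j ∈ F (d j)) (hσy : ∀ j, σ (d j) (y j) = u j)
    (τ : ℕ) (htop : ∀ n, τ < n → ∀ r ∈ 𝓡 n, r ∈ Ideal.span (Set.range u)) (x : A)
    (hx : x ∈ F (τ + 1)) (M : ℕ) : ∃ c : Fin 2 → A, x - ∑ j, c j * y j ∈ F M := by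
  have key : ∀ n, τ + 1 ≤ n → ∃ c : Fin 2 → A, x - ∑ j, c j * y j ∈ F n := by
    intro n hn
    induction n, hn using Nat.le_induction with
    | base => exact ⟨0, by simpa using hx⟩
    | succ n hn ih =>
      obtain ⟨c, hc⟩ := ih
      obtain ⟨c', hc'⟩ := h.red_step hu hy hσy n (htop n (by omega)) _ hc
      refine ⟨c + c', ?_⟩
      have : x - ∑ j, (c + c') j * y j = x - ∑ j, c j * y j - ∑ j, c' j * y j := by
        simp only [Pi.add_apply, add_mul, Finset.sum_add_distrib]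
        ring
      rw [this]
      exact hc'
  obtain ⟨c, hc⟩ := key (max M (τ + 1)) (le_max_right _ _)
  exact ⟨c, h.antitone (le_max_left _ _) hc⟩

/-- High filtration elements are in the ideal of the parameters, locally at `F 1`. -/
lemma cut_of_pow {u : Fin 2 → R} {d : Fin 2 → ℕ} {y : Fin 2 → A}
    (hu : ∀ j, u j ∈ 𝓡 (d j)) (hy : ∀ j, y j ∈ F (d j)) (hσy : ∀ j, σ (d j) (y j) = u j)
    (τ : ℕ) (htop : ∀ n, τ < n → ∀ r ∈ 𝓡 n, r ∈ Ideal.span (Set.range u))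
    (s : A) (T : ℕ) (hs : ∀ v ∈ F 1 ^ T, s * v ∈ Ideal.span (Set.range y))
    (x : A) (hx : x ∈ F (τ + 1)) : s * x ∈ Ideal.span (Set.range y) := by
  obtain ⟨M, hM⟩ := h.cofinal T
  obtain ⟨c, hc⟩ := h.red_all hu hy hσy τ htop x hx M
  have h1 := hs _ (hM hc)
  have h2 : s * (∑ j, c j * y j) ∈ Ideal.span (Set.range y) :=
    Ideal.mul_mem_left _ _ (Ideal.sum_mem _ (fun j _ =>
      Ideal.mul_mem_left _ _ (Ideal.subset_span ⟨j, rfl⟩)))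
  have h3 : s * x = s * (x - ∑ j, c j * y j) + s * (∑ j, c j * y j) := by ring
  rw [h3]
  exact Ideal.add_mem _ h1 h2

/-- Euler form of a derivation whose symbol is a multiple of the Euler derivation. -/
lemma euler_form (D : Derivation k A A) (κ : ℕ) (hD : HasOrder F D (κ : ℤ)) (f : R)
    (hfmem : f ∈ 𝓡 κ) (θ : Derivation k R R)
    (hθ : ∀ n, ∀ x ∈ F n, (0 ≤ (n : ℤ) + (κ : ℤ) → θ (σ n x) = σ ((n : ℤ) + (κ : ℤ)).toNat (D x)))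
    (hθf : ∀ n, ∀ r ∈ 𝓡 n, θ r = (n : k) • (f * r)) :
    ∃ f₁ ∈ F κ, σ κ f₁ = f ∧ ∀ n, ∀ x ∈ F n, D x - (n : A) * f₁ * x ∈ F (n + κ + 1) := by
  obtain ⟨f₁, hf₁, hf₁'⟩ := h.surj κ f hfmem
  refine ⟨f₁, hf₁, hf₁', fun n x hx => ?_⟩
  have hD' := hasOrder_nat.mp hD n x hx
  have hcast : (n : A) * f₁ * x = (n : k) • (f₁ * x) := by
    rw [mul_assoc, ← nsmul_eq_mul, Nat.cast_smul_eq_nsmul]
  have h1 : f₁ * x ∈ F (n + κ) := by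
    rw [Nat.add_comm]
    exact h.mul_mem hf₁ hx
  have hz : D x - (n : A) * f₁ * x ∈ F (n + κ) := by
    rw [hcast]
    refine (F (n + κ)).sub_mem hD' ?_
    rw [Algebra.smul_def]
    exact (F (n + κ)).mul_mem_left _ h1
  refine (h.ker _ _ hz).mp ?_
  have h2 := hθ n x hx (by omega)
  have hc : ((n : ℤ) + (κ : ℤ)).toNat = n + κ := by omega
  rw [hc, hθf n _ (h.mem n x hx)] at h2
  rw [map_sub, ← h2, hcast, map_smul, h.sym_add_cast (Nat.add_comm κ n) hf₁ hx, hf₁', sub_self]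

end IsAssocGraded

section Contra

variable (h : IsAssocGraded F 𝓡 σ)
  {u : Fin 2 → R} {d : Fin 2 → ℕ} {y : Fin 2 → A}
  (a : ℕ) (s : A)
  (hcut : ∀ x ∈ F (d 0 + d 1 + a + 1), s * x ∈ Ideal.span (Set.range y))
  (hs : s ∉ F 1)
  (hT1 : ∀ D₀ D₁ : Derivation k A A, IsFrame (F 1) D₀ D₁ → ∀ s', s' ∉ F 1 →
    s' * (D₀ (y 0) * D₁ (y 1) - D₀ (y 1) * D₁ (y 0)) ∉ Ideal.span (Set.range y))

include h hcut hs hT1 in
lemma frame_order_bound (hy : ∀ j, y j ∈ F (d j)) {D₀ D₁ : Derivation k A A} {κ₀ κ₁ : ℕ}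
    (hfr : IsFrame (F 1) D₀ D₁) (h₀ : HasOrder F D₀ (κ₀ : ℤ)) (h₁ : HasOrder F D₁ (κ₁ : ℤ)) :
    κ₀ + κ₁ ≤ a := by
  by_contra hlt
  have hlt' : a + 1 ≤ κ₀ + κ₁ := by omega
  apply hT1 D₀ D₁ hfr s hs
  apply hcut
  have h00 := hasOrder_nat.mp h₀ _ _ (hy 0)
  have h01 := hasOrder_nat.mp h₀ _ _ (hy 1)
  have h10 := hasOrder_nat.mp h₁ _ _ (hy 0)
  have h11 := hasOrder_nat.mp h₁ _ _ (hy 1)
  refine (F _).sub_mem ?_ ?_
  · exact h.antitone (by omega) (h.mul_mem h00 h11)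
  · exact h.antitone (by omega) (h.mul_mem h01 h10)

include h in
/-- A derivation with vanishing values on symbols vanishes. -/
lemma deriv_eq_zero_of_homog (θ : Derivation k R R) (hθ : ∀ n, ∀ r ∈ 𝓡 n, θ r = 0) : θ = 0 := by
  ext r
  rw [Derivation.coe_zero, Pi.zero_apply]
  induction r using DirectSum.Decomposition.inductionOn 𝓡 with
  | zero => simp
  | homogeneous x => exact hθ _ _ x.2
  | add x y hx hy => rw [map_add, hx, hy, add_zero]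

include h in
/-- The basic input: a derivation of nonzero exact order has nonnegative order, from the property
of the graded ring. -/
lemma exists_exact_nat [IsDomain A] [IsNoetherianRing A] [Nontrivial R] [Algebra.FiniteType k R]
    (h0 : ∀ r ∈ 𝓡 0, ∃ c : k, r = algebraMap k R c)
    (hH : ∀ κ : ℤ, κ ≤ a → ∀ θ : Derivation k R R,
      (∀ n, ∀ r ∈ 𝓡 n, (0 ≤ (n : ℤ) + κ → θ r ∈ 𝓡 ((n : ℤ) + κ).toNat) ∧
        ((n : ℤ) + κ < 0 → θ r = 0)) →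
      ∃ f : R, (κ < 0 → f = 0) ∧ (0 ≤ κ → f ∈ 𝓡 κ.toNat) ∧ ∀ n, ∀ r ∈ 𝓡 n, θ r = (n : k) • (f * r))
    (D : Derivation k A A) (hD : D ≠ 0) :
    ∃ κ₀ : ℕ, HasOrder F D (κ₀ : ℤ) ∧ ¬ HasOrder F D ((κ₀ : ℤ) + 1) := by
  obtain ⟨κ, hκ, hκ'⟩ := h.exists_exact_order h0 D hD
  obtain ⟨θ, hθ⟩ := h.exists_symbol D κ hκ
  have hne := h.symbol_ne_zero D κ hκ hκ' θ hθ
  by_cases hneg : κ < 0
  · exfalso
    have hhom : ∀ n, ∀ r ∈ 𝓡 n, (0 ≤ (n : ℤ) + κ → θ r ∈ 𝓡 ((n : ℤ) + κ).toNat) ∧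
        ((n : ℤ) + κ < 0 → θ r = 0) := by
      intro n r hr
      obtain ⟨x, hx, rfl⟩ := h.surj n r hr
      refine ⟨fun hn => ?_, (hθ n x hx).2⟩
      rw [(hθ n x hx).1 hn]
      exact h.mem _ _ (hκ n x hx)
    obtain ⟨f, hf1, -, hf3⟩ := hH κ (by omega) θ hhom
    apply hne
    apply deriv_eq_zero_of_homog h
    intro n r hr
    rw [hf3 n r hr, hf1 hneg]
    simp
  · obtain ⟨κ₀, rfl⟩ := Int.eq_ofNat_of_zero_le (not_lt.mp hneg)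
    exact ⟨κ₀, hκ, hκ'⟩

include h hcut hs hT1 in
/-- The main contradiction. -/
theorem filtered_contra [IsDomain A] [IsNoetherianRing A] [IsDomain R] [Algebra.FiniteType k R]
    (h0 : ∀ r ∈ 𝓡 0, ∃ c : k, r = algebraMap k R c) (hy : ∀ j, y j ∈ F (d j))
    (hH : ∀ κ : ℤ, κ ≤ a → ∀ θ : Derivation k R R,
      (∀ n, ∀ r ∈ 𝓡 n, (0 ≤ (n : ℤ) + κ → θ r ∈ 𝓡 ((n : ℤ) + κ).toNat) ∧
        ((n : ℤ) + κ < 0 → θ r = 0)) →
      ∃ f : R, (κ < 0 → f = 0) ∧ (0 ≤ κ → f ∈ 𝓡 κ.toNat) ∧ ∀ n, ∀ r ∈ 𝓡 n, θ r = (n : k) • (f * r))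
    (hnum : ∀ m n f g, f ∈ 𝓡 m → g ∈ 𝓡 n → ¬ f ∣ g → ¬ g ∣ f → a ≤ m + n + 1)
    (D₀ D₁ : Derivation k A A) (hfr : IsFrame (F 1) D₀ D₁) : False := by
  classical
  let P : ℕ → Prop := fun n => ∃ (κ₀ κ₁ : ℕ) (D₀ D₁ : Derivation k A A), κ₀ + κ₁ = n ∧
    IsFrame (F 1) D₀ D₁ ∧ HasOrder F D₀ (κ₀ : ℤ) ∧ HasOrder F D₁ (κ₁ : ℤ)
  have hexact := exists_exact_nat (a := a) h h0 hH
  have hP0 : ∃ n, P n := by
    obtain ⟨κ₀, h₀, -⟩ := hexact D₀ hfr.left_ne_zero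
    obtain ⟨κ₁, h₁, -⟩ := hexact D₁ hfr.swap.left_ne_zero
    exact ⟨_, κ₀, κ₁, D₀, D₁, rfl, hfr, h₀, h₁⟩
  have hPle : ∀ n, P n → n ≤ a := by
    rintro n ⟨κ₀, κ₁, D₀, D₁, rfl, hf, h₀, h₁⟩
    exact frame_order_bound h a s hcut hs hT1 hy hf h₀ h₁
  obtain ⟨n₀, hn₀⟩ := hP0
  have hmaxspec : P (Nat.findGreatest P a) := Nat.findGreatest_spec (hPle _ hn₀) hn₀
  have hmax : ∀ n, P n → n ≤ Nat.findGreatest P a := fun n hn =>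
    Nat.le_findGreatest (hPle n hn) hn
  obtain ⟨κ₀, κ₁, D₀, D₁, hsum, hf, h₀, h₁⟩ := hmaxspec
  have hle : κ₀ + κ₁ ≤ a := frame_order_bound h a s hcut hs hT1 hy hf h₀ h₁
  have e₀ : ¬ HasOrder F D₀ ((κ₀ : ℤ) + 1) := by
    intro hO
    have := hmax _ ⟨κ₀ + 1, κ₁, D₀, D₁, rfl, hf, by exact_mod_cast hO, h₁⟩
    omega
  have e₁ : ¬ HasOrder F D₁ ((κ₁ : ℤ) + 1) := by
    intro hO
    have := hmax _ ⟨κ₀, κ₁ + 1, D₀, D₁, rfl, hf, h₀, by exact_mod_cast hO⟩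
    omega
  -- symbols
  have hsym : ∀ (D : Derivation k A A) (κ : ℕ), κ ≤ a → HasOrder F D (κ : ℤ) →
      ¬ HasOrder F D ((κ : ℤ) + 1) → ∃ f ∈ 𝓡 κ, f ≠ 0 ∧ ∃ f₁ ∈ F κ, σ κ f₁ = f ∧
        ∀ n, ∀ x ∈ F n, D x - (n : A) * f₁ * x ∈ F (n + κ + 1) := by
    intro D κ hκa hD hD'
    obtain ⟨θ, hθ⟩ := h.exists_symbol D (κ : ℤ) hD
    have hne := h.symbol_ne_zero D (κ : ℤ) hD hD' θ hθ
    have hhom : ∀ n, ∀ r ∈ 𝓡 n, (0 ≤ (n : ℤ) + (κ : ℤ) → θ r ∈ 𝓡 ((n : ℤ) + (κ : ℤ)).toNat) ∧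
        ((n : ℤ) + (κ : ℤ) < 0 → θ r = 0) := by
      intro n r hr
      obtain ⟨x, hx, rfl⟩ := h.surj n r hr
      refine ⟨fun hn => ?_, (hθ n x hx).2⟩
      rw [(hθ n x hx).1 hn]
      exact h.mem _ _ (hD n x hx)
    obtain ⟨f, -, hf2, hf3⟩ := hH (κ : ℤ) (by exact_mod_cast hκa) θ hhom
    have hfm : f ∈ 𝓡 κ := by
      have := hf2 (by omega)
      simpa using this
    have hf0 : f ≠ 0 := by
      rintro rfl
      apply hne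
      apply deriv_eq_zero_of_homog h
      intro n r hr
      rw [hf3 n r hr]
      simp
    exact ⟨f, hfm, hf0, h.euler_form D κ hD f hfm θ (fun n x hx => (hθ n x hx).1) hf3⟩
  obtain ⟨f₀, hf₀, hf₀0, g₀, hg₀, hg₀σ, hg₀e⟩ := hsym D₀ κ₀ (by omega) h₀ e₀
  obtain ⟨f₁, hf₁, hf₁0, g₁, hg₁, hg₁σ, hg₁e⟩ := hsym D₁ κ₁ (by omega) h₁ e₁
  -- non-divisibility
  have hndvd : ∀ (κ₀ κ₁ : ℕ) (D₀ D₁ : Derivation k A A) (f₀ f₁ : R) (g₀ g₁ : A),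
      IsFrame (F 1) D₀ D₁ → HasOrder F D₀ (κ₀ : ℤ) → f₀ ∈ 𝓡 κ₀ → f₁ ≠ 0 → f₁ ∈ 𝓡 κ₁ →
      g₀ ∈ F κ₀ → g₁ ∈ F κ₁ → σ κ₀ g₀ = f₀ → σ κ₁ g₁ = f₁ →
      (∀ n, ∀ x ∈ F n, D₀ x - (n : A) * g₀ * x ∈ F (n + κ₀ + 1)) →
      (∀ n, ∀ x ∈ F n, D₁ x - (n : A) * g₁ * x ∈ F (n + κ₁ + 1)) →
      f₀ ∣ f₁ → P (κ₀ + (κ₁ + 1)) := by
    intro κ₀ κ₁ D₀ D₁ f₀ f₁ g₀ g₁ hfr h₀ hf₀ hf₁0 hf₁ hg₀ hg₁ hσ₀ hσ₁ he₀ he₁ hdvd
    obtain ⟨c, hc⟩ := hdvd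
    have hκ : κ₀ ≤ κ₁ := by
      by_contra hcon
      apply hf₁0
      have h2 := DirectSum.coe_decompose_mul_of_left_mem_of_not_le 𝓡 (b := c) hf₀ hcon
      rw [← hc, decompose_of_mem_same 𝓡 hf₁] at h2
      exact h2
    have hc' : f₁ = f₀ * (decompose 𝓡 c (κ₁ - κ₀) : R) := by
      have h2 := DirectSum.coe_decompose_mul_of_left_mem_of_le 𝓡 (b := c) hf₀ hκ
      rwa [← hc, decompose_of_mem_same 𝓡 hf₁] at h2
    obtain ⟨b, hb, hbσ⟩ := h.surj (κ₁ - κ₀) (decompose 𝓡 c (κ₁ - κ₀) : R) (SetLike.coe_mem _)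
    refine ⟨κ₀, κ₁ + 1, D₀, D₁ - b • D₀, rfl, hfr.improve b, h₀, ?_⟩
    have hcast : ((κ₁ + 1 : ℕ) : ℤ) = ((κ₁ + 1 : ℕ) : ℤ) := rfl
    rw [hasOrder_nat]
    intro n x hx
    have hbg : b * g₀ ∈ F κ₁ := by
      have := h.mul_mem hb hg₀
      rwa [Nat.sub_add_cancel hκ] at this
    have hdiff : g₁ - b * g₀ ∈ F (κ₁ + 1) := by
      refine (h.ker _ _ ((F κ₁).sub_mem hg₁ hbg)).mp ?_
      rw [map_sub, h.sym_add_cast (Nat.sub_add_cancel hκ) hb hg₀, hbσ, hσ₀, hσ₁, hc', mul_comm,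
        sub_self]
    have hid : (D₁ - b • D₀) x = (D₁ x - (n : A) * g₁ * x) + (n : A) * ((g₁ - b * g₀) * x) -
        b * (D₀ x - (n : A) * g₀ * x) := by
      simp only [Derivation.coe_sub, Pi.sub_apply, Derivation.smul_apply, smul_eq_mul]
      ring
    rw [hid]
    refine (F _).sub_mem ((F _).add_mem ?_ ?_) ?_
    · exact he₁ n x hx
    · refine (F _).mul_mem_left _ ?_
      exact h.antitone (by omega) (h.mul_mem hdiff hx)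
    · have h3 := h.mul_mem hb (he₀ n x hx)
      exact h.antitone (by omega) h3
  have hnd₀ : ¬ f₀ ∣ f₁ := by
    intro hdvd
    have := hmax _ (hndvd κ₀ κ₁ D₀ D₁ f₀ f₁ g₀ g₁ hf h₀ hf₀ hf₁0 hf₁ hg₀ hg₁ hg₀σ hg₁σ hg₀e hg₁e hdvd)
    omega
  have hnd₁ : ¬ f₁ ∣ f₀ := by
    intro hdvd
    have := hmax _ (hndvd κ₁ κ₀ D₁ D₀ f₁ f₀ g₁ g₀ hf.swap h₁ hf₁ hf₀0 hf₀ hg₁ hg₀ hg₁σ hg₀σ hg₁e hg₀e hdvd)
    omega
  have hanum := hnum κ₀ κ₁ f₀ f₁ hf₀ hf₁ hnd₀ hnd₁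
  -- the final computation
  apply hT1 D₀ D₁ hf s hs
  set c₀₀ := D₀ (y 0) - ((d 0 : ℕ) : A) * g₀ * y 0 with hc₀₀
  set c₀₁ := D₀ (y 1) - ((d 1 : ℕ) : A) * g₀ * y 1 with hc₀₁
  set c₁₀ := D₁ (y 0) - ((d 0 : ℕ) : A) * g₁ * y 0 with hc₁₀
  set c₁₁ := D₁ (y 1) - ((d 1 : ℕ) : A) * g₁ * y 1 with hc₁₁
  have hm₀₀ : c₀₀ ∈ F (d 0 + κ₀ + 1) := hg₀e _ _ (hy 0)
  have hm₀₁ : c₀₁ ∈ F (d 1 + κ₀ + 1) := hg₀e _ _ (hy 1)
  have hm₁₀ : c₁₀ ∈ F (d 0 + κ₁ + 1) := hg₁e _ _ (hy 0)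
  have hm₁₁ : c₁₁ ∈ F (d 1 + κ₁ + 1) := hg₁e _ _ (hy 1)
  have hid : s * (D₀ (y 0) * D₁ (y 1) - D₀ (y 1) * D₁ (y 0)) =
      s * (c₀₀ * c₁₁ - c₀₁ * c₁₀) +
      (s * (((d 0 : ℕ) : A) * g₀ * c₁₁ - ((d 0 : ℕ) : A) * g₁ * c₀₁) * y 0 +
        s * (((d 1 : ℕ) : A) * g₁ * c₀₀ - ((d 1 : ℕ) : A) * g₀ * c₁₀) * y 1) := by
    simp only [hc₀₀, hc₀₁, hc₁₀, hc₁₁]
    ring
  rw [hid]
  refine Ideal.add_mem _ (hcut _ ?_) (Ideal.add_mem _ ?_ ?_)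
  · refine (F _).sub_mem ?_ ?_
    · exact h.antitone (by omega) (h.mul_mem hm₀₀ hm₁₁)
    · exact h.antitone (by omega) (h.mul_mem hm₀₁ hm₁₀)
  · exact Ideal.mul_mem_left _ _ (Ideal.subset_span ⟨0, rfl⟩)
  · exact Ideal.mul_mem_left _ _ (Ideal.subset_span ⟨1, rfl⟩)

end Contra

end Main

end Vale.Agent.Lib.P266
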