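import Vale.Agent.Lib.P266.Jacobian

/-!
Euler derivation and negative part of a derivation on an `ℕ`-graded algebra.
-/

set_option linter.unusedSectionVars false
set_option linter.unusedSimpArgs false
set_option linter.unusedVariables false

open DirectSum

namespace Vale.Agent.Lib.P266

section GradedDer

variable {k A : Type*} [Field k] [CommRing A] [Algebra k A] (𝒜 : ℕ → Submodule k A)
  [GradedAlgebra 𝒜]

/-- A linear map assembled from its values on homogeneous components. -/
noncomputable def homLin (L : ℕ → A →ₗ[k] A) : A →ₗ[k] A :=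
  (DirectSum.toModule k ℕ A (fun d => (L d).comp (𝒜 d).subtype)) ∘ₗ
    (decomposeLinearEquiv 𝒜).toLinearMap

lemma homLin_of_mem (L : ℕ → A →ₗ[k] A) {d : ℕ} {a : A} (ha : a ∈ 𝒜 d) :
    homLin 𝒜 L a = L d a := by
  lift a to 𝒜 d using ha
  simp only [homLin, LinearMap.coe_comp, LinearEquiv.coe_coe, Function.comp_apply,
    decomposeLinearEquiv_apply, decompose_coe]
  have := DirectSum.toModule_lof k (M := fun d => 𝒜 d) (N := A) d
    (φ := fun d => (L d).comp (𝒜 d).subtype) a
  rw [DirectSum.lof_eq_of] at this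
  rw [this]
  rfl

theorem leibniz_of_homogeneous (Φ : A →ₗ[k] A)
    (h : ∀ i j a b, a ∈ 𝒜 i → b ∈ 𝒜 j → Φ (a * b) = a * Φ b + b * Φ a) (a b : A) :
    Φ (a * b) = a • Φ b + b • Φ a := by
  simp only [smul_eq_mul]
  induction a using DirectSum.Decomposition.inductionOn 𝒜 with
  | zero => simp
  | homogeneous x =>
    induction b using DirectSum.Decomposition.inductionOn 𝒜 with
    | zero => simp
    | homogeneous y => exact h _ _ _ _ x.2 y.2
    | add y z hy hz =>
      rw [mul_add, map_add, hy, hz, map_add]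
      ring
  | add y z hy hz =>
    rw [add_mul, map_add, hy, hz, map_add]
    ring

/-- The Euler derivation. -/
noncomputable def euler : Derivation k A A :=
  Derivation.mk' (homLin 𝒜 (fun d => (d : k) • LinearMap.id))
    (leibniz_of_homogeneous 𝒜 _ (by
      intro i j a b ha hb
      rw [homLin_of_mem 𝒜 _ (SetLike.GradedMul.mul_mem ha hb), homLin_of_mem 𝒜 _ ha,
        homLin_of_mem 𝒜 _ hb]
      show ((i + j : ℕ) : k) • (a * b) = a * ((j : k) • b) + b * ((i : k) • a)
      rw [Nat.cast_add, add_smul, mul_smul_comm, mul_smul_comm, mul_comm b a, add_comm]))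

lemma euler_of_mem {d : ℕ} {a : A} (ha : a ∈ 𝒜 d) : euler 𝒜 a = (d : k) • a := by
  show homLin 𝒜 _ a = _
  rw [homLin_of_mem 𝒜 _ ha]
  rfl

/-- The sum of the components of degree below `d`. -/
noncomputable def truncBelow (d : ℕ) : A →ₗ[k] A :=
  ∑ e ∈ Finset.range d, GradedAlgebra.proj 𝒜 e

lemma truncBelow_apply (d : ℕ) (a : A) :
    truncBelow 𝒜 d a = ∑ e ∈ Finset.range d, (decompose 𝒜 a e : A) := by
  simp [truncBelow, LinearMap.sum_apply, GradedAlgebra.proj_apply]

lemma truncBelow_mul_of_mem (i j : ℕ) (c b : A) (hb : b ∈ 𝒜 j) :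
    truncBelow 𝒜 (i + j) (c * b) = truncBelow 𝒜 i c * b := by
  rw [truncBelow_apply, truncBelow_apply, add_comm i j, Finset.sum_range_add, Finset.sum_mul]
  have h0 : ∑ x ∈ Finset.range j, (decompose 𝒜 (c * b) x : A) = 0 := by
    apply Finset.sum_eq_zero
    intro x hx
    exact coe_decompose_mul_of_right_mem_of_not_le 𝒜 hb (by simpa using Finset.mem_range.mp hx)
  rw [h0, zero_add]
  apply Finset.sum_congr rfl
  intro x _
  rw [add_comm j x]
  exact coe_decompose_mul_add_of_right_mem 𝒜 hb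

/-- The part of negative degree of a derivation. -/
noncomputable def negPart (D : Derivation k A A) : Derivation k A A :=
  Derivation.mk' (homLin 𝒜 (fun d => truncBelow 𝒜 d ∘ₗ D.toLinearMap))
    (leibniz_of_homogeneous 𝒜 _ (by
      intro i j a b ha hb
      rw [homLin_of_mem 𝒜 _ (SetLike.GradedMul.mul_mem ha hb), homLin_of_mem 𝒜 _ ha,
        homLin_of_mem 𝒜 _ hb]
      show truncBelow 𝒜 (i + j) (D (a * b)) = a * truncBelow 𝒜 j (D b) + b * truncBelow 𝒜 i (D a)
      rw [Derivation.leibniz, smul_eq_mul, smul_eq_mul, map_add, mul_comm a (D b), mul_comm b (D a),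
        truncBelow_mul_of_mem 𝒜 i j _ _ hb, add_comm i j, truncBelow_mul_of_mem 𝒜 j i _ _ ha]
      ring))

lemma negPart_of_mem (D : Derivation k A A) {d : ℕ} {a : A} (ha : a ∈ 𝒜 d) :
    negPart 𝒜 D a = truncBelow 𝒜 d (D a) := by
  show homLin 𝒜 _ a = _
  rw [homLin_of_mem 𝒜 _ ha]
  rfl

lemma negPart_zero_grade (D : Derivation k A A) {a : A} (ha : a ∈ 𝒜 0) : negPart 𝒜 D a = 0 := by
  rw [negPart_of_mem 𝒜 D ha, truncBelow_apply]
  simp

lemma projZero_negPart (D : Derivation k A A) {d : ℕ} (hd : d ≠ 0) {a : A} (ha : a ∈ 𝒜 d) :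
    (decompose 𝒜 (negPart 𝒜 D a) 0 : A) = decompose 𝒜 (D a) 0 := by
  classical
  rw [negPart_of_mem 𝒜 D ha, truncBelow_apply]
  have h1 : (decompose 𝒜 (∑ e ∈ Finset.range d, (decompose 𝒜 (D a) e : A)) 0 : A) =
      ∑ e ∈ Finset.range d, (decompose 𝒜 ((decompose 𝒜 (D a) e : A)) 0 : A) :=
    map_sum (GradedRing.proj 𝒜 0) _ _
  rw [h1, Finset.sum_eq_single 0]
  · rw [decompose_of_mem_same 𝒜 (SetLike.coe_mem _)]
  · intro e _ he
    rw [decompose_of_mem_ne 𝒜 (SetLike.coe_mem _) he]
  · intro h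
    exact absurd (Finset.mem_range.mpr (Nat.pos_of_ne_zero hd)) h

end GradedDer

end Vale.Agent.Lib.P266
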