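import Vale.Agent.Lib.P266.FilterBasic
import Vale.Agent.Lib.P266.GradedDer

/-!
Orders of derivations with respect to a filtration, and their symbols.
-/

set_option linter.unusedSectionVars false
set_option linter.unusedSimpArgs false
set_option linter.unusedVariables false
set_option linter.style.haveILetI false

open DirectSum

namespace Vale.Agent.Lib.P266

variable {k A R : Type*} [Field k] [CommRing A] [Algebra k A] [CommRing R] [Algebra k R]

/-- The derivation `D` raises the filtration `F` by `κ`. -/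
def HasOrder (F : ℕ → Ideal A) (D : Derivation k A A) (κ : ℤ) : Prop :=
  ∀ n, ∀ x ∈ F n, D x ∈ F (((n : ℤ) + κ).toNat)

section Order

variable {F : ℕ → Ideal A} {𝓡 : ℕ → Submodule k R} {σ : ℕ → A →ₗ[k] R} [GradedAlgebra 𝓡]

lemma deriv_pow_mem (I : Ideal A) (D : Derivation k A A) (N : ℕ) :
    ∀ v ∈ I ^ (N + 1), D v ∈ I ^ N := by
  induction N with
  | zero =>
    intro v _
    simp
  | succ N ih =>
    intro v hv
    rw [pow_succ] at hv
    refine Submodule.mul_induction_on hv ?_ ?_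
    · intro a ha b hb
      rw [Derivation.leibniz, smul_eq_mul, smul_eq_mul]
      refine Ideal.add_mem _ ?_ ?_
      · have : I ^ (N + 1) ≤ I ^ N := Ideal.pow_le_pow_right (Nat.le_succ N)
        have h1 : D b ∈ (⊤ : Ideal A) := trivial
        have h2 := ih a ha
        have ha' : a ∈ I ^ N := this ha
        have h3 : a * D b ∈ I ^ (N + 1) := by
          rcases Nat.eq_zero_or_pos N with rfl | hN
          · have h4 := ih a ha
            -- `a ∈ I ^ 1`
            simpa using Ideal.mul_mem_right (D b) _ (by simpa using ha)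
          · exact Ideal.mul_mem_right _ _ ha
        exact h3
      · have h2 := ih a ha
        have h3 : b * D a ∈ I ^ (N + 1) := by
          rw [pow_succ, mul_comm]
          exact Ideal.mul_mem_mul hb h2
        exact h3
    · intro a b ha hb
      rw [map_add]
      exact Ideal.add_mem _ ha hb

namespace IsAssocGraded

variable (h : IsAssocGraded F 𝓡 σ)
include h

lemma hasOrder_mono {D : Derivation k A A} {κ κ' : ℤ} (hκ : κ' ≤ κ) (hD : HasOrder F D κ) :
    HasOrder F D κ' := by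
  intro n x hx
  exact h.antitone (by omega) (hD n x hx)

/-- Homogeneous generators over `k`. -/
lemma exists_generators [Algebra.FiniteType k R] (h0 : ∀ r ∈ 𝓡 0, ∃ c : k, r = algebraMap k R c) :
    ∃ G : Finset R, Algebra.adjoin k (G : Set R) = ⊤ ∧ ∀ x ∈ G, ∃ n, x ∈ 𝓡 n := by
  classical
  haveI : Algebra.FiniteType (𝓡 0) R := by
    obtain ⟨t, ht⟩ := (Algebra.FiniteType.out : (⊤ : Subalgebra k R).FG)
    have key : ∀ a ∈ Algebra.adjoin k (t : Set R), a ∈ Algebra.adjoin (𝓡 0) (t : Set R) := by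
      intro a ha
      induction ha using Algebra.adjoin_induction with
      | mem x hx => exact Algebra.subset_adjoin hx
      | algebraMap c =>
        exact Subalgebra.algebraMap_mem _
          (⟨algebraMap k R c, SetLike.algebraMap_mem_graded 𝓡 c⟩ : 𝓡 0)
      | add x y _ _ hx hy => exact Subalgebra.add_mem _ hx hy
      | mul x y _ _ hx hy => exact Subalgebra.mul_mem _ hx hy
    exact ⟨⟨t, eq_top_iff.mpr fun a _ => key a (by rw [ht]; trivial)⟩⟩
  obtain ⟨G, hG, hGpos⟩ := GradedAlgebra.exists_finset_adjoin_eq_top_and_homogeneous_ne_zero 𝓡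
  refine ⟨G, ?_, fun x hx => ?_⟩
  · rw [eq_top_iff]
    intro a _
    have ha : a ∈ Algebra.adjoin (𝓡 0) (G : Set R) := by
      rw [hG]
      trivial
    induction ha using Algebra.adjoin_induction with
    | mem x hx => exact Algebra.subset_adjoin hx
    | algebraMap r =>
      obtain ⟨c, hc⟩ := h0 r r.2
      have : algebraMap (𝓡 0) R r = algebraMap k R c := hc
      rw [this]
      exact Subalgebra.algebraMap_mem _ c
    | add x y _ _ hx hy => exact Subalgebra.add_mem _ (hx trivial) (hy trivial)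
    | mul x y _ _ hx hy => exact Subalgebra.mul_mem _ (hx trivial) (hy trivial)
  · obtain ⟨n, -, hn⟩ := hGpos x hx
    exact ⟨n, hn⟩

/-- Every derivation has an order bounded below. -/
theorem exists_hasOrder [Algebra.FiniteType k R] (h0 : ∀ r ∈ 𝓡 0, ∃ c : k, r = algebraMap k R c)
    (D : Derivation k A A) : ∃ κ, HasOrder F D κ := by
  classical
  obtain ⟨G, hG, hGh⟩ := h.exists_generators h0
  choose! δ hδ using hGh
  let W := G.sup δ
  have hW : ∀ g ∈ G, δ g ≤ W := fun g hg => Finset.le_sup hg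
  let V : ℕ → Submodule k A := fun M =>
    (F M).restrictScalars k ⊓ ((F (M - W)).restrictScalars k).comap (D : A →ₗ[k] A)
  have hVmem : ∀ M v, v ∈ V M ↔ v ∈ F M ∧ D v ∈ F (M - W) := by
    intro M v
    rfl
  let S : ℕ → Submodule k R := fun M => (V M).map (σ M)
  have hS : ∀ n r, r ∈ 𝓡 n → r ∈ S n := by
    refine graded_family_eq (𝓡 := 𝓡) S ?_ G hG ?_ ?_ ?_
    · rintro n _ ⟨v, hv, rfl⟩
      exact h.mem n v ((hVmem n v).mp hv).1
    · intro g hg
      refine ⟨δ g, ?_⟩
      obtain ⟨x, hx, hx1⟩ := h.surj _ g (hδ g hg)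
      refine ⟨x, (hVmem _ _).mpr ⟨hx, ?_⟩, hx1⟩
      have : δ g - W = 0 := Nat.sub_eq_zero_of_le (hW g hg)
      rw [this]
      exact h.mem_zero _
    · refine ⟨1, (hVmem _ _).mpr ⟨h.mem_zero 1, ?_⟩, h.sym_one⟩
      rw [Derivation.map_one_eq_zero]
      exact Ideal.zero_mem _
    · rintro i j _ _ ⟨x, hx, rfl⟩ ⟨y, hy, rfl⟩
      obtain ⟨hx1, hx2⟩ := (hVmem _ _).mp hx
      obtain ⟨hy1, hy2⟩ := (hVmem _ _).mp hy
      refine ⟨x * y, (hVmem _ _).mpr ⟨h.mul_mem hx1 hy1, ?_⟩, h.sym_mul i j x hx1 y hy1⟩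
      rw [Derivation.leibniz, smul_eq_mul, smul_eq_mul]
      refine Ideal.add_mem _ ?_ ?_
      · exact h.antitone (by omega) (h.mul_mem hx1 hy2)
      · exact h.antitone (by omega) (h.mul_mem hy1 hx2)
  refine ⟨-(W : ℤ), ?_⟩
  intro n x hx
  have hcast : ((n : ℤ) + -(W : ℤ)).toNat = n - W := by omega
  rw [hcast]
  -- approximation
  have happrox : ∀ M, n ≤ M → ∃ z, D z ∈ F (n - W) ∧ x - z ∈ F M := by
    intro M hM
    induction M, hM using Nat.le_induction with
    | base => exact ⟨0, by simp, by simpa using hx⟩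
    | succ M hM ih =>
      obtain ⟨z, hz1, hz2⟩ := ih
      obtain ⟨v, hv, hv1⟩ := hS M _ (h.mem M _ hz2)
      obtain ⟨hv2, hv3⟩ := (hVmem _ _).mp hv
      refine ⟨z + v, ?_, ?_⟩
      · rw [map_add]
        exact Ideal.add_mem _ hz1 (h.antitone (by omega) hv3)
      · have h1 : x - (z + v) = (x - z) - v := by ring
        rw [h1]
        refine (h.ker M _ ((F M).sub_mem hz2 hv2)).mp ?_
        rw [map_sub, hv1, sub_self]
  obtain ⟨M₀, hM₀⟩ := h.cofinal (n + 1)
  obtain ⟨z, hz1, hz2⟩ := happrox (max M₀ n) (le_max_right _ _)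
  have h3 : x - z ∈ F 1 ^ (n + 1) := hM₀ (h.antitone (le_max_left _ _) hz2)
  have h4 : D (x - z) ∈ F 1 ^ n := deriv_pow_mem _ D n _ h3
  have h5 : D (x - z) ∈ F (n - W) := h.antitone (Nat.sub_le _ _) (h.pow_le n h4)
  have h6 : x = (x - z) + z := by ring
  rw [h6, map_add]
  exact Ideal.add_mem _ h5 hz1

/-- A nonzero derivation has an exact order. -/
theorem exists_exact_order [IsDomain A] [IsNoetherianRing A] [Nontrivial R] [Algebra.FiniteType k R]
    (h0 : ∀ r ∈ 𝓡 0, ∃ c : k, r = algebraMap k R c) (D : Derivation k A A) (hD : D ≠ 0) :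
    ∃ κ, HasOrder F D κ ∧ ¬ HasOrder F D (κ + 1) := by
  classical
  have hne : ∃ x, D x ≠ 0 := by
    by_contra hcon
    push Not at hcon
    exact hD (by ext x; simpa using hcon x)
  obtain ⟨x, hx⟩ := hne
  have htop : F 1 ≠ ⊤ := fun ht => h.one_not_mem (ht ▸ trivial)
  have hinf := Ideal.iInf_pow_eq_bot_of_isDomain (F 1) htop
  have hN : ∃ N, D x ∉ F 1 ^ N := by
    by_contra hcon
    push Not at hcon
    apply hx
    have : D x ∈ ⨅ i, F 1 ^ i := (Submodule.mem_iInf _).mpr hcon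
    rw [hinf] at this
    simpa using this
  obtain ⟨N, hN⟩ := hN
  obtain ⟨M, hM⟩ := h.cofinal N
  have hnot : ¬ HasOrder F D (M : ℤ) := by
    intro hO
    have h1 := hO 0 x (h.mem_zero x)
    have h2 : (((0 : ℕ) : ℤ) + (M : ℤ)).toNat = M := by omega
    rw [h2] at h1
    exact hN (hM h1)
  have hbdd : ∃ b : ℤ, ∀ z : ℤ, HasOrder F D z → z ≤ b := by
    refine ⟨M, fun z hz => ?_⟩
    by_contra hlt
    exact hnot (h.hasOrder_mono (by omega) hz)
  obtain ⟨κ, hκ, hκmax⟩ := Int.exists_greatest_of_bdd hbdd (h.exists_hasOrder h0 D)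
  refine ⟨κ, hκ, fun hO => ?_⟩
  have := hκmax _ hO
  omega

/-- The symbol of a derivation of order `κ`: a derivation of the graded ring. -/
theorem exists_symbol (D : Derivation k A A) (κ : ℤ) (hD : HasOrder F D κ) :
    ∃ θ : Derivation k R R, ∀ n, ∀ x ∈ F n,
      (0 ≤ (n : ℤ) + κ → θ (σ n x) = σ ((n : ℤ) + κ).toNat (D x)) ∧
      ((n : ℤ) + κ < 0 → θ (σ n x) = 0) := by
  classical
  have hsec : ∀ n, ∃ g : 𝓡 n →ₗ[k] A, ∀ r, g r ∈ F n ∧ σ n (g r) = r := by
    intro n
    let f : ((F n).restrictScalars k) →ₗ[k] 𝓡 n :=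
      LinearMap.codRestrict (𝓡 n) ((σ n).comp (Submodule.subtype _)) (fun x => h.mem n x x.2)
    have hf : Function.Surjective f := by
      rintro ⟨r, hr⟩
      obtain ⟨x, hx, hx1⟩ := h.surj n r hr
      exact ⟨⟨x, hx⟩, Subtype.ext hx1⟩
    obtain ⟨g', hg'⟩ := f.exists_rightInverse_of_surjective (LinearMap.range_eq_top.mpr hf)
    refine ⟨(Submodule.subtype _).comp g', fun r => ⟨(g' r).2, ?_⟩⟩
    have := congrArg (fun F' : 𝓡 n →ₗ[k] 𝓡 n => ((F' r : 𝓡 n) : R)) hg'
    exact this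
  choose g hg using hsec
  let L' : ∀ n, 𝓡 n →ₗ[k] R := fun n =>
    if 0 ≤ (n : ℤ) + κ then (σ ((n : ℤ) + κ).toNat).comp ((D : A →ₗ[k] A).comp (g n)) else 0
  let Φ : R →ₗ[k] R := (DirectSum.toModule k ℕ R L').comp (decomposeLinearEquiv 𝓡).toLinearMap
  have hΦ : ∀ n (r : 𝓡 n), Φ r = L' n r := by
    intro n r
    simp only [Φ, LinearMap.coe_comp, LinearEquiv.coe_coe, Function.comp_apply,
      decomposeLinearEquiv_apply, decompose_coe]
    have := DirectSum.toModule_lof k (M := fun d => 𝓡 d) (N := R) n (φ := L') r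
    rw [DirectSum.lof_eq_of] at this
    exact this
  have hkey : ∀ n, ∀ x ∈ F n, (0 ≤ (n : ℤ) + κ → Φ (σ n x) = σ ((n : ℤ) + κ).toNat (D x)) ∧
      ((n : ℤ) + κ < 0 → Φ (σ n x) = 0) := by
    intro n x hx
    have hΦx := hΦ n ⟨σ n x, h.mem n x hx⟩
    constructor
    · intro hn
      have h1 : Φ (σ n x) = σ ((n : ℤ) + κ).toNat (D (g n ⟨σ n x, h.mem n x hx⟩)) := by
        refine hΦx.trans ?_
        simp only [L', if_pos hn]
        rfl
      rw [h1]
      -- difference of two lifts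
      obtain ⟨hg1, hg2⟩ := hg n ⟨σ n x, h.mem n x hx⟩
      have hdiff : x - g n ⟨σ n x, h.mem n x hx⟩ ∈ F (n + 1) := by
        refine (h.ker n _ ((F n).sub_mem hx hg1)).mp ?_
        rw [map_sub, hg2, sub_self]
      have h2 := hD _ _ hdiff
      have h3 : (((n + 1 : ℕ) : ℤ) + κ).toNat = ((n : ℤ) + κ).toNat + 1 := by omega
      rw [h3] at h2
      have h4 := (h.ker _ _ (h.anti _ h2)).mpr h2
      rw [map_sub, map_sub, sub_eq_zero] at h4
      exact h4.symm
    · intro hn
      refine hΦx.trans ?_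
      simp only [L', if_neg (not_le.mpr hn)]
      rfl
  -- the product rule
  have hpart : ∀ i j, ∀ x ∈ F i, ∀ y ∈ F j, 0 ≤ ((i + j : ℕ) : ℤ) + κ →
      σ (((i + j : ℕ) : ℤ) + κ).toNat (x * D y) = σ i x * Φ (σ j y) := by
    intro i j x hx y hy hr
    by_cases hq : 0 ≤ (j : ℤ) + κ
    · rw [(hkey j y hy).1 hq]
      have hDy := hD j y hy
      exact h.sym_add_cast (by omega) hx hDy
    · rw [(hkey j y hy).2 (not_le.mp hq), mul_zero]
      have h1 : x * D y ∈ F (i + 0) := h.mul_mem hx (h.mem_zero _)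
      have h2 : x * D y ∈ F ((((i + j : ℕ) : ℤ) + κ).toNat + 1) := h.antitone (by omega) h1
      exact (h.ker _ _ (h.anti _ h2)).mpr h2
  have hleib : ∀ i j a b, a ∈ 𝓡 i → b ∈ 𝓡 j → Φ (a * b) = a * Φ b + b * Φ a := by
    intro i j a b ha hb
    obtain ⟨x, hx, rfl⟩ := h.surj i a ha
    obtain ⟨y, hy, rfl⟩ := h.surj j b hb
    rw [← h.sym_mul i j x hx y hy]
    have hxy := h.mul_mem hx hy
    by_cases hr : 0 ≤ ((i + j : ℕ) : ℤ) + κ
    · rw [(hkey _ _ hxy).1 hr, Derivation.leibniz, smul_eq_mul, smul_eq_mul, map_add,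
        hpart i j x hx y hy hr]
      have := hpart j i y hy x hx (by rw [Nat.add_comm]; exact hr)
      rw [Nat.add_comm] at this
      rw [this]
    · have hr' : ((i + j : ℕ) : ℤ) + κ < 0 := not_le.mp hr
      rw [(hkey _ _ hxy).2 hr', (hkey i x hx).2 (by omega), (hkey j y hy).2 (by omega)]
      simp
  let θ : Derivation k R R := Derivation.mk' Φ (leibniz_of_homogeneous 𝓡 Φ hleib)
  exact ⟨θ, hkey⟩

/-- The symbol of a derivation of exact order is not zero. -/
theorem symbol_ne_zero (D : Derivation k A A) (κ : ℤ) (hD : HasOrder F D κ)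
    (hD' : ¬ HasOrder F D (κ + 1)) (θ : Derivation k R R)
    (hθ : ∀ n, ∀ x ∈ F n, (0 ≤ (n : ℤ) + κ → θ (σ n x) = σ ((n : ℤ) + κ).toNat (D x)) ∧
      ((n : ℤ) + κ < 0 → θ (σ n x) = 0)) : θ ≠ 0 := by
  intro h0
  apply hD'
  intro n x hx
  by_cases hn : 0 ≤ (n : ℤ) + κ
  · have h1 := (hθ n x hx).1 hn
    rw [h0] at h1
    have h2 : σ ((n : ℤ) + κ).toNat (D x) = 0 := h1.symm
    have h3 := (h.ker _ _ (hD n x hx)).mp h2
    exact h.antitone (by omega) h3
  · have : ((n : ℤ) + (κ + 1)).toNat = 0 := by omega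
    rw [this]
    exact h.mem_zero _

end IsAssocGraded

end Order

end Vale.Agent.Lib.P266
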