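import Vale.Agent.Lib.P266.RegSeq

/-!
A normal graded domain is free over a homogeneous system of parameters, with a homogeneous basis
containing any given homogeneous element outside the parameter ideal.
-/

set_option linter.unusedSectionVars false
set_option linter.unusedSimpArgs false
set_option linter.unusedVariables false
set_option linter.style.haveILetI false

open DirectSum

namespace Vale.Agent.Lib.P266

section GradedFree

variable {k R : Type*} [Field k] [CommRing R] [Algebra k R]
  (𝓡 : ℕ → Submodule k R) [GradedAlgebra 𝓡]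

/-- The quotient by the parameters is finite dimensional. -/
theorem quotient_finite [Algebra.FiniteType k R] (h0 : ∀ r ∈ 𝓡 0, ∃ c : k, r = algebraMap k R c)
    (I : Ideal R) (τ : ℕ) (htop : ∀ n, τ < n → ∀ r ∈ 𝓡 n, r ∈ I) :
    Module.Finite k (R ⧸ I) := by
  classical
  have hh : ∀ n, ∀ r ∈ 𝓡 n, IsIntegral k (Ideal.Quotient.mk I r) := by
    intro n r hr
    rcases Nat.eq_zero_or_pos n with rfl | hn
    · obtain ⟨c, rfl⟩ := h0 r hr
      have : Ideal.Quotient.mk I (algebraMap k R c) = algebraMap k (R ⧸ I) c := rfl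
      rw [this]
      exact isIntegral_algebraMap
    · have h1 : r ^ (τ + 1) ∈ 𝓡 ((τ + 1) • n) := SetLike.pow_mem_graded (τ + 1) hr
      have h2 : τ < (τ + 1) • n := by
        simp only [smul_eq_mul]
        nlinarith
      have h3 := htop _ h2 _ h1
      have h4 : (Ideal.Quotient.mk I r) ^ (τ + 1) = 0 := by
        rw [← map_pow]
        exact Ideal.Quotient.eq_zero_iff_mem.mpr h3
      refine IsIntegral.of_pow (Nat.succ_pos τ) ?_
      rw [h4]
      exact isIntegral_zero
  haveI : Algebra.IsIntegral k (R ⧸ I) := ⟨by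
    intro x
    obtain ⟨r, rfl⟩ := Ideal.Quotient.mk_surjective x
    rw [← DirectSum.sum_support_decompose 𝓡 r, map_sum]
    exact IsIntegral.sum _ (fun n _ => hh n _ (SetLike.coe_mem _))⟩
  haveI : Algebra.FiniteType k (R ⧸ I) :=
    Algebra.FiniteType.of_surjective (Ideal.Quotient.mkₐ k I) (Ideal.Quotient.mkₐ_surjective k I)
  exact Algebra.IsIntegral.finite

/-- A finite family of homogeneous elements, independent and spanning modulo the ideal. -/
theorem exists_family (I : Ideal R) (hfin : Module.Finite k (R ⧸ I)) (s : R) (hs : ∃ n, s ∈ 𝓡 n)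
    (hsI : s ∉ I) :
    ∃ b : Set R, b.Finite ∧ s ∈ b ∧ (∀ r ∈ b, ∃ n, r ∈ 𝓡 n) ∧
      LinearIndepOn k (Ideal.Quotient.mk I) b ∧
      Submodule.span k ((Ideal.Quotient.mk I) '' b) = ⊤ := by
  classical
  have hs1 : LinearIndepOn k (Ideal.Quotient.mk I) {s} := by
    rw [linearIndepOn_singleton_iff]
    intro h
    exact hsI (Ideal.Quotient.eq_zero_iff_mem.mp h)
  obtain ⟨b, hbt, hsb, hspan, hli⟩ := exists_linearIndepOn_extension hs1
    (t := {r | ∃ n, r ∈ 𝓡 n}) (by simpa using hs)
  refine ⟨b, ?_, hsb (Set.mem_singleton s), hbt, hli, ?_⟩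
  · have : Finite b := LinearIndependent.finite_of_isNoetherian hli
    exact Set.toFinite b
  · rw [eq_top_iff]
    rintro x -
    obtain ⟨r, rfl⟩ := Ideal.Quotient.mk_surjective x
    rw [← DirectSum.sum_support_decompose 𝓡 r, map_sum]
    refine Submodule.sum_mem _ (fun n _ => ?_)
    apply hspan
    exact ⟨_, ⟨n, SetLike.coe_mem _⟩, rfl⟩

variable [Algebra (MvPolynomial (Fin 2) k) R] [IsScalarTower k (MvPolynomial (Fin 2) k) R]
  (u : Fin 2 → R) (d : Fin 2 → ℕ)

/-- Homogeneous generators modulo the parameters generate the ring as a module over the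
polynomial ring. -/
theorem generate_mem (hX : ∀ j, algebraMap (MvPolynomial (Fin 2) k) R (MvPolynomial.X j) = u j)
    (hd : ∀ j, d j ≠ 0) (hu : ∀ j, u j ∈ 𝓡 (d j)) (b : Set R) (hbh : ∀ r ∈ b, ∃ n, r ∈ 𝓡 n)
    (hspan : Submodule.span k ((Ideal.Quotient.mk (Ideal.span (Set.range u))) '' b) = ⊤) (r : R) :
    r ∈ Submodule.span (MvPolynomial (Fin 2) k) b := by
  classical
  set W := Submodule.span (MvPolynomial (Fin 2) k) b with hW
  set I := Ideal.span (Set.range u) with hI
  have hkW : ∀ (c : k) (x : R), x ∈ W → c • x ∈ W := by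
    intro c x hx
    have : c • x = (MvPolynomial.C c : MvPolynomial (Fin 2) k) • x := by
      rw [Algebra.smul_def, Algebra.smul_def]
      congr 1
      rw [IsScalarTower.algebraMap_apply k (MvPolynomial (Fin 2) k) R]
      rfl
    rw [this]
    exact W.smul_mem _ hx
  have hmain : ∀ n, ∀ r ∈ 𝓡 n, r ∈ W := by
    intro n
    induction n using Nat.strong_induction_on with
    | _ n ih =>
      intro r hr
      -- the submodule of elements whose component of degree `n` lies in `W`
      let V : Submodule k R :=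
        { carrier := {x | ((decompose 𝓡 x n : 𝓡 n) : R) ∈ W}
          add_mem' := by
            intro x y hx hy
            simp only [Set.mem_ofPred_eq, decompose_add, DirectSum.add_apply,
              Submodule.coe_add] at hx hy ⊢
            exact W.add_mem hx hy
          zero_mem' := by
            simp only [Set.mem_ofPred_eq, decompose_zero, DirectSum.zero_apply, Submodule.coe_zero]
            exact W.zero_mem
          smul_mem' := by
            intro c x hx
            simp only [Set.mem_ofPred_eq] at hx ⊢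
            rw [decompose_smul, DirectSum.smul_apply, Submodule.coe_smul]
            exact hkW c _ hx }
      have hVmem : ∀ x, x ∈ V ↔ ((decompose 𝓡 x n : 𝓡 n) : R) ∈ W := fun x => Iff.rfl
      have hbV : Submodule.span k b ≤ V := by
        rw [Submodule.span_le]
        intro e he
        obtain ⟨m, hm⟩ := hbh e he
        show ((decompose 𝓡 e n : 𝓡 n) : R) ∈ W
        by_cases hmn : m = n
        · subst hmn
          rw [decompose_of_mem_same 𝓡 hm]
          exact Submodule.subset_span he
        · rw [decompose_of_mem_ne 𝓡 hm hmn]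
          exact W.zero_mem
      have hIV : ∀ y ∈ I, y ∈ V := by
        intro y hy
        rw [hI, Ideal.mem_span_range_iff_exists_fun] at hy
        obtain ⟨c, rfl⟩ := hy
        refine V.sum_mem (fun j _ => ?_)
        rw [hVmem]
        by_cases hle : d j ≤ n
        · rw [DirectSum.coe_decompose_mul_of_right_mem_of_le 𝓡 (hu j) hle]
          have hlt : n - d j < n := by
            have := hd j
            omega
          have h1 := ih _ hlt _ (SetLike.coe_mem (decompose 𝓡 (c j) (n - d j)))
          have h2 : ((decompose 𝓡 (c j) (n - d j) : 𝓡 (n - d j)) : R) * u j =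
              (MvPolynomial.X j : MvPolynomial (Fin 2) k) •
                ((decompose 𝓡 (c j) (n - d j) : 𝓡 (n - d j)) : R) := by
            rw [Algebra.smul_def, hX, mul_comm]
          rw [h2]
          exact W.smul_mem _ h1
        · rw [DirectSum.coe_decompose_mul_of_right_mem_of_not_le 𝓡 (hu j) hle]
          exact W.zero_mem
      have hrV : r ∈ V := by
        have h1 : Ideal.Quotient.mk I r ∈ Submodule.span k ((Ideal.Quotient.mk I) '' b) := by
          rw [hspan]
          trivial
        have h2 : Submodule.span k ((Ideal.Quotient.mk I) '' b) =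
            (Submodule.span k b).map (Ideal.Quotient.mkₐ k I).toLinearMap := by
          rw [Submodule.map_span]
          rfl
        rw [h2] at h1
        obtain ⟨x, hx, hxr⟩ := h1
        have h3 : x - r ∈ I := by
          rw [← Ideal.Quotient.eq]
          exact hxr
        have h4 : r = x - (x - r) := by ring
        rw [h4]
        exact V.sub_mem (hbV hx) (hIV _ h3)
      have := (hVmem r).mp hrV
      rwa [decompose_of_mem_same 𝓡 hr] at this
  rw [← DirectSum.sum_support_decompose 𝓡 r]
  exact W.sum_mem (fun n _ => hmain n _ (SetLike.coe_mem _))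

end GradedFree

section Indep

variable {k R ι : Type*} [Field k] [CommRing R] [IsDomain R] [Algebra k R] [Fintype ι]
  [Algebra (MvPolynomial (Fin 2) k) R] [IsScalarTower k (MvPolynomial (Fin 2) k) R]

lemma poly_decomp (p : MvPolynomial (Fin 2) k) : ∃ a e : MvPolynomial (Fin 2) k,
    p = MvPolynomial.C (MvPolynomial.constantCoeff p) + MvPolynomial.X 0 * a +
      MvPolynomial.X 1 * e := by
  induction p using MvPolynomial.induction_on with
  | C c => exact ⟨0, 0, by simp⟩
  | add p q hp hq =>
    obtain ⟨a, e, h⟩ := hp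
    obtain ⟨a', e', h'⟩ := hq
    refine ⟨a + a', e + e', ?_⟩
    rw [map_add, map_add]
    nth_rw 1 [h, h']
    ring
  | mul_X p j hp =>
    obtain ⟨a, e, h⟩ := hp
    fin_cases j
    · refine ⟨p, 0, ?_⟩
      simp only [Fin.zero_eta, map_mul, MvPolynomial.constantCoeff_X]
      simp
      ring
    · refine ⟨0, p, ?_⟩
      simp only [Fin.mk_one, map_mul, MvPolynomial.constantCoeff_X]
      simp
      ring

/-- A relation among elements independent modulo a regular sequence has coefficients of arbitrarily
high order. -/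
theorem relation_mem_pow (v : ι → R) (I : Ideal R)
    (hIX : ∀ j, algebraMap (MvPolynomial (Fin 2) k) R (MvPolynomial.X j) ∈ I)
    (hli : LinearIndependent k (fun i => Ideal.Quotient.mk I (v i)))
    (hgen : ∀ r : R, ∃ q : ι → MvPolynomial (Fin 2) k, r = ∑ i, q i • v i)
    (hne : algebraMap (MvPolynomial (Fin 2) k) R (MvPolynomial.X 0) ≠ 0)
    (hreg : ∀ α β : R, algebraMap (MvPolynomial (Fin 2) k) R (MvPolynomial.X 1) * α =
      algebraMap (MvPolynomial (Fin 2) k) R (MvPolynomial.X 0) * β →
      ∃ γ, α = algebraMap (MvPolynomial (Fin 2) k) R (MvPolynomial.X 0) * γ)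
    (N : ℕ) (p : ι → MvPolynomial (Fin 2) k) (hp : ∑ i, p i • v i = 0) (i : ι) :
    p i ∈ (Ideal.span (Set.range (MvPolynomial.X : Fin 2 → MvPolynomial (Fin 2) k))) ^ N := by
  classical
  induction N generalizing p i with
  | zero => simp
  | succ N ih =>
    choose a e hae using fun i => poly_decomp (p i)
    set c : ι → k := fun i => MvPolynomial.constantCoeff (p i) with hc
    have hX0 : algebraMap (MvPolynomial (Fin 2) k) R (MvPolynomial.X 0) ∈ I := hIX 0
    have hX1 : algebraMap (MvPolynomial (Fin 2) k) R (MvPolynomial.X 1) ∈ I := hIX 1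
    set α : R := ∑ i, a i • v i with hα
    set β : R := ∑ i, e i • v i with hβ
    have h1 : ∑ i, p i • v i = ∑ i, c i • v i +
        (algebraMap (MvPolynomial (Fin 2) k) R (MvPolynomial.X 0) * α +
          algebraMap (MvPolynomial (Fin 2) k) R (MvPolynomial.X 1) * β) := by
      simp only [hα, hβ, Finset.mul_sum, ← Finset.sum_add_distrib]
      refine Finset.sum_congr rfl (fun i _ => ?_)
      conv_lhs => rw [hae i]
      simp only [Algebra.smul_def, map_add, map_mul]
      rw [IsScalarTower.algebraMap_apply k (MvPolynomial (Fin 2) k) R]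
      simp only [hc, MvPolynomial.algebraMap_eq]
      ring
    have hc0 : ∀ i, c i = 0 := by
      have h2 : ∑ i, c i • Ideal.Quotient.mk I (v i) = 0 := by
        have h3 := congrArg (Ideal.Quotient.mk I) (h1.symm.trans hp)
        rw [map_add, map_zero, map_sum] at h3
        have h4 : Ideal.Quotient.mk I (algebraMap (MvPolynomial (Fin 2) k) R (MvPolynomial.X 0) * α +
            algebraMap (MvPolynomial (Fin 2) k) R (MvPolynomial.X 1) * β) = 0 :=
          Ideal.Quotient.eq_zero_iff_mem.mpr (I.add_mem (I.mul_mem_right _ hX0)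
            (I.mul_mem_right _ hX1))
        rw [h4, add_zero] at h3
        rw [← h3]
        refine Finset.sum_congr rfl (fun i _ => ?_)
        rfl
      exact Fintype.linearIndependent_iff.mp hli c h2
    have h5 : algebraMap (MvPolynomial (Fin 2) k) R (MvPolynomial.X 0) * α +
        algebraMap (MvPolynomial (Fin 2) k) R (MvPolynomial.X 1) * β = 0 := by
      have h6 : ∑ i, c i • v i = 0 := by
        simp [hc0]
      rw [h1, h6, zero_add] at hp
      exact hp
    obtain ⟨γ, hγ⟩ := hreg (-β) α (by linear_combination h5 * (-1 : R))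
    have h7 : α = algebraMap (MvPolynomial (Fin 2) k) R (MvPolynomial.X 1) * γ := by
      apply mul_left_cancel₀ hne
      have : β = - (algebraMap (MvPolynomial (Fin 2) k) R (MvPolynomial.X 0) * γ) := by
        rw [← hγ]
        ring
      rw [this] at h5
      linear_combination h5
    obtain ⟨q, hq⟩ := hgen γ
    have h8 : ∑ i, (a i - MvPolynomial.X 1 * q i) • v i = 0 := by
      simp only [sub_smul, Finset.sum_sub_distrib, mul_smul]
      rw [← hα, ← Finset.smul_sum, ← hq, h7, Algebra.smul_def, sub_self]
    have h9 : ∑ i, (e i + MvPolynomial.X 0 * q i) • v i = 0 := by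
      simp only [add_smul, Finset.sum_add_distrib, mul_smul]
      rw [← hβ, ← Finset.smul_sum, ← hq, Algebra.smul_def]
      linear_combination hγ * (-1 : R)
    have h10 := ih _ h8 i
    have h11 := ih _ h9 i
    have hXm : ∀ j, (MvPolynomial.X j : MvPolynomial (Fin 2) k) ∈
        Ideal.span (Set.range (MvPolynomial.X : Fin 2 → MvPolynomial (Fin 2) k)) :=
      fun j => Ideal.subset_span ⟨j, rfl⟩
    have h12 : p i = MvPolynomial.X 0 * (a i - MvPolynomial.X 1 * q i) +
        MvPolynomial.X 1 * (e i + MvPolynomial.X 0 * q i) := by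
      have h13 := hae i
      have h14 : MvPolynomial.constantCoeff (p i) = 0 := hc0 i
      rw [h14] at h13
      rw [h13]
      simp only [map_zero]
      ring
    rw [h12, pow_succ']
    exact Ideal.add_mem _ (Ideal.mul_mem_mul (hXm 0) h10) (Ideal.mul_mem_mul (hXm 1) h11)

/-- Independence modulo a regular sequence lifts. -/
theorem linearIndependent_of_mod (v : ι → R) (I : Ideal R)
    (hIX : ∀ j, algebraMap (MvPolynomial (Fin 2) k) R (MvPolynomial.X j) ∈ I)
    (hli : LinearIndependent k (fun i => Ideal.Quotient.mk I (v i)))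
    (hgen : ∀ r : R, ∃ q : ι → MvPolynomial (Fin 2) k, r = ∑ i, q i • v i)
    (hne : algebraMap (MvPolynomial (Fin 2) k) R (MvPolynomial.X 0) ≠ 0)
    (hreg : ∀ α β : R, algebraMap (MvPolynomial (Fin 2) k) R (MvPolynomial.X 1) * α =
      algebraMap (MvPolynomial (Fin 2) k) R (MvPolynomial.X 0) * β →
      ∃ γ, α = algebraMap (MvPolynomial (Fin 2) k) R (MvPolynomial.X 0) * γ) :
    LinearIndependent (MvPolynomial (Fin 2) k) v := by
  classical
  rw [Fintype.linearIndependent_iff]
  intro p hp i
  have hne' : Ideal.span (Set.range (MvPolynomial.X : Fin 2 → MvPolynomial (Fin 2) k)) ≠ ⊤ := by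
    intro h
    have h1 : (1 : MvPolynomial (Fin 2) k) ∈
        Ideal.span (Set.range (MvPolynomial.X : Fin 2 → MvPolynomial (Fin 2) k)) := by
      rw [h]
      trivial
    have h2 : Ideal.span (Set.range (MvPolynomial.X : Fin 2 → MvPolynomial (Fin 2) k)) ≤
        RingHom.ker (MvPolynomial.constantCoeff : MvPolynomial (Fin 2) k →+* k) := by
      rw [Ideal.span_le]
      rintro _ ⟨j, rfl⟩
      simp [RingHom.mem_ker]
    have h3 := h2 h1
    rw [RingHom.mem_ker] at h3
    simp at h3
  have hK := Ideal.iInf_pow_eq_bot_of_isDomain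
    (I := Ideal.span (Set.range (MvPolynomial.X : Fin 2 → MvPolynomial (Fin 2) k))) hne'
  have h1 : p i ∈ (⨅ N : ℕ, (Ideal.span
      (Set.range (MvPolynomial.X : Fin 2 → MvPolynomial (Fin 2) k))) ^ N) := by
    rw [Ideal.mem_iInf]
    intro N
    exact relation_mem_pow v I hIX hli hgen hne hreg N p hp i
  rw [hK] at h1
  exact Ideal.mem_bot.mp h1

end Indep

section Basis

universe uR

variable {k : Type*} {R : Type uR} [Field k] [CommRing R] [IsDomain R] [IsIntegrallyClosed R] [Algebra k R]
  [Algebra.FiniteType k R]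
  (𝓡 : ℕ → Submodule k R) [GradedAlgebra 𝓡]
  [Algebra (MvPolynomial (Fin 2) k) R] [IsScalarTower k (MvPolynomial (Fin 2) k) R]
  (u : Fin 2 → R) (d : Fin 2 → ℕ)

/-- A normal graded domain is free over a homogeneous system of parameters. -/
theorem exists_homog_basis (h0 : ∀ r ∈ 𝓡 0, ∃ c : k, r = algebraMap k R c)
    (hX : ∀ j, algebraMap (MvPolynomial (Fin 2) k) R (MvPolynomial.X j) = u j)
    (hinj : Function.Injective (algebraMap (MvPolynomial (Fin 2) k) R))
    (hd : ∀ j, d j ≠ 0) (hu : ∀ j, u j ∈ 𝓡 (d j)) (τ : ℕ)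
    (htop : ∀ n, τ < n → ∀ r ∈ 𝓡 n, r ∈ Ideal.span (Set.range u))
    (s : R) (hs : s ∈ 𝓡 τ) (hsI : s ∉ Ideal.span (Set.range u)) :
    ∃ (ι : Type uR) (_ : Fintype ι) (B : Module.Basis ι (MvPolynomial (Fin 2) k) R)
      (δ : ι → ℕ) (i₀ : ι), (∀ i, B i ∈ 𝓡 (δ i)) ∧ δ i₀ = τ ∧ B i₀ = s := by
  classical
  have hfin := quotient_finite 𝓡 h0 (Ideal.span (Set.range u)) τ htop
  obtain ⟨b, hbfin, hsb, hbh, hli, hspan⟩ := exists_family 𝓡 (Ideal.span (Set.range u)) hfin s
    ⟨τ, hs⟩ hsI
  have hgen := generate_mem 𝓡 u d hX hd hu b hbh hspan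
  haveI : Fintype b := hbfin.fintype
  have hspan' : Submodule.span (MvPolynomial (Fin 2) k) b = ⊤ :=
    eq_top_iff.mpr (fun r _ => hgen r)
  haveI hfinP : Module.Finite (MvPolynomial (Fin 2) k) R :=
    ⟨⟨hbfin.toFinset, by simpa using hspan'⟩⟩
  have hint : Algebra.IsIntegral (MvPolynomial (Fin 2) k) R := Algebra.IsIntegral.of_finite _ _
  have hgen' : ∀ r : R, ∃ q : b → MvPolynomial (Fin 2) k, r = ∑ i, q i • (i : R) := by
    intro r
    have h1 := hgen r
    rw [← Subtype.range_coe (s := b), Submodule.mem_span_range_iff_exists_fun] at h1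
    obtain ⟨q, hq⟩ := h1
    exact ⟨q, hq.symm⟩
  have hne : algebraMap (MvPolynomial (Fin 2) k) R (MvPolynomial.X 0) ≠ 0 := by
    intro h
    have : (MvPolynomial.X 0 : MvPolynomial (Fin 2) k) = 0 := hinj (by simpa using h)
    exact MvPolynomial.X_ne_zero _ this
  have hli' : LinearIndependent (MvPolynomial (Fin 2) k) (fun i : b => (i : R)) :=
    linearIndependent_of_mod (fun i : b => (i : R)) (Ideal.span (Set.range u))
      (fun j => by rw [hX]; exact Ideal.subset_span ⟨j, rfl⟩) hli hgen' hne
      (fun α β h => regular_X hint hinj α β h)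
  have hsp : ⊤ ≤ Submodule.span (MvPolynomial (Fin 2) k) (Set.range (fun i : b => (i : R))) := by
    rw [show Set.range (fun i : b => (i : R)) = b from Subtype.range_coe, hspan']
  choose δ hδ using fun i : b => hbh i i.2
  refine ⟨b, inferInstance, Module.Basis.mk hli' hsp, Function.update δ ⟨s, hsb⟩ τ, ⟨s, hsb⟩,
    ?_, ?_, ?_⟩
  · intro i
    rw [Module.Basis.mk_apply]
    by_cases hi : i = ⟨s, hsb⟩
    · subst hi
      simpa using hs
    · rw [Function.update_of_ne hi]
      exact hδ i
  · simp
  · rw [Module.Basis.mk_apply]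

end Basis

end Vale.Agent.Lib.P266
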