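import Vale.Agent.Lib.P266.TraceQ
import Vale.Agent.Lib.P266.DiffTame

/-!
The Jacobian determinant of any two derivations multiplies the trace dual into the integral closure
at every height one prime of the polynomial ring.
-/

set_option linter.unusedSectionVars false
set_option linter.unusedSimpArgs false
set_option linter.unusedVariables false
set_option linter.style.haveILetI false
set_option linter.overlappingInstances false

open IsLocalRing nonZeroDivisors

namespace Vale.Agent.Lib.P266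

attribute [local instance] FractionRing.liftAlgebra

section JacDualLocal

variable {k S A L K R₀ : Type*} [Field k] [CharZero k] [CommRing S] [IsDomain S]
  [IsNoetherianRing S]
  [CommRing A] [IsDomain A] [Algebra k A] [IsIntegrallyClosed A] [Algebra.FiniteType k A]
  [Field L] [Algebra A L] [IsFractionRing A L] [Algebra k L] [IsScalarTower k A L]
  [Algebra S A] [Algebra S L] [IsScalarTower S A L]
  [CommRing R₀] [IsDomain R₀] [Algebra S R₀] [Algebra R₀ L] [IsScalarTower S R₀ L]

theorem jac_dual_local {g : S} (hg0 : g ≠ 0) (hd : CoreData g R₀ L A)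
    (x : Fin 2 → S) (pd : Fin 2 → S → S)
    (hchain : ∀ (D' : Derivation k L L) (s : S), D' (algebraMap S L s) =
      ∑ j, algebraMap S L (pd j s) * D' (algebraMap S L (x j)))
    (i0 : Fin 2) (hi0 : pd i0 g ∉ Ideal.span {g})
    (D₀ D₁ : Derivation k A A)
    (T₀ : Subalgebra R₀ L) (hT₀ : ∀ t, t ∈ T₀ ↔ IsIntegral R₀ t)
    [IsDedekindDomain T₀] [IsFractionRing T₀ L]
    (P : Ideal T₀) [hP : P.IsMaximal]
    (hgP : (⟨algebraMap S L g, (hT₀ _).mpr (isIntegral_algebraMap_S g)⟩ : T₀) ∈ P)
    (e : ℕ) (hge : (⟨algebraMap S L g, (hT₀ _).mpr (isIntegral_algebraMap_S g)⟩ : T₀) ∈ P ^ e)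
    (z : T₀) (hz : z ∉ P ^ e) :
    ∃ a b, b ∉ P ∧ algebraMap A L (D₀ (algebraMap S A (x 0)) * D₁ (algebraMap S A (x 1)) -
        D₀ (algebraMap S A (x 1)) * D₁ (algebraMap S A (x 0))) * algebraMap T₀ L b =
      algebraMap T₀ L z * algebraMap T₀ L a := by
  classical
  have hpr : P.IsPrime := hP.isPrime
  have hPle : P.primeCompl ≤ (T₀)⁰ := Ideal.primeCompl_le_nonZeroDivisors _
  let V : Subalgebra T₀ L := Localization.subalgebra.ofField L _ hPle
  have hPbot : P ≠ ⊥ := by
    intro h
    rw [h] at hgP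
    have h0 : algebraMap S L g = 0 := by
      have := congrArg (Subtype.val) (Ideal.mem_bot.mp hgP)
      simpa using this
    exact hd.hwne g hg0 h0
  have hDVRV : IsDiscreteValuationRing V :=
    IsLocalization.AtPrime.isDiscreteValuationRing_of_dedekind_domain T₀ hPbot V
  have hT₀V : ∀ t : L, t ∈ T₀ → t ∈ V := by
    intro t ht
    exact Subalgebra.algebraMap_mem V (⟨t, ht⟩ : T₀)
  have hintV : ∀ t : L, IsIntegral R₀ t → t ∈ V := fun t ht => hT₀V t ((hT₀ t).mpr ht)
  have hSV : ∀ s : S, algebraMap S L s ∈ V := fun s => hintV _ (isIntegral_algebraMap_S s)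
  have hAV : ∀ a : A, algebraMap A L a ∈ V := fun a => hintV _ (hd.hAint a)
  let E : Derivation k A A → Derivation k L L := fun D => fracExt D
  have hET₀ : ∀ D t, t ∈ T₀ → E D t ∈ T₀ := by
    intro D t ht
    exact (hT₀ _).mpr (coreData_hDint hd D t ((hT₀ t).mp ht))
  have hstabV : ∀ D, ∀ v, v ∈ V → E D v ∈ V := by
    intro D v hv
    obtain ⟨a, b, hb, rfl⟩ := hv
    have hb0 : algebraMap T₀ L b ≠ 0 := by
      intro h0
      have : b = 0 := Subtype.ext (by simpa using h0)
      exact hb (this ▸ P.zero_mem)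
    have hbinv : (algebraMap T₀ L b)⁻¹ ∈ V := ⟨1, b, hb, by simp⟩
    have h1 : E D (algebraMap T₀ L a * (algebraMap T₀ L b)⁻¹) =
        (E D (algebraMap T₀ L a) * algebraMap T₀ L b - algebraMap T₀ L a * E D (algebraMap T₀ L b)) *
          ((algebraMap T₀ L b)⁻¹) ^ 2 := by
      rw [← div_eq_mul_inv, deriv_div_eq _ _ _ hb0, div_eq_mul_inv, inv_pow]
    rw [h1]
    have ha' : E D (algebraMap T₀ L a) ∈ V := hT₀V _ (hET₀ D _ a.2)
    have hb' : E D (algebraMap T₀ L b) ∈ V := hT₀V _ (hET₀ D _ b.2)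
    have haV : algebraMap T₀ L a ∈ V := hT₀V _ a.2
    have hbV : algebraMap T₀ L b ∈ V := hT₀V _ b.2
    exact V.mul_mem (V.sub_mem (V.mul_mem ha' hbV) (V.mul_mem haV hb')) (V.pow_mem hbinv 2)
  obtain ⟨π, hπ⟩ := IsDiscreteValuationRing.exists_irreducible V
  have hmaxπ : maximalIdeal V = Ideal.span {π} := hπ.maximalIdeal_eq
  have hmapP : Ideal.map (algebraMap T₀ V) P = maximalIdeal V :=
    IsLocalization.AtPrime.map_eq_maximalIdeal P V
  have hmapPe : Ideal.map (algebraMap T₀ V) (P ^ e) = Ideal.span {π ^ e} := by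
    rw [Ideal.map_pow, hmapP, hmaxπ, Ideal.span_singleton_pow]
  -- `g` in `V`
  let gV : V := ⟨algebraMap S L g, hSV g⟩
  have hgV : gV ∈ Ideal.span {π ^ e} := by
    rw [← hmapPe]
    exact Ideal.mem_map_of_mem _ hge
  obtain ⟨v, hv⟩ := Ideal.mem_span_singleton'.mp hgV
  have hgL : algebraMap S L g = (v : L) * (π : L) ^ e := by
    have := congrArg (Subtype.val) hv
    simpa [gV] using this.symm
  -- derivatives of `g`
  have hEg : ∀ D, ∃ w : V, E D (algebraMap S L g) = (π : L) ^ (e - 1) * (w : L) := by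
    intro D
    have hπV := hstabV D π π.2
    have hvV := hstabV D v v.2
    rcases Nat.eq_zero_or_pos e with he | he
    · subst he
      refine ⟨⟨E D (algebraMap S L g), hstabV D _ (hSV g)⟩, ?_⟩
      simp
    · refine ⟨⟨(π : L) * E D v + (e : L) * v * E D π, ?_⟩, ?_⟩
      · refine V.add_mem (V.mul_mem π.2 hvV) (V.mul_mem (V.mul_mem ?_ v.2) hπV)
        exact natCast_mem V e
      · rw [hgL, Derivation.leibniz, Derivation.leibniz_pow]
        simp only [smul_eq_mul, nsmul_eq_mul]
        obtain ⟨e', rfl⟩ : ∃ e', e = e' + 1 := ⟨e - 1, by omega⟩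
        simp only [Nat.add_sub_cancel]
        push_cast
        ring
  -- the values on the variables
  have hEx : ∀ D j, E D (algebraMap S L (x j)) = algebraMap A L (D (algebraMap S A (x j))) := by
    intro D j
    show fracExt D (algebraMap S L (x j)) = _
    rw [IsScalarTower.algebraMap_apply S A L, fracExt_algebraMap]
  obtain ⟨w₀, hw₀⟩ := hEg D₀
  obtain ⟨w₁, hw₁⟩ := hEg D₁
  have hc₀ := hchain (E D₀) g
  have hc₁ := hchain (E D₁) g
  rw [Fin.sum_univ_two, hw₀, hEx, hEx] at hc₀
  rw [Fin.sum_univ_two, hw₁, hEx, hEx] at hc₁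
  set a₀₀ := algebraMap A L (D₀ (algebraMap S A (x 0))) with ha₀₀
  set a₀₁ := algebraMap A L (D₀ (algebraMap S A (x 1))) with ha₀₁
  set a₁₀ := algebraMap A L (D₁ (algebraMap S A (x 0))) with ha₁₀
  set a₁₁ := algebraMap A L (D₁ (algebraMap S A (x 1))) with ha₁₁
  have hJL : algebraMap A L (D₀ (algebraMap S A (x 0)) * D₁ (algebraMap S A (x 1)) -
      D₀ (algebraMap S A (x 1)) * D₁ (algebraMap S A (x 0))) = a₀₀ * a₁₁ - a₀₁ * a₁₀ := by
    simp only [map_sub, map_mul, ha₀₀, ha₀₁, ha₁₀, ha₁₁]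
  -- the unit coming from the prime element
  have hu0 : pd i0 g ≠ 0 := by
    intro h0
    exact hi0 (h0 ▸ Ideal.zero_mem _)
  have hunitL := hd.hwne _ hu0
  have hinvV : (algebraMap S L (pd i0 g))⁻¹ ∈ V := hintV _ (hd.hUinv _ hi0)
  -- the Jacobian is divisible
  have hJdiv : ∃ y : V, a₀₀ * a₁₁ - a₀₁ * a₁₀ = (π : L) ^ (e - 1) * (y : L) := by
    have hk : algebraMap S L (pd i0 g) * (a₀₀ * a₁₁ - a₀₁ * a₁₀) =
        (π : L) ^ (e - 1) * (if i0 = 0 then (w₀ : L) * a₁₁ - (w₁ : L) * a₀₁
          else (w₁ : L) * a₀₀ - (w₀ : L) * a₁₀) := by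
      fin_cases i0
      · simp only [Fin.zero_eta, Fin.isValue, if_true]
        have : (π : L) ^ (e - 1) * ((w₀ : L) * a₁₁ - (w₁ : L) * a₀₁) =
            ((π : L) ^ (e - 1) * (w₀ : L)) * a₁₁ - ((π : L) ^ (e - 1) * (w₁ : L)) * a₀₁ := by ring
        rw [this, hc₀, hc₁]
        ring
      · simp only [Fin.mk_one, Fin.isValue, one_ne_zero, if_false]
        have : (π : L) ^ (e - 1) * ((w₁ : L) * a₀₀ - (w₀ : L) * a₁₀) =
            ((π : L) ^ (e - 1) * (w₁ : L)) * a₀₀ - ((π : L) ^ (e - 1) * (w₀ : L)) * a₁₀ := by ring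
        rw [this, hc₀, hc₁]
        ring
    refine ⟨⟨(algebraMap S L (pd i0 g))⁻¹ * (if i0 = 0 then (w₀ : L) * a₁₁ - (w₁ : L) * a₀₁
          else (w₁ : L) * a₀₀ - (w₀ : L) * a₁₀), ?_⟩, ?_⟩
    · refine V.mul_mem hinvV ?_
      split_ifs
      · exact V.sub_mem (V.mul_mem w₀.2 (hAV _)) (V.mul_mem w₁.2 (hAV _))
      · exact V.sub_mem (V.mul_mem w₁.2 (hAV _)) (V.mul_mem w₀.2 (hAV _))
    · show _ = (π : L) ^ (e - 1) * ((algebraMap S L (pd i0 g))⁻¹ * _)
      rw [mul_left_comm, ← hk, ← mul_assoc, inv_mul_cancel₀ hunitL, one_mul]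
  obtain ⟨y, hy⟩ := hJdiv
  -- `z` is not divisible by `π ^ e`
  have he0 : e ≠ 0 := by
    rintro rfl
    exact hz (by simp)
  have hz0 : z ≠ 0 := by
    rintro rfl
    exact hz (Ideal.zero_mem _)
  have hzL : algebraMap T₀ L z ≠ 0 := by
    simpa using (map_ne_zero_iff _ (IsFractionRing.injective T₀ L)).mpr hz0
  let zV : V := algebraMap T₀ V z
  have hzVL : (zV : L) = algebraMap T₀ L z := rfl
  have hzV0 : zV ≠ 0 := by
    intro h0
    apply hzL
    rw [← hzVL, h0]
    rfl
  have hzdiv : ¬ π ^ e ∣ zV := by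
    intro hdvd
    have h1 : zV ∈ Ideal.map (algebraMap T₀ V) (P ^ e) := by
      rw [hmapPe]
      exact Ideal.mem_span_singleton.mpr hdvd
    obtain ⟨⟨a, m⟩, ha⟩ := (IsLocalization.mem_map_algebraMap_iff P.primeCompl V).mp h1
    have h2 : z * (m : T₀) = a := by
      apply IsFractionRing.injective T₀ L
      have := congrArg (Subtype.val) ha
      simpa [zV] using this
    have hprim : (P ^ e).IsPrimary := by
      apply Ideal.isPrimary_of_isMaximal_radical
      rw [Ideal.radical_pow _ he0, hpr.radical]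
      exact hP
    rw [Ideal.isPrimary_iff] at hprim
    have h3 : z * (m : T₀) ∈ P ^ e := by
      rw [h2]
      exact a.2
    rcases hprim.2 h3 with h4 | h4
    · exact hz h4
    · rw [Ideal.radical_pow _ he0, hpr.radical] at h4
      exact m.2 h4
  obtain ⟨n, hn⟩ := IsDiscreteValuationRing.associated_pow_irreducible hzV0 hπ
  have hnlt : n < e := by
    by_contra hge'
    apply hzdiv
    rw [hn.dvd_iff_dvd_right]
    exact pow_dvd_pow _ (not_lt.mp hge')
  obtain ⟨c, hc⟩ := hn
  have hdvdV : zV ∣ π ^ (e - 1) := by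
    have h1 : π ^ n ∣ π ^ (e - 1) := pow_dvd_pow _ (by omega)
    rw [← hc] at h1
    exact (dvd_mul_right _ _).trans h1
  obtain ⟨t, ht⟩ := hdvdV
  -- conclusion
  obtain ⟨a, b, hb, hab⟩ := (t * y).2
  refine ⟨a, b, hb, ?_⟩
  have hb0 : algebraMap T₀ L b ≠ 0 := by
    intro h0
    have : b = 0 := Subtype.ext (by simpa using h0)
    exact hb (this ▸ P.zero_mem)
  have hJ2 : a₀₀ * a₁₁ - a₀₁ * a₁₀ = algebraMap T₀ L z * ((t * y : V) : L) := by
    rw [hy]
    have h5 : ((π : V) ^ (e - 1) : L) = (zV * t : V) := by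
      have := congrArg (Subtype.val) ht
      simpa using this
    have h6 : (π : L) ^ (e - 1) = algebraMap T₀ L z * (t : L) := by
      rw [← hzVL]
      have h7 : ((π ^ (e - 1) : V) : L) = (π : L) ^ (e - 1) := by simp
      rw [← h7]
      have := congrArg (Subtype.val) ht
      simpa using this
    rw [h6]
    push_cast
    ring
  rw [hJL, hJ2, hab]
  field_simp

end JacDualLocal

section JacDualDVR

variable {k S A L K : Type*} [Field k] [CharZero k] [CommRing S] [IsDomain S]
  [IsNoetherianRing S] [Algebra k S]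
  [CommRing A] [IsDomain A] [Algebra k A] [IsIntegrallyClosed A] [Algebra.FiniteType k A]
  [Field L] [Algebra A L] [IsFractionRing A L] [Algebra k L] [IsScalarTower k A L]
  [Algebra S A] [Algebra S L] [IsScalarTower S A L]
  [Field K] [CharZero K] [Algebra S K] [IsFractionRing S K] [Algebra K L] [IsScalarTower S K L]
  [FiniteDimensional K L]

/-- Over a discrete valuation ring of the polynomial ring the Jacobian multiplies the trace dual
into the integral closure. -/
theorem jac_dual_aux (x : Fin 2 → S) (pd : Fin 2 → S → S)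
    (hchain : ∀ (D' : Derivation k L L) (s : S), D' (algebraMap S L s) =
      ∑ j, algebraMap S L (pd j s) * D' (algebraMap S L (x j)))
    (g : S) (hg : Prime g) (i0 : Fin 2) (hi0 : pd i0 g ∉ Ideal.span {g})
    (D₀ D₁ : Derivation k A A)
    (R₀ : Subalgebra S K) [(Ideal.span {g}).IsPrime] [IsLocalization.AtPrime R₀ (Ideal.span {g})]
    [IsScalarTower S R₀ L] [IsDiscreteValuationRing R₀]
    (hd : CoreData g R₀ L A) (ξ : L)
    (hξ : ∀ t : L, IsIntegral R₀ t → ∃ r : R₀, algebraMap R₀ K r = Algebra.trace K L (ξ * t)) :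
    IsIntegral R₀ (algebraMap A L (D₀ (algebraMap S A (x 0)) * D₁ (algebraMap S A (x 1)) -
        D₀ (algebraMap S A (x 1)) * D₁ (algebraMap S A (x 0))) * ξ) := by
  classical
  let T₀ := integralClosure R₀ L
  have hDed : IsDedekindDomain T₀ := integralClosure.isDedekindDomain R₀ K L
  have hfrT : IsFractionRing T₀ L := integralClosure.isFractionRing_of_finite_extension K L
  have hT₀ : ∀ t, t ∈ T₀ ↔ IsIntegral R₀ t := fun t => Iff.rfl
  have hMod : Module.Finite R₀ T₀ := IsIntegralClosure.finite R₀ K L _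
  have hIC : IsIntegrallyClosed T₀ := integralClosure.isIntegrallyClosedOfFiniteExtension K
  let gT : T₀ := ⟨algebraMap S L g, (hT₀ _).mpr (isIntegral_algebraMap_S g)⟩
  have hmaxR : maximalIdeal R₀ = Ideal.span {algebraMap S R₀ g} := by
    rw [← IsLocalization.AtPrime.map_eq_maximalIdeal (Ideal.span {g}) R₀, Ideal.map_span,
      Set.image_singleton]
  have hne : maximalIdeal R₀ ≠ ⊥ := IsDiscreteValuationRing.not_a_field R₀
  haveI hsepKL : Algebra.IsSeparable K L := inferInstance
  let φ₀ : k →+* R₀ := (algebraMap S R₀).comp (algebraMap k S)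
  have hloc : ∀ P : Ideal T₀, P.IsMaximal → ∃ a b, b ∉ P ∧
      (algebraMap A L (D₀ (algebraMap S A (x 0)) * D₁ (algebraMap S A (x 1)) -
        D₀ (algebraMap S A (x 1)) * D₁ (algebraMap S A (x 0))) * ξ) * algebraMap T₀ L b =
      algebraMap T₀ L a := by
    intro P hP
    have hgP : gT ∈ P := by
      have hc : (P.comap (algebraMap R₀ T₀)).IsMaximal :=
        Ideal.isMaximal_comap_of_isIntegral_of_isMaximal P
      have hc2 : P.comap (algebraMap R₀ T₀) = maximalIdeal R₀ := IsLocalRing.eq_maximalIdeal hc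
      have hg' : algebraMap S R₀ g ∈ P.comap (algebraMap R₀ T₀) := by
        rw [hc2, hmaxR]
        exact Ideal.mem_span_singleton_self _
      have heq : gT = algebraMap R₀ T₀ (algebraMap S R₀ g) := by
        apply Subtype.ext
        exact IsScalarTower.algebraMap_apply S R₀ L g
      rw [heq]
      exact hg'
    have hpP : (maximalIdeal R₀).map (algebraMap R₀ T₀) ≤ P := by
      rw [Ideal.map_le_iff_le_comap]
      exact (IsLocalRing.eq_maximalIdeal (Ideal.isMaximal_comap_of_isIntegral_of_isMaximal P)).ge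
    obtain ⟨e, he, z, hz', t, ht⟩ := exists_dual_mult (K := K) φ₀ (maximalIdeal R₀) hne P hpP ξ
      (fun t => hξ _ t.2)
    have hge : gT ∈ P ^ e := by
      apply he
      have heq : gT = algebraMap R₀ T₀ (algebraMap S R₀ g) := by
        apply Subtype.ext
        exact IsScalarTower.algebraMap_apply S R₀ L g
      rw [heq]
      apply Ideal.mem_map_of_mem
      rw [hmaxR]
      exact Ideal.mem_span_singleton_self _
    obtain ⟨a, b, hb, hab⟩ := jac_dual_local hg.ne_zero hd x pd hchain i0 hi0 D₀ D₁ T₀ hT₀ P hgP e hge z hz'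
    refine ⟨t * a, b, hb, ?_⟩
    rw [map_mul, ← ht]
    calc _ = ξ * (_ * algebraMap T₀ L b) := by ring
      _ = _ := by rw [hab]; ring
  -- from the localizations to the integral closure
  have hmem : (algebraMap A L (D₀ (algebraMap S A (x 0)) * D₁ (algebraMap S A (x 1)) -
        D₀ (algebraMap S A (x 1)) * D₁ (algebraMap S A (x 0))) * ξ) ∈
      (⨅ v : MaximalSpectrum T₀, Localization.subalgebra.ofField L _
      v.asIdeal.primeCompl_le_nonZeroDivisors) := by
    rw [Algebra.mem_iInf]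
    intro v
    obtain ⟨a, b, hb, h⟩ := hloc v.asIdeal v.isMaximal
    have hb0 : algebraMap T₀ L b ≠ 0 := by
      intro h0
      have : b = 0 := IsFractionRing.injective T₀ L (by simpa using h0)
      exact hb (this ▸ v.asIdeal.zero_mem)
    refine ⟨a, b, hb, ?_⟩
    rw [← h]
    field_simp
  rw [MaximalSpectrum.iInf_localization_eq_bot, Algebra.mem_bot] at hmem
  obtain ⟨t, ht⟩ := hmem
  rw [← ht]
  exact t.2

/-- The Jacobian multiplies the trace dual into the ring, after multiplication by an element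
outside the prime `g`. -/
theorem jac_mul_dual (x : Fin 2 → S) (pd : Fin 2 → S → S)
    (hchain : ∀ (D' : Derivation k L L) (s : S), D' (algebraMap S L s) =
      ∑ j, algebraMap S L (pd j s) * D' (algebraMap S L (x j)))
    (g : S) (hg : Prime g) (i0 : Fin 2) (hi0 : pd i0 g ∉ Ideal.span {g})
    (D₀ D₁ : Derivation k A A)
    (hint : ∀ a : A, ∃ w, w ∉ Ideal.span {g} ∧ IsIntegral S (algebraMap S A w * a))
    (ξ : L) (hξ : ∀ a : A, ∃ s : S, algebraMap S K s = Algebra.trace K L (ξ * algebraMap A L a)) :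
    ∃ w a, w ∉ Ideal.span {g} ∧
      algebraMap S L w * (algebraMap A L (D₀ (algebraMap S A (x 0)) * D₁ (algebraMap S A (x 1)) -
        D₀ (algebraMap S A (x 1)) * D₁ (algebraMap S A (x 0))) * ξ) = algebraMap A L a := by
  classical
  have hpr : (Ideal.span {g}).IsPrime := (Ideal.span_singleton_prime hg.ne_zero).mpr hg
  have hU : (Ideal.span {g}).primeCompl ≤ S⁰ := Ideal.primeCompl_le_nonZeroDivisors _
  let R₀ := Localization.subalgebra.ofField K _ hU
  have hDVR : IsDiscreteValuationRing R₀ := isDVR_localization g hg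
  have hlocR : IsLocalization.AtPrime R₀ (Ideal.span {g}) := inferInstance
  have hSR : IsScalarTower S R₀ L := IsScalarTower.of_algebraMap_eq (fun s => by
    rw [IsScalarTower.algebraMap_apply S K L]
    rfl)
  have hwne : ∀ w : S, w ≠ 0 → algebraMap S L w ≠ 0 := by
    intro w hw h0
    rw [IsScalarTower.algebraMap_apply S K L] at h0
    have h1 : algebraMap S K w = 0 := (algebraMap K L).injective (by simpa using h0)
    exact hw (IsFractionRing.injective S K (by simpa using h1))
  have hUinv : ∀ w, w ∉ Ideal.span {g} → IsIntegral R₀ ((algebraMap S L w)⁻¹) := by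
    intro w hw
    let r : R₀ := ⟨(algebraMap S K w)⁻¹, ⟨1, w, hw, by simp⟩⟩
    have : algebraMap R₀ L r = (algebraMap S L w)⁻¹ := by
      rw [IsScalarTower.algebraMap_apply S K L, ← map_inv₀]
      rfl
    rw [← this]
    exact isIntegral_algebraMap
  have hAint : ∀ a : A, IsIntegral R₀ (algebraMap A L a) := by
    intro a
    obtain ⟨w, hw, hi⟩ := hint a
    have hw0 : w ≠ 0 := by
      rintro rfl
      exact hw (Ideal.zero_mem _)
    have h1 : IsIntegral S (algebraMap A L (algebraMap S A w * a)) :=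
      hi.map (IsScalarTower.toAlgHom S A L)
    have h2 : IsIntegral R₀ (algebraMap A L (algebraMap S A w * a)) := h1.tower_top
    have h3 : algebraMap A L a =
        (algebraMap S L w)⁻¹ * algebraMap A L (algebraMap S A w * a) := by
      rw [map_mul, ← IsScalarTower.algebraMap_apply S A L]
      have := hwne w hw0
      field_simp
    rw [h3]
    exact (hUinv w hw).mul h2
  have hTA : ∀ t : L, IsIntegral R₀ t → ∃ w, w ∉ Ideal.span {g} ∧ ∃ a : A,
      algebraMap S L w * t = algebraMap A L a := by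
    intro t ht
    obtain ⟨m, hm⟩ := IsIntegral.exists_multiple_integral_of_isLocalization
      (Ideal.span {g}).primeCompl t ht
    have h1 : IsIntegral A (m • t) := hm.tower_top
    obtain ⟨a, ha⟩ := IsIntegrallyClosed.isIntegral_iff.mp h1
    refine ⟨m, m.2, a, ?_⟩
    rw [ha, Submonoid.smul_def, Algebra.smul_def]
  have hd : CoreData g R₀ L A := ⟨hUinv, hwne, hAint, hTA⟩
  have hξ' : ∀ t : L, IsIntegral R₀ t → ∃ r : R₀, algebraMap R₀ K r = Algebra.trace K L (ξ * t) := by
    intro t ht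
    obtain ⟨w, hw, a, ha⟩ := hTA t ht
    obtain ⟨s, hs⟩ := hξ a
    have hw0 : w ≠ 0 := by
      rintro rfl
      exact hw (Ideal.zero_mem _)
    have hwK : algebraMap S K w ≠ 0 := by
      intro h0
      exact hw0 (IsFractionRing.injective S K (by simpa using h0))
    let r : R₀ := ⟨algebraMap S K s * (algebraMap S K w)⁻¹, ⟨s, w, hw, rfl⟩⟩
    refine ⟨r, ?_⟩
    show algebraMap S K s * (algebraMap S K w)⁻¹ = _
    rw [hs, ← ha]
    have h1 : ξ * (algebraMap S L w * t) = algebraMap S K w • (ξ * t) := by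
      rw [Algebra.smul_def, ← IsScalarTower.algebraMap_apply S K L]
      ring
    rw [h1, map_smul, smul_eq_mul]
    field_simp
  obtain ⟨w, hw, a, ha⟩ := hTA _ (jac_dual_aux x pd hchain g hg i0 hi0 D₀ D₁ R₀ hd ξ hξ')
  exact ⟨w, a, hw, ha⟩

end JacDualDVR

end Vale.Agent.Lib.P266
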