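import Vale.Agent.Lib.P266.TraceQ

/-!
Jacobian criterion for algebraic independence in characteristic zero.
-/

set_option linter.unusedSectionVars false
set_option linter.unusedSimpArgs false
set_option linter.unusedVariables false

open MvPolynomial

namespace Vale.Agent.Lib.P266

section Jac

variable {R V ι : Type*} [CommRing R] [IsDomain R] [CharZero R] [CommRing V] [IsDomain V]
  [Algebra R V] [Fintype ι] [DecidableEq ι]

lemma totalDegree_pderiv_lt (p : MvPolynomial ι R) (hp : p.totalDegree ≠ 0) (l : ι) :
    (pderiv l p).totalDegree < p.totalDegree := by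
  unfold totalDegree at hp ⊢
  rw [Finset.sup_lt_iff (Nat.pos_of_ne_zero hp)]
  intro m hm
  have h2 := coeff_pderiv (i := l) p m
  have h3 : coeff (m + Finsupp.single l 1) p ≠ 0 := by
    intro h0
    rw [h0, zero_mul] at h2
    exact (mem_support_iff.mp hm) h2
  have h4 := Finset.le_sup (f := fun s : ι →₀ ℕ => s.sum fun _ e => e) (mem_support_iff.mpr h3)
  have h5 : (m + Finsupp.single l 1).sum (fun _ e => e) = m.sum (fun _ e => e) + 1 := by
    rw [Finsupp.sum_add_index' (by simp) (by simp)]
    simp
  simp only [h5] at h4
  omega

lemma eq_C_of_pderiv_eq_zero (p : MvPolynomial ι R) (h : ∀ l, pderiv l p = 0) :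
    p.totalDegree = 0 := by
  classical
  by_contra htd
  obtain ⟨m, hm, hmd⟩ : ∃ m ∈ p.support, m.sum (fun _ e => e) ≠ 0 := by
    by_contra hcon
    push Not at hcon
    apply htd
    unfold totalDegree
    apply le_antisymm _ (Nat.zero_le _)
    apply Finset.sup_le
    intro m hm
    exact (hcon m hm).le
  obtain ⟨i, hi⟩ : ∃ i, m i ≠ 0 := by
    by_contra hcon
    push Not at hcon
    apply hmd
    have : m = 0 := by ext i; simpa using hcon i
    simp [this]
  have hm1 : (m - Finsupp.single i 1) + Finsupp.single i 1 = m := by
    ext j
    by_cases hj : j = i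
    · subst hj
      simp only [Finsupp.coe_add, Finsupp.coe_tsub, Pi.add_apply, Pi.sub_apply,
        Finsupp.single_eq_same]
      omega
    · simp [Finsupp.single_eq_of_ne hj]
  have h1 := coeff_pderiv (i := i) p (m - Finsupp.single i 1)
  rw [h i, coeff_zero, hm1] at h1
  have hc : coeff m p ≠ 0 := mem_support_iff.mp hm
  have hk : ((((m - Finsupp.single i 1 : ι →₀ ℕ) i : ℕ) : R) + 1) ≠ 0 :=
    Nat.cast_add_one_ne_zero _
  exact (mul_ne_zero hc hk) h1.symm

/-- Jacobian criterion: elements whose Jacobian matrix, with respect to derivations over `R`, has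
nonzero determinant are algebraically independent. -/
theorem algebraicIndependent_of_jacobian (hinj : Function.Injective (algebraMap R V)) (x : ι → V)
    (D : ι → Derivation R V V) (hdet : (Matrix.of (fun j l => D j (x l))).det ≠ 0) :
    AlgebraicIndependent R x := by
  rw [algebraicIndependent_iff]
  have key : ∀ n : ℕ, ∀ p : MvPolynomial ι R, p.totalDegree = n → aeval x p = 0 → p = 0 := by
    intro n
    induction n using Nat.strong_induction_on with
    | _ n ih =>
      intro p hpn hp
      have hv : ∀ l, aeval x (pderiv l p) = 0 := by
        have h1 : (Matrix.of (fun j l => D j (x l))).mulVec (fun l => aeval x (pderiv l p)) = 0 := by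
          ext j
          simp only [Matrix.mulVec, dotProduct, Matrix.of_apply, Pi.zero_apply]
          have h2 := chain_rule (D j) x p
          rw [hp, map_zero] at h2
          rw [h2]
          apply Finset.sum_congr rfl
          intro l _
          ring
        have h3 := Matrix.eq_zero_of_mulVec_eq_zero hdet h1
        intro l
        exact congrFun h3 l
      by_cases htd : p.totalDegree = 0
      · have h1 := (totalDegree_eq_zero_iff_eq_C).mp htd
        rw [h1, aeval_C] at hp
        have h2 : coeff 0 p = 0 := hinj (by rw [hp, map_zero])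
        rw [h1, h2, map_zero]
      · exfalso
        apply htd
        apply eq_C_of_pderiv_eq_zero
        intro l
        have hlt := totalDegree_pderiv_lt p htd l
        exact ih _ (hpn ▸ hlt) _ rfl (hv l)
  intro p hp
  exact key _ p rfl hp

end Jac

end Vale.Agent.Lib.P266
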