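import Mathlib

/-!
The trace of a finite field extension commutes with a derivation preserving the base field.
-/

set_option linter.unusedSectionVars false
set_option linter.unusedSimpArgs false
set_option linter.unusedVariables false
set_option linter.style.haveILetI false

namespace Vale.Agent.Lib.P266

open Module

theorem trace_deriv {k K L : Type*} [Field k] [Field K] [Field L] [Algebra K L] [FiniteDimensional K L]
    [Algebra k L] (D : Derivation k L L) (DK : K → K)
    (hD : ∀ a : K, D (algebraMap K L a) = algebraMap K L (DK a)) (z : L) :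
    algebraMap K L (Algebra.trace K L (D z)) = D (algebraMap K L (Algebra.trace K L z)) := by
  classical
  let b := Module.finBasis K L
  have hDKsum : ∀ (f : Fin (finrank K L) → K), DK (∑ i, f i) = ∑ i, DK (f i) := by
    intro f
    apply (algebraMap K L).injective
    rw [← hD, map_sum, map_sum, map_sum]
    exact Finset.sum_congr rfl (fun i _ => hD _)
  -- the coordinates of a derivative
  have hrepr : ∀ v : L, ∀ i, b.repr (D v) i =
      DK (b.repr v i) + ∑ l, b.repr v l * b.repr (D (b l)) i := by
    intro v i
    have hv : v = ∑ l, b.repr v l • b l := (b.sum_repr v).symm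
    have h1 : D v = ∑ l, (DK (b.repr v l) • b l + b.repr v l • D (b l)) := by
      conv_lhs => rw [hv]
      rw [map_sum]
      refine Finset.sum_congr rfl (fun l _ => ?_)
      rw [Algebra.smul_def, Derivation.leibniz, hD, smul_eq_mul, smul_eq_mul, Algebra.smul_def,
        Algebra.smul_def]
      ring
    rw [h1, map_sum, Finsupp.finsetSum_apply]
    simp only [map_add, Finsupp.add_apply, map_smul, Finsupp.smul_apply, smul_eq_mul,
      Finset.sum_add_distrib]
    congr 1
    rw [Finset.sum_eq_single i]
    · simp [Module.Basis.repr_self]
    · intro j _ hj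
      simp [Module.Basis.repr_self, hj]
    · simp
  have htr : ∀ v : L, Algebra.trace K L v = ∑ i, b.repr (v * b i) i := by
    intro v
    rw [Algebra.trace_eq_matrix_trace b, Matrix.trace]
    refine Finset.sum_congr rfl (fun i _ => ?_)
    rw [Matrix.diag_apply, Algebra.leftMulMatrix_eq_repr_mul]
  have hsplit : ∀ i, b.repr (D z * b i) i = b.repr (D (z * b i)) i - b.repr (z * D (b i)) i := by
    intro i
    have : D z * b i = D (z * b i) - z * D (b i) := by
      rw [Derivation.leibniz, smul_eq_mul, smul_eq_mul]
      ring
    rw [this, map_sub, Finsupp.sub_apply]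
  have hmul : ∀ i l, b.repr (z * D (b i)) l = ∑ m, b.repr (D (b i)) m * b.repr (z * b m) l := by
    intro i l
    have hv : D (b i) = ∑ m, b.repr (D (b i)) m • b m := (b.sum_repr _).symm
    conv_lhs => rw [hv, Finset.mul_sum, map_sum, Finsupp.finsetSum_apply]
    refine Finset.sum_congr rfl (fun m _ => ?_)
    rw [mul_smul_comm, map_smul, Finsupp.smul_apply, smul_eq_mul]
  have hkey : Algebra.trace K L (D z) = DK (Algebra.trace K L z) := by
    rw [htr (D z), htr z, hDKsum]
    have h1 : ∀ i, b.repr (D z * b i) i = DK (b.repr (z * b i) i) +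
        (∑ l, b.repr (z * b i) l * b.repr (D (b l)) i -
          ∑ m, b.repr (D (b i)) m * b.repr (z * b m) i) := by
      intro i
      rw [hsplit, hrepr (z * b i) i, hmul]
      ring
    simp only [h1, Finset.sum_add_distrib, Finset.sum_sub_distrib]
    have hswap : ∑ i, ∑ l, b.repr (z * b i) l * b.repr (D (b l)) i =
        ∑ i, ∑ m, b.repr (D (b i)) m * b.repr (z * b m) i := by
      rw [Finset.sum_comm]
      refine Finset.sum_congr rfl (fun i _ => Finset.sum_congr rfl (fun l _ => ?_))
      ring
    rw [hswap]
    ring
  rw [hkey, hD]

end Vale.Agent.Lib.P266
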