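import Vale.Agent.Lib.P266.TraceJac

/-!
Traces of `a / J` over the polynomial ring: localization at an arbitrary prime.
-/

set_option linter.unusedSectionVars false
set_option linter.unusedSimpArgs false
set_option linter.unusedVariables false

open IsLocalRing nonZeroDivisors MvPolynomial

namespace Vale.Agent.Lib.P266

section TraceQ

variable {k A L K σ : Type*} [Field k] [CharZero k]
  [CommRing A] [IsDomain A] [Algebra k A] [IsIntegrallyClosed A] [Algebra.FiniteType k A]
  [Field L] [Algebra A L] [IsFractionRing A L] [Algebra k L] [IsScalarTower k A L]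
  [Fintype σ] [DecidableEq σ]
  [Algebra (MvPolynomial σ k) A] [Algebra (MvPolynomial σ k) L]
  [IsScalarTower (MvPolynomial σ k) A L] [IsScalarTower k (MvPolynomial σ k) L]
  [Field K] [CharZero K] [Algebra (MvPolynomial σ k) K] [IsFractionRing (MvPolynomial σ k) K]
  [Algebra K L] [IsScalarTower (MvPolynomial σ k) K L] [FiniteDimensional K L]

lemma chain_algebraMap (D' : Derivation k L L) (s : MvPolynomial σ k) :
    D' (algebraMap (MvPolynomial σ k) L s) =
      ∑ j, algebraMap (MvPolynomial σ k) L (pderiv j s) *
        D' (algebraMap (MvPolynomial σ k) L (X j)) := by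
  have h : ∀ s, algebraMap (MvPolynomial σ k) L s =
      aeval (fun j => algebraMap (MvPolynomial σ k) L (X j)) s := by
    intro s
    have := MvPolynomial.aeval_unique (IsScalarTower.toAlgHom k (MvPolynomial σ k) L)
    have h2 := congrArg (fun f => f s) this
    exact h2
  rw [h s, chain_rule]
  apply Finset.sum_congr rfl
  intro j _
  rw [← h]

/-- For a prime element `g`, the Jacobian is nonzero and traces of `a / J` have no pole along
`g`. -/
theorem trace_div_jac_prime_elem (g : MvPolynomial σ k) (hg : Prime g)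
    (D : σ → Derivation k A A)
    (hind : ∀ c : σ → A, ∑ i, c i • D i = 0 → ∀ i, c i = 0)
    (hsat : ∀ P : Ideal A, P.IsPrime → P.comap (algebraMap (MvPolynomial σ k) A) = Ideal.span {g} →
      ∀ D' : Derivation k A A, ∃ u, u ∉ P ∧ ∃ c : σ → A, u • D' = ∑ i, c i • D i)
    (hint : ∀ a : A, ∃ w, w ∉ Ideal.span {g} ∧
      IsIntegral (MvPolynomial σ k) (algebraMap (MvPolynomial σ k) A w * a))
    (a : A) :
    algebraMap A L (jacOf (fun j => (X j : MvPolynomial σ k)) D) ≠ 0 ∧ ∃ s w, w ∉ Ideal.span {g} ∧
      algebraMap (MvPolynomial σ k) K w * Algebra.trace K L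
        (algebraMap A L a / algebraMap A L (jacOf (fun j => (X j : MvPolynomial σ k)) D)) =
        algebraMap (MvPolynomial σ k) K s := by
  obtain ⟨i0, hi0⟩ := exists_pderiv_not_mem g hg.ne_zero hg.not_isUnit
  exact trace_div_jac_mem (k := k) (fun j => X j) (fun j => pderiv j) chain_algebraMap g hg i0 hi0
    D hind hsat hint a

/-- **Trace theorem.** Let `A` be a normal finitely generated algebra with a polynomial subring
over which it is integral after localizing at the prime `q`; if the `D i` form a basis of the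
derivations at all primes over prime elements of `q`, then all traces of `a / J` lie in the
localization of the polynomial ring at `q`. -/
theorem trace_div_jac_prime (q : Ideal (MvPolynomial σ k)) [hq : q.IsPrime]
    (D : σ → Derivation k A A)
    (hind : ∀ c : σ → A, ∑ i, c i • D i = 0 → ∀ i, c i = 0)
    (hsat : ∀ g, Prime g → g ∈ q → ∀ P : Ideal A, P.IsPrime →
      P.comap (algebraMap (MvPolynomial σ k) A) = Ideal.span {g} →
      ∀ D' : Derivation k A A, ∃ u, u ∉ P ∧ ∃ c : σ → A, u • D' = ∑ i, c i • D i)
    (hint : ∀ a : A, ∃ w, w ∉ q ∧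
      IsIntegral (MvPolynomial σ k) (algebraMap (MvPolynomial σ k) A w * a))
    (a : A) :
    ∃ s w, w ∉ q ∧
      algebraMap (MvPolynomial σ k) K w * Algebra.trace K L
        (algebraMap A L a / algebraMap A L (jacOf (fun j => (X j : MvPolynomial σ k)) D)) =
        algebraMap (MvPolynomial σ k) K s := by
  classical
  set x := Algebra.trace K L
    (algebraMap A L a / algebraMap A L (jacOf (fun j => (X j : MvPolynomial σ k)) D)) with hx
  obtain ⟨s, w, hrel, hsw⟩ := IsFractionRing.exists_reduced_fraction (A := MvPolynomial σ k) x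
  have hw0 : (w : MvPolynomial σ k) ≠ 0 := nonZeroDivisors.ne_zero w.2
  have hwK : algebraMap (MvPolynomial σ k) K w ≠ 0 := by
    intro h
    exact hw0 (IsFractionRing.injective (MvPolynomial σ k) K (by simpa using h))
  have heq : algebraMap (MvPolynomial σ k) K w * x = algebraMap (MvPolynomial σ k) K s := by
    rw [← hsw]
    exact IsLocalization.mk'_spec' _ _ _
  refine ⟨s, w, ?_, heq⟩
  intro hwq
  -- pick a prime factor of `w` in `q`
  have hwU : ¬ IsUnit (w : MvPolynomial σ k) := fun h => hq.ne_top (Ideal.eq_top_of_isUnit_mem _ hwq h)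
  obtain ⟨f, hf, hfw⟩ := UniqueFactorizationMonoid.exists_prime_factors (w : MvPolynomial σ k) hw0
  have hprod : f.prod ∈ q := by
    obtain ⟨u, hu⟩ := hfw
    have : f.prod = (w : MvPolynomial σ k) * (u⁻¹ : (MvPolynomial σ k)ˣ) := by
      rw [← hu, mul_assoc, Units.mul_inv, mul_one]
    rw [this]
    exact q.mul_mem_right _ hwq
  obtain ⟨g, hgf, hgq⟩ := (hq.multiset_prod_mem_iff_exists_mem f).mp hprod
  have hg : Prime g := hf g hgf
  have hgw : g ∣ (w : MvPolynomial σ k) := by
    obtain ⟨u, hu⟩ := hfw
    rw [← hu]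
    exact (Multiset.dvd_prod hgf).mul_right _
  have hle : Ideal.span {g} ≤ q := by
    rw [Ideal.span_singleton_le_iff_mem]
    exact hgq
  obtain ⟨-, s', w', hw', hsw'⟩ := trace_div_jac_prime_elem (K := K) (L := L) g hg D hind (hsat g hg hgq)
    (fun a => by
      obtain ⟨w, hw, h⟩ := hint a
      exact ⟨w, fun hmem => hw (hle hmem), h⟩) a
  rw [← hx] at hsw'
  -- cross multiply
  have hcross : (w' : MvPolynomial σ k) * s = s' * w := by
    apply IsFractionRing.injective (MvPolynomial σ k) K
    rw [map_mul, map_mul, ← hsw', ← heq]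
    ring
  have hgd : g ∣ w' * s := by
    rw [hcross]
    exact hgw.mul_left _
  have hgw' : ¬ g ∣ w' := by
    intro h
    apply hw'
    rw [Ideal.mem_span_singleton]
    exact h
  have hgs : g ∣ s := (hg.dvd_or_dvd hgd).resolve_left hgw'
  exact hg.not_isUnit (hrel hgs hgw)

end TraceQ

end Vale.Agent.Lib.P266
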