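import Vale.Agent.Lib.P266.GradedFree
import Vale.Agent.Lib.P266.TraceDeriv
import Vale.Agent.Lib.P266.Basic
import Vale.Agent.Lib.P266.TraceQ

/-!
The basis over the fraction fields, the denominators lemma and the degree of the trace dual.
-/

set_option linter.unusedSectionVars false
set_option linter.unusedSimpArgs false
set_option linter.unusedVariables false
set_option linter.style.haveILetI false
set_option linter.overlappingInstances false

open nonZeroDivisors

namespace Vale.Agent.Lib.P266

section FracBasis

variable {P R K L ι : Type*} [CommRing P] [IsDomain P] [CommRing R] [IsDomain R]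
  [IsIntegrallyClosed R] [Algebra P R]
  [Field K] [Algebra P K] [IsFractionRing P K] [Field L] [Algebra R L] [IsFractionRing R L]
  [Algebra K L] [Algebra P L] [IsScalarTower P K L] [IsScalarTower P R L] [Fintype ι]

lemma repr_sum_frac (B : Module.Basis ι P R) (r : R) :
    algebraMap R L r = ∑ i, algebraMap P K (B.repr r i) • algebraMap R L (B i) := by
  classical
  conv_lhs => rw [← B.sum_repr r]
  rw [map_sum]
  refine Finset.sum_congr rfl (fun i _ => ?_)
  rw [Algebra.smul_def, map_mul, Algebra.smul_def, ← IsScalarTower.algebraMap_apply,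
    ← IsScalarTower.algebraMap_apply]

/-- A basis of the ring over the polynomial ring is a basis of the fraction fields. -/
theorem exists_frac_basis [FiniteDimensional K L] (B : Module.Basis ι P R)
    (hint : Algebra.IsIntegral P R) :
    ∃ B' : Module.Basis ι K L, ∀ i, B' i = algebraMap R L (B i) := by
  classical
  have hinjRL : Function.Injective (algebraMap R L) := IsFractionRing.injective R L
  have hli : LinearIndependent P (fun i => algebraMap R L (B i)) := by
    have h1 := B.linearIndependent.map' (IsScalarTower.toAlgHom P R L).toLinearMap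
      (LinearMap.ker_eq_bot.mpr hinjRL)
    exact h1
  have hli' : LinearIndependent K (fun i => algebraMap R L (B i)) :=
    (LinearIndependent.iff_fractionRing P K).mp hli
  have hsp : ⊤ ≤ Submodule.span K (Set.range (fun i => algebraMap R L (B i))) := by
    rintro l -
    have hl : IsIntegral K l := Algebra.IsIntegral.isIntegral l
    obtain ⟨m, hm⟩ := IsIntegral.exists_multiple_integral_of_isLocalization (R := P) P⁰ (Rₘ := K) l hl
    have h1 : IsIntegral R (m • l) := hm.tower_top
    obtain ⟨r, hr⟩ := IsIntegrallyClosed.isIntegral_iff.mp h1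
    have hmK : algebraMap P K (m : P) ≠ 0 := by
      intro h
      exact nonZeroDivisors.ne_zero m.2 (IsFractionRing.injective P K (by simpa using h))
    have h2 : l = (algebraMap P K (m : P))⁻¹ • algebraMap R L r := by
      rw [hr, Submonoid.smul_def, Algebra.smul_def (m : P) l, Algebra.smul_def,
        IsScalarTower.algebraMap_apply P K L, map_inv₀, ← mul_assoc,
        inv_mul_cancel₀, one_mul]
      intro h
      exact hmK ((algebraMap K L).injective (by simpa using h))
    rw [h2]
    refine Submodule.smul_mem _ _ ?_
    rw [repr_sum_frac (K := K) (L := L) B r]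
    exact Submodule.sum_mem _ (fun i _ => Submodule.smul_mem _ _ (Submodule.subset_span ⟨i, rfl⟩))
  exact ⟨Module.Basis.mk hli' hsp, fun i => by rw [Module.Basis.mk_apply]⟩

/-- The coordinates in the fraction field basis of an element of the ring. -/
lemma repr_frac (B : Module.Basis ι P R) (B' : Module.Basis ι K L)
    (hB : ∀ i, B' i = algebraMap R L (B i)) (r : R) (i : ι) :
    B'.repr (algebraMap R L r) i = algebraMap P K (B.repr r i) := by
  classical
  rw [repr_sum_frac (K := K) (L := L) B r, map_sum, Finsupp.finsetSum_apply]
  simp only [map_smul, ← hB, Module.Basis.repr_self, Finsupp.smul_apply, smul_eq_mul]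
  rw [Finset.sum_eq_single i]
  · simp
  · intro j _ hj
    simp [hj]
  · simp

end FracBasis

section Denom

variable {P K : Type*} [CommRing P] [IsDomain P] [UniqueFactorizationMonoid P]
  [Field K] [Algebra P K] [IsFractionRing P K]

/-- An element of the fraction field of a factorial domain with no denominator at any prime
element lies in the ring. -/
lemma mem_of_prime_denoms (c : K)
    (hc : ∀ g : P, Prime g → ∃ t p : P, t ∉ Ideal.span {g} ∧ algebraMap P K t * c = algebraMap P K p) :
    ∃ q : P, c = algebraMap P K q := by
  classical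
  obtain ⟨s, w, hrel, hsw⟩ := IsFractionRing.exists_reduced_fraction (A := P) c
  have hw0 : (w : P) ≠ 0 := nonZeroDivisors.ne_zero w.2
  have hwK : algebraMap P K w ≠ 0 := by
    intro h
    exact hw0 (IsFractionRing.injective P K (by simpa using h))
  have heq : algebraMap P K w * c = algebraMap P K s := by
    rw [← hsw]
    exact IsLocalization.mk'_spec' _ _ _
  by_cases hwU : IsUnit (w : P)
  · obtain ⟨v, hv⟩ := hwU
    refine ⟨s * (v⁻¹ : Pˣ), ?_⟩
    have h1 : algebraMap P K ((v⁻¹ : Pˣ) : P) * algebraMap P K (w : P) = 1 := by
      rw [← hv, ← map_mul, Units.inv_mul, map_one]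
    rw [map_mul, ← heq]
    linear_combination (-c) * h1
  · exfalso
    obtain ⟨g, hgp, hgw⟩ := WfDvdMonoid.exists_irreducible_factor hwU hw0
    have hg : Prime g := hgp.prime
    obtain ⟨t, p, ht, htp⟩ := hc g hg
    have hcross : t * s = w * p := by
      apply IsFractionRing.injective P K
      rw [map_mul, map_mul, ← htp, ← heq]
      ring
    have hgd : g ∣ t * s := by
      rw [hcross]
      exact hgw.mul_right _
    rcases hg.dvd_or_dvd hgd with h | h
    · exact ht (Ideal.mem_span_singleton.mpr h)
    · exact hg.not_isUnit (hrel h hgw)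

variable {R L ι : Type*} [CommRing R] [IsDomain R] [IsIntegrallyClosed R] [Algebra P R] [Field L] [Algebra R L]
  [IsFractionRing R L] [Algebra K L] [Algebra P L] [IsScalarTower P K L] [IsScalarTower P R L]
  [Fintype ι]

/-- An element of the fraction field with no denominator at a prime element lies in a free ring. -/
theorem mem_of_forall_prime (B : Module.Basis ι P R) (B' : Module.Basis ι K L)
    (hB : ∀ i, B' i = algebraMap R L (B i)) (w : L)
    (hw : ∀ g : P, Prime g → ∃ t a, t ∉ Ideal.span {g} ∧
      algebraMap P L t * w = algebraMap R L a) :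
    ∃ r : R, w = algebraMap R L r := by
  classical
  have hcoord : ∀ i, ∃ q : P, B'.repr w i = algebraMap P K q := by
    intro i
    apply mem_of_prime_denoms
    intro g hg
    obtain ⟨t, a, ht, hta⟩ := hw g hg
    refine ⟨t, B.repr a i, ht, ?_⟩
    have h1 : B'.repr (algebraMap P L t * w) i = algebraMap P K t * B'.repr w i := by
      have : algebraMap P L t * w = algebraMap P K t • w := by
        rw [Algebra.smul_def, ← IsScalarTower.algebraMap_apply]
      rw [this, map_smul, Finsupp.smul_apply, smul_eq_mul]
    rw [← h1, hta, repr_frac B B' hB]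
  choose q hq using hcoord
  refine ⟨∑ i, q i • B i, ?_⟩
  rw [← B'.sum_repr w, map_sum]
  refine Finset.sum_congr rfl (fun i _ => ?_)
  rw [hq, hB, Algebra.smul_def (q i), map_mul, Algebra.smul_def, ← IsScalarTower.algebraMap_apply,
    ← IsScalarTower.algebraMap_apply]

end Denom

section Dual

variable {k P K L ι : Type*} [Field k] [Field K] [CharZero K] [Field L] [Algebra K L]
  [FiniteDimensional K L] [Algebra k L] [Fintype ι] [DecidableEq ι]

/-- The trace dual of a homogeneous basis vector is homogeneous of the opposite degree. -/
theorem traceDual_deriv (E : Derivation k L L) (DK : K → K)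
    (hDK : ∀ a : K, E (algebraMap K L a) = algebraMap K L (DK a))
    (B' : Module.Basis ι K L) (δ : ι → ℕ) (hE : ∀ i, E (B' i) = (δ i : L) * B' i) (i₀ : ι) :
    E (B'.traceDual i₀) = -(δ i₀ : L) * B'.traceDual i₀ := by
  classical
  set ξ := B'.traceDual i₀ with hξ
  have htrξ : ∀ i, Algebra.trace K L (ξ * B' i) = if i = i₀ then 1 else 0 := fun i =>
    Module.Basis.trace_traceDual_mul B' i₀ i
  have hTrE : ∀ i, Algebra.trace K L (E (ξ * B' i)) = 0 := by
    intro i
    have h1 := trace_deriv (k := k) E DK hDK (ξ * B' i)
    have h2 : E (algebraMap K L (Algebra.trace K L (ξ * B' i))) = 0 := by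
      rw [htrξ]
      split_ifs
      · rw [map_one]
        exact E.map_one_eq_zero
      · rw [map_zero, map_zero]
    rw [h2] at h1
    exact (algebraMap K L).injective (by simpa using h1)
  have hcast : ∀ (n : ℕ) (z : L), Algebra.trace K L ((n : L) * z) = (n : K) * Algebra.trace K L z := by
    intro n z
    have : (n : L) * z = (n : K) • z := by
      rw [Algebra.smul_def, map_natCast]
    rw [this, map_smul, smul_eq_mul]
  have hzero : ∀ i, Algebra.trace K L ((E ξ + (δ i₀ : L) * ξ) * B' i) = 0 := by
    intro i
    have h1 : (E ξ + (δ i₀ : L) * ξ) * B' i = E (ξ * B' i) - (δ i : L) * (ξ * B' i) +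
        (δ i₀ : L) * (ξ * B' i) := by
      rw [Derivation.leibniz, hE, smul_eq_mul, smul_eq_mul]
      ring
    rw [h1, map_add, map_sub, hTrE, hcast, hcast, htrξ]
    split_ifs with h
    · subst h
      simp
    · simp
  have hx : E ξ + (δ i₀ : L) * ξ = 0 := by
    apply B'.traceDual.ext_elem
    intro i
    rw [Module.Basis.traceDual_repr_apply, Algebra.traceForm_apply, hzero i]
    simp
  linear_combination hx

end Dual

end Vale.Agent.Lib.P266
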