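import Vale.Agent.Lib.P266.CoeffMem

/-!
Localization of the algebra at the complement of a prime of the polynomial subring.
-/

set_option linter.unusedSectionVars false
set_option linter.unusedSimpArgs false
set_option linter.unusedVariables false

open IsLocalRing nonZeroDivisors

namespace Vale.Agent.Lib.P266

section UnitLemma

variable {k S A L K : Type*} [Field k] [CommRing S] [IsDomain S]
  [CommRing A] [IsDomain A] [Algebra k A] [IsIntegrallyClosed A]
  [Field L] [Algebra A L] [IsFractionRing A L] [Algebra k L] [IsScalarTower k A L]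
  [Algebra S A] [Algebra S L] [IsScalarTower S A L]
  [Field K] [Algebra S K] [IsFractionRing S K] [Algebra K L] [IsScalarTower S K L]

include K in
theorem integrality_of_subrings (q : Ideal S) [hq : q.IsPrime] (I : Ideal A)
    (hO : ∀ O : Subring L, (∀ s, algebraMap S L s ∈ O) →
      (∀ w, w ∉ q → (algebraMap S L w)⁻¹ ∈ O) → (∀ x, IsIntegral O x → x ∈ O) →
      ∀ a, algebraMap A L a ∈ O)
    (hP : ∀ a, a ∉ I → ∀ P : Ideal A, P.IsPrime → P.comap (algebraMap S A) = q → a ∉ P) :
    (∀ a, ∃ w, w ∉ q ∧ IsIntegral S (algebraMap S A w * a)) ∧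
      (∀ a, a ∉ I → ∃ a' w, w ∉ q ∧ a * a' = algebraMap S A w) := by
  classical
  have hU : q.primeCompl ≤ S⁰ := Ideal.primeCompl_le_nonZeroDivisors _
  let R₀ := Localization.subalgebra.ofField K _ hU
  have hlocR : IsLocalization.AtPrime R₀ q := inferInstance
  have hlocal : IsLocalRing R₀ := IsLocalization.AtPrime.isLocalRing R₀ q
  have hSR : IsScalarTower S R₀ L := IsScalarTower.of_algebraMap_eq (fun s => by
    rw [IsScalarTower.algebraMap_apply S K L]
    rfl)
  have hinjA : Function.Injective (algebraMap A L) := IsFractionRing.injective A L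
  have hwne : ∀ w : S, w ∉ q → algebraMap S L w ≠ 0 := by
    intro w hw h0
    rw [IsScalarTower.algebraMap_apply S K L] at h0
    have h1 : algebraMap S K w = 0 := (algebraMap K L).injective (by simpa using h0)
    have h2 : w = 0 := IsFractionRing.injective S K (by simpa using h1)
    exact hw (h2 ▸ q.zero_mem)
  have hUinv : ∀ w, w ∉ q → IsIntegral R₀ ((algebraMap S L w)⁻¹) := by
    intro w hw
    let r : R₀ := ⟨(algebraMap S K w)⁻¹, ⟨1, w, hw, by simp⟩⟩
    have : algebraMap R₀ L r = (algebraMap S L w)⁻¹ := by
      rw [IsScalarTower.algebraMap_apply S K L, ← map_inv₀]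
      rfl
    rw [← this]
    exact isIntegral_algebraMap
  let O' : Subalgebra R₀ L := integralClosure R₀ L
  have hAint : ∀ a : A, IsIntegral R₀ (algebraMap A L a) := by
    intro a
    refine hO O'.toSubring (fun s => ?_) (fun w hw => hUinv w hw) (fun x hx => ?_) a
    · show IsIntegral R₀ (algebraMap S L s)
      rw [IsScalarTower.algebraMap_apply S R₀ L s]
      exact isIntegral_algebraMap
    · have hx' : IsIntegral O' x := hx
      exact isIntegral_trans (R := R₀) x hx'
  have hmult : ∀ t : L, IsIntegral R₀ t → ∃ m : q.primeCompl, IsIntegral S (m • t) := fun t ht =>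
    IsIntegral.exists_multiple_integral_of_isLocalization q.primeCompl t ht
  constructor
  · intro a
    obtain ⟨m, hm⟩ := hmult _ (hAint a)
    refine ⟨m, m.2, ?_⟩
    rw [← isIntegral_algebraMap_iff hinjA, map_mul, ← IsScalarTower.algebraMap_apply S A L]
    rw [Submonoid.smul_def, Algebra.smul_def] at hm
    exact hm
  · intro a haI
    have ha0 : a ≠ 0 := by
      rintro rfl
      exact haI I.zero_mem
    have haL : algebraMap A L a ≠ 0 := by
      simpa using (map_ne_zero_iff _ hinjA).mpr ha0
    let x : O' := ⟨algebraMap A L a, hAint a⟩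
    have hunit : IsUnit x := by
      by_contra hnu
      obtain ⟨Q, hQ, hxQ⟩ := exists_max_ideal_of_mem_nonunits hnu
      let φ : A →+* O' := (algebraMap A L).codRestrict O'.toSubring hAint
      have hφ : ∀ b, ((φ b : O') : L) = algebraMap A L b := fun b => rfl
      let P : Ideal A := Q.comap φ
      have hPp : P.IsPrime := Ideal.comap_isPrime φ Q
      have hc : (Q.comap (algebraMap R₀ O')).IsMaximal :=
        Ideal.isMaximal_comap_of_isIntegral_of_isMaximal Q
      have hc2 : Q.comap (algebraMap R₀ O') = maximalIdeal R₀ := IsLocalRing.eq_maximalIdeal hc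
      have hPq : P.comap (algebraMap S A) = q := by
        ext s
        have h1 : φ (algebraMap S A s) = algebraMap R₀ O' (algebraMap S R₀ s) := by
          apply Subtype.ext
          rw [hφ, ← IsScalarTower.algebraMap_apply S A L]
          exact IsScalarTower.algebraMap_apply S R₀ L s
        have h2 : (maximalIdeal R₀).comap (algebraMap S R₀) = q :=
          IsLocalization.AtPrime.under_maximalIdeal R₀ q
        rw [Ideal.mem_comap, Ideal.mem_comap, h1, ← h2, Ideal.mem_comap, ← hc2, Ideal.mem_comap]
      have haP : a ∈ P := hxQ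
      exact hP a haI P hPp hPq haP
    obtain ⟨y, hy⟩ := hunit.exists_right_inv
    have hy' : algebraMap A L a * (y : L) = 1 := by
      have := congrArg (fun z : O' => (z : L)) hy
      simpa using this
    have hyL : (y : L) = (algebraMap A L a)⁻¹ := eq_inv_of_mul_eq_one_right hy'
    obtain ⟨m, hm⟩ := hmult (y : L) y.2
    have h1 : IsIntegral A (m • (y : L)) := hm.tower_top
    obtain ⟨a', ha'⟩ := IsIntegrallyClosed.isIntegral_iff.mp h1
    refine ⟨a', m, m.2, ?_⟩
    apply hinjA
    rw [map_mul, ha', ← IsScalarTower.algebraMap_apply S A L, Submonoid.smul_def, Algebra.smul_def]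
    rw [hyL]
    field_simp

variable [Algebra.FiniteType k A] [CharZero K]

include k in
theorem finiteDimensional_of_hint (hS : ∀ c : k, ∃ s : S, algebraMap A L (algebraMap k A c) =
      algebraMap S L s)
    (hint : ∀ a : A, ∃ w, w ≠ 0 ∧ IsIntegral S (algebraMap S A w * a)) :
    FiniteDimensional K L := by
  classical
  obtain ⟨t, ht⟩ := (Algebra.FiniteType.out : (⊤ : Subalgebra k A).FG)
  have hinjS : Function.Injective (algebraMap S K) := IsFractionRing.injective S K
  have hintK : ∀ a : A, IsIntegral K (algebraMap A L a) := by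
    intro a
    obtain ⟨w, hw, hi⟩ := hint a
    have h1 : IsIntegral S (algebraMap A L (algebraMap S A w * a)) :=
      hi.map (IsScalarTower.toAlgHom S A L)
    have h2 : IsIntegral K (algebraMap A L (algebraMap S A w * a)) := h1.tower_top
    have hwK : algebraMap S K w ≠ 0 := by
      simpa using (map_ne_zero_iff _ hinjS).mpr hw
    have h3 : algebraMap A L a = algebraMap K L (algebraMap S K w)⁻¹ *
        algebraMap A L (algebraMap S A w * a) := by
      rw [map_mul, ← IsScalarTower.algebraMap_apply S A L, map_inv₀,
        IsScalarTower.algebraMap_apply S K L]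
      have : algebraMap K L (algebraMap S K w) ≠ 0 := by
        simpa using hwK
      field_simp
    rw [h3]
    exact isIntegral_algebraMap.mul h2
  let T : Set L := algebraMap A L '' (t : Set A)
  have hTfin : Finite T := (t.finite_toSet.image _).to_subtype
  have hfd : FiniteDimensional K (IntermediateField.adjoin K T) :=
    IntermediateField.finiteDimensional_adjoin (by
      rintro _ ⟨a, _, rfl⟩
      exact hintK a)
  have hall : ∀ a : A, algebraMap A L a ∈ IntermediateField.adjoin K T := by
    intro a
    have ha : a ∈ Algebra.adjoin k (t : Set A) := by rw [ht]; trivial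
    induction ha using Algebra.adjoin_induction with
    | mem x hx => exact IntermediateField.subset_adjoin K T ⟨x, hx, rfl⟩
    | algebraMap c =>
      obtain ⟨s, hs⟩ := hS c
      rw [hs, IsScalarTower.algebraMap_apply S K L]
      exact (IntermediateField.adjoin K T).algebraMap_mem _
    | add x y _ _ hx hy =>
      rw [map_add]
      exact add_mem hx hy
    | mul x y _ _ hx hy =>
      rw [map_mul]
      exact mul_mem hx hy
  have htop : IntermediateField.adjoin K T = ⊤ := by
    rw [eq_top_iff]
    intro x _
    obtain ⟨a, b, _, rfl⟩ := IsFractionRing.div_surjective (A := A) x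
    exact div_mem (hall a) (hall b)
  rw [htop] at hfd
  exact (IntermediateField.topEquiv (F := K) (E := L)).toLinearEquiv.finiteDimensional

end UnitLemma

end Vale.Agent.Lib.P266
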