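import Vale.Agent.Lib.P266.LemmaA
import Vale.Agent.Lib.P266.JacDual
import Vale.Agent.Lib.P266.JacLocal
import Vale.Agent.Lib.P266.GradedDer
import Vale.Agent.Lib.P266.UnitLemma

/-!
Homogeneous derivations of a normal graded domain of small degree are multiples of the Euler
derivation.
-/

set_option linter.unusedSectionVars false
set_option linter.unusedSimpArgs false
set_option linter.unusedVariables false
set_option linter.style.haveILetI false
set_option linter.overlappingInstances false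

open DirectSum nonZeroDivisors

namespace Vale.Agent.Lib.P266

section Eigen

variable {k R : Type*} [Field k] [CommRing R] [Algebra k R]
  (𝓡 : ℕ → Submodule k R) [GradedAlgebra 𝓡]

lemma decompose_euler (r : R) (n : ℕ) :
    ((decompose 𝓡 (euler 𝓡 r) n : 𝓡 n) : R) = (n : k) • ((decompose 𝓡 r n : 𝓡 n) : R) := by
  classical
  induction r using DirectSum.Decomposition.inductionOn 𝓡 with
  | zero => simp
  | homogeneous x =>
    rename_i m
    rw [euler_of_mem 𝓡 x.2, decompose_smul, DirectSum.smul_apply, Submodule.coe_smul]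
    by_cases hmn : m = n
    · subst hmn
      rw [decompose_of_mem_same 𝓡 x.2]
    · rw [decompose_of_mem_ne 𝓡 x.2 hmn]
      simp
  | add x y hx hy =>
    rw [map_add, decompose_add, decompose_add, DirectSum.add_apply, DirectSum.add_apply,
      Submodule.coe_add, Submodule.coe_add, hx, hy, smul_add]

lemma comp_zero_of_eigen [IsDomain R] (r : R) (x : k) (hr : euler 𝓡 r = x • r) (n : ℕ)
    (hn : (n : k) ≠ x) : ((decompose 𝓡 r n : 𝓡 n) : R) = 0 := by
  have h1 := decompose_euler 𝓡 r n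
  rw [hr, decompose_smul, DirectSum.smul_apply, Submodule.coe_smul] at h1
  have h2 : ((n : k) - x) • ((decompose 𝓡 r n : 𝓡 n) : R) = 0 := by
    rw [sub_smul, ← h1, sub_self]
  rcases smul_eq_zero.mp h2 with h3 | h3
  · exact absurd (sub_eq_zero.mp h3) hn
  · exact h3

lemma eq_zero_of_comps (r : R) (h : ∀ n, ((decompose 𝓡 r n : 𝓡 n) : R) = 0) : r = 0 := by
  classical
  rw [← DirectSum.sum_support_decompose 𝓡 r]
  exact Finset.sum_eq_zero (fun n _ => h n)

lemma mem_of_comps (r : R) (m : ℕ) (h : ∀ n, n ≠ m → ((decompose 𝓡 r n : 𝓡 n) : R) = 0) :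
    r ∈ 𝓡 m := by
  classical
  rw [← DirectSum.sum_support_decompose 𝓡 r]
  refine Submodule.sum_mem _ (fun n _ => ?_)
  by_cases hn : n = m
  · subst hn
    exact SetLike.coe_mem _
  · rw [h n hn]
    exact Submodule.zero_mem _

lemma comp_mul_right [IsDomain R] {u : R} {d : ℕ} (hu : u ∈ 𝓡 d) (hu0 : u ≠ 0) {f : R} {m : ℕ}
    (hm : f * u ∈ 𝓡 m) (n : ℕ) (hn : n + d ≠ m) : ((decompose 𝓡 f n : 𝓡 n) : R) = 0 := by
  have h1 := DirectSum.coe_decompose_mul_of_right_mem_of_le 𝓡 (a := f) (n := n + d) hu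
    (Nat.le_add_left d n)
  rw [decompose_of_mem_ne 𝓡 hm (Ne.symm hn), Nat.add_sub_cancel] at h1
  exact (mul_eq_zero.mp h1.symm).resolve_right hu0

end Eigen

section Core

variable {k R K L ι : Type*} [Field k] [CharZero k] [CommRing R] [IsDomain R] [Algebra k R]
  (𝓡 : ℕ → Submodule k R) [GradedAlgebra 𝓡]
  [Algebra (MvPolynomial (Fin 2) k) R] [IsScalarTower k (MvPolynomial (Fin 2) k) R]
  [Field K] [Algebra (MvPolynomial (Fin 2) k) K] [IsFractionRing (MvPolynomial (Fin 2) k) K]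
  [Field L] [Algebra R L] [IsFractionRing R L] [Algebra k L] [IsScalarTower k R L]
  [Algebra K L] [Algebra (MvPolynomial (Fin 2) k) L] [IsScalarTower (MvPolynomial (Fin 2) k) K L]
  [IsScalarTower (MvPolynomial (Fin 2) k) R L] [FiniteDimensional K L] [Fintype ι]

/-- The element obtained from an element of degree at most the top degree in the parameter ideal
vanishes. -/
theorem dual_vanishes (h0 : ∀ r ∈ 𝓡 0, ∃ c : k, r = algebraMap k R c)
    (B : Module.Basis ι (MvPolynomial (Fin 2) k) R) (i₀ : ι)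
    (ξ : L) (τ D : ℕ) (hDτ : D ≤ τ)
    (hξE : fracExt (L := L) (euler 𝓡) ξ = -(τ : L) * ξ)
    (hξtr : ∀ a : R, Algebra.trace K L (ξ * algebraMap R L a) =
      algebraMap (MvPolynomial (Fin 2) k) K (B.repr a i₀))
    (J : R) (hJ : J ∈ 𝓡 D)
    (hJI : J ∈ Ideal.span (Set.range (fun j : Fin 2 =>
      algebraMap (MvPolynomial (Fin 2) k) R (MvPolynomial.X j))))
    (r : R) (hr : algebraMap R L J * ξ = algebraMap R L r) : r = 0 := by
  classical
  have hinjRL : Function.Injective (algebraMap R L) := IsFractionRing.injective R L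
  have hsmul : ∀ (c : k) (x : R), algebraMap R L (c • x) = algebraMap k L c * algebraMap R L x := by
    intro c x
    rw [Algebra.smul_def, map_mul, ← IsScalarTower.algebraMap_apply]
  have hE1 : algebraMap R L (euler 𝓡 r) = ((D : L) - (τ : L)) * algebraMap R L r := by
    rw [← fracExt_algebraMap (L := L) (euler 𝓡) r, ← hr, Derivation.leibniz, hξE,
      fracExt_algebraMap, euler_of_mem 𝓡 hJ, hsmul, map_natCast, smul_eq_mul, smul_eq_mul]
    ring
  have hE2 : euler 𝓡 r = ((D : k) - (τ : k)) • r := by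
    apply hinjRL
    rw [hE1, hsmul, map_sub, map_natCast, map_natCast]
  rcases lt_or_eq_of_le hDτ with hlt | heq
  · -- smaller degree: every component vanishes
    apply eq_zero_of_comps 𝓡
    intro n
    apply comp_zero_of_eigen 𝓡 r _ hE2
    intro h
    have h1 : ((n + τ : ℕ) : k) = (D : k) := by
      push_cast
      rw [h]
      ring
    have h2 : n + τ = D := Nat.cast_injective h1
    omega
  · -- top degree: a constant, which has vanishing trace
    subst heq
    have hE3 : euler 𝓡 r = (0 : k) • r := by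
      rw [hE2, sub_self]
    have hr0 : r ∈ 𝓡 0 := by
      apply mem_of_comps
      intro n hn
      apply comp_zero_of_eigen 𝓡 r _ hE3
      exact_mod_cast hn
    obtain ⟨c, rfl⟩ := h0 r hr0
    have hrL : algebraMap R L (algebraMap k R c) =
        algebraMap K L (algebraMap (MvPolynomial (Fin 2) k) K (MvPolynomial.C c)) := by
      have h : algebraMap k R c = algebraMap (MvPolynomial (Fin 2) k) R (MvPolynomial.C c) := by
        rw [IsScalarTower.algebraMap_apply k (MvPolynomial (Fin 2) k) R]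
        rfl
      rw [h, ← IsScalarTower.algebraMap_apply (MvPolynomial (Fin 2) k) R L,
        ← IsScalarTower.algebraMap_apply (MvPolynomial (Fin 2) k) K L]
    have htr := hξtr J
    rw [mul_comm, hr, hrL, Algebra.trace_algebraMap] at htr
    -- the coordinate of an element of the parameter ideal has no constant term
    have hcoef : MvPolynomial.constantCoeff (B.repr J i₀) = 0 := by
      rw [Ideal.mem_span_range_iff_exists_fun] at hJI
      obtain ⟨q, rfl⟩ := hJI
      rw [map_sum, Finsupp.finsetSum_apply, map_sum]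
      refine Finset.sum_eq_zero (fun j _ => ?_)
      have h1 : q j * algebraMap (MvPolynomial (Fin 2) k) R (MvPolynomial.X j) =
          (MvPolynomial.X j : MvPolynomial (Fin 2) k) • q j := by
        rw [Algebra.smul_def, mul_comm]
      rw [h1, map_smul, Finsupp.smul_apply, smul_eq_mul, map_mul, MvPolynomial.constantCoeff_X,
        zero_mul]
    have hP : ((Module.finrank K L : ℕ) : MvPolynomial (Fin 2) k) * MvPolynomial.C c = B.repr J i₀ := by
      apply IsFractionRing.injective (MvPolynomial (Fin 2) k) K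
      rw [← htr, map_mul, map_natCast, nsmul_eq_mul]
    have h2 := congrArg MvPolynomial.constantCoeff hP
    rw [hcoef, map_mul, map_natCast, MvPolynomial.constantCoeff_C] at h2
    have hne : ((Module.finrank K L : ℕ) : k) ≠ 0 := by
      exact_mod_cast (Module.finrank_pos (R := K) (M := L)).ne'
    have hc : c = 0 := (mul_eq_zero.mp h2).resolve_left hne
    rw [hc, map_zero]

end Core

section Dual

variable {k R K L ι : Type*} [Field k] [CharZero k] [CommRing R] [IsDomain R]
  [IsIntegrallyClosed R] [Algebra k R] [Algebra.FiniteType k R]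
  (𝓡 : ℕ → Submodule k R) [GradedAlgebra 𝓡]
  [Algebra (MvPolynomial (Fin 2) k) R] [IsScalarTower k (MvPolynomial (Fin 2) k) R]
  [Field K] [CharZero K] [Algebra (MvPolynomial (Fin 2) k) K]
  [IsFractionRing (MvPolynomial (Fin 2) k) K]
  [Field L] [Algebra R L] [IsFractionRing R L] [Algebra k L] [IsScalarTower k R L]
  [Algebra K L] [Algebra (MvPolynomial (Fin 2) k) L] [IsScalarTower (MvPolynomial (Fin 2) k) K L]
  [IsScalarTower (MvPolynomial (Fin 2) k) R L] [IsScalarTower k (MvPolynomial (Fin 2) k) L]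
  [FiniteDimensional K L] [Fintype ι]

/-- A derivation of `L` sending the variables into the polynomial ring preserves `K`. -/
lemma deriv_preserves (E : Derivation k L L)
    (hE : ∀ j, ∃ p : MvPolynomial (Fin 2) k, E (algebraMap (MvPolynomial (Fin 2) k) L
      (MvPolynomial.X j)) = algebraMap (MvPolynomial (Fin 2) k) L p) (a : K) :
    ∃ a' : K, E (algebraMap K L a) = algebraMap K L a' := by
  classical
  choose e he using hE
  have hP : ∀ p : MvPolynomial (Fin 2) k, ∃ p' : MvPolynomial (Fin 2) k,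
      E (algebraMap (MvPolynomial (Fin 2) k) L p) = algebraMap (MvPolynomial (Fin 2) k) L p' := by
    intro p
    refine ⟨∑ j, MvPolynomial.pderiv j p * e j, ?_⟩
    rw [chain_algebraMap, map_sum]
    refine Finset.sum_congr rfl (fun j _ => ?_)
    rw [he, map_mul]
  obtain ⟨p, q, hq, rfl⟩ := IsFractionRing.div_surjective (A := MvPolynomial (Fin 2) k) a
  obtain ⟨p', hp'⟩ := hP p
  obtain ⟨q', hq'⟩ := hP q
  have hq0 : q ≠ 0 := nonZeroDivisors.ne_zero hq
  have hqK : algebraMap (MvPolynomial (Fin 2) k) K q ≠ 0 := fun h =>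
    hq0 (IsFractionRing.injective (MvPolynomial (Fin 2) k) K (by simpa using h))
  have hqL : algebraMap (MvPolynomial (Fin 2) k) L q ≠ 0 := by
    rw [IsScalarTower.algebraMap_apply (MvPolynomial (Fin 2) k) K L]
    exact fun h => hqK ((algebraMap K L).injective (by simpa using h))
  refine ⟨(algebraMap (MvPolynomial (Fin 2) k) K p' * algebraMap (MvPolynomial (Fin 2) k) K q -
    algebraMap (MvPolynomial (Fin 2) k) K p * algebraMap (MvPolynomial (Fin 2) k) K q') /
      algebraMap (MvPolynomial (Fin 2) k) K q ^ 2, ?_⟩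
  rw [map_div₀, ← IsScalarTower.algebraMap_apply, ← IsScalarTower.algebraMap_apply,
    deriv_div_eq _ _ _ hqL, hp', hq', map_div₀, map_sub, map_mul, map_mul, map_pow,
    ← IsScalarTower.algebraMap_apply, ← IsScalarTower.algebraMap_apply,
    ← IsScalarTower.algebraMap_apply, ← IsScalarTower.algebraMap_apply]

/-- The dual element of the socle generator. -/
theorem exists_dual (B : Module.Basis ι (MvPolynomial (Fin 2) k) R) (δ : ι → ℕ) (i₀ : ι)
    (hB : ∀ i, B i ∈ 𝓡 (δ i)) (τ : ℕ) (hτ : δ i₀ = τ)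
    (hX : ∀ j, ∃ n : ℕ, algebraMap (MvPolynomial (Fin 2) k) R (MvPolynomial.X j) ∈ 𝓡 n)
    (hint : Algebra.IsIntegral (MvPolynomial (Fin 2) k) R) :
    ∃ (B' : Module.Basis ι K L) (ξ : L), (∀ i, B' i = algebraMap R L (B i)) ∧ ξ ≠ 0 ∧
      fracExt (L := L) (euler 𝓡) ξ = -(τ : L) * ξ ∧
      ∀ a : R, Algebra.trace K L (ξ * algebraMap R L a) =
        algebraMap (MvPolynomial (Fin 2) k) K (B.repr a i₀) := by
  classical
  obtain ⟨B', hB'⟩ := exists_frac_basis (K := K) (L := L) B hint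
  have hpres : ∀ a : K, ∃ a' : K, fracExt (L := L) (euler 𝓡) (algebraMap K L a) = algebraMap K L a' := by
    apply deriv_preserves
    intro j
    obtain ⟨n, hn⟩ := hX j
    refine ⟨(n : MvPolynomial (Fin 2) k) * MvPolynomial.X j, ?_⟩
    rw [IsScalarTower.algebraMap_apply (MvPolynomial (Fin 2) k) R L, fracExt_algebraMap,
      euler_of_mem 𝓡 hn, map_mul, map_natCast, Algebra.smul_def,
      IsScalarTower.algebraMap_apply (MvPolynomial (Fin 2) k) R L (MvPolynomial.X j), map_mul,
      map_natCast, map_natCast]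
  choose DK hDK using hpres
  have hEB : ∀ i, fracExt (L := L) (euler 𝓡) (B' i) = (δ i : L) * B' i := by
    intro i
    rw [hB', fracExt_algebraMap, euler_of_mem 𝓡 (hB i), Algebra.smul_def, map_mul, map_natCast,
      map_natCast]
  have hξE := traceDual_deriv (k := k) (fracExt (L := L) (euler 𝓡)) DK hDK B' δ hEB i₀
  rw [hτ] at hξE
  have htr : ∀ i, Algebra.trace K L (B'.traceDual i₀ * B' i) = if i = i₀ then 1 else 0 := fun i =>
    Module.Basis.trace_traceDual_mul B' i₀ i
  refine ⟨B', B'.traceDual i₀, hB', ?_, hξE, ?_⟩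
  · intro h
    have := htr i₀
    rw [h] at this
    simp at this
  · intro a
    rw [repr_sum_frac (K := K) (L := L) B a, Finset.mul_sum, map_sum]
    rw [Finset.sum_eq_single i₀]
    · rw [mul_smul_comm, map_smul, ← hB', htr]
      simp
    · intro i _ hi
      rw [mul_smul_comm, map_smul, ← hB', htr, if_neg hi, smul_zero]
    · simp

/-- The Jacobian of a homogeneous derivation of small degree and the Euler derivation vanishes. -/
theorem jac_zero (h0 : ∀ r ∈ 𝓡 0, ∃ c : k, r = algebraMap k R c)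
    (B : Module.Basis ι (MvPolynomial (Fin 2) k) R) (B' : Module.Basis ι K L)
    (hB' : ∀ i, B' i = algebraMap R L (B i)) (i₀ : ι)
    (ξ : L) (hξ0 : ξ ≠ 0) (τ D : ℕ) (hDτ : D ≤ τ)
    (hξE : fracExt (L := L) (euler 𝓡) ξ = -(τ : L) * ξ)
    (hξtr : ∀ a : R, Algebra.trace K L (ξ * algebraMap R L a) =
      algebraMap (MvPolynomial (Fin 2) k) K (B.repr a i₀))
    (hint : Algebra.IsIntegral (MvPolynomial (Fin 2) k) R)
    (θ : Derivation k R R)
    (hJ : euler 𝓡 (algebraMap (MvPolynomial (Fin 2) k) R (MvPolynomial.X 0)) *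
        θ (algebraMap (MvPolynomial (Fin 2) k) R (MvPolynomial.X 1)) -
      euler 𝓡 (algebraMap (MvPolynomial (Fin 2) k) R (MvPolynomial.X 1)) *
        θ (algebraMap (MvPolynomial (Fin 2) k) R (MvPolynomial.X 0)) ∈ 𝓡 D)
    (hJI : euler 𝓡 (algebraMap (MvPolynomial (Fin 2) k) R (MvPolynomial.X 0)) *
        θ (algebraMap (MvPolynomial (Fin 2) k) R (MvPolynomial.X 1)) -
      euler 𝓡 (algebraMap (MvPolynomial (Fin 2) k) R (MvPolynomial.X 1)) *
        θ (algebraMap (MvPolynomial (Fin 2) k) R (MvPolynomial.X 0)) ∈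
      Ideal.span (Set.range (fun j : Fin 2 =>
        algebraMap (MvPolynomial (Fin 2) k) R (MvPolynomial.X j)))) :
    euler 𝓡 (algebraMap (MvPolynomial (Fin 2) k) R (MvPolynomial.X 0)) *
        θ (algebraMap (MvPolynomial (Fin 2) k) R (MvPolynomial.X 1)) -
      euler 𝓡 (algebraMap (MvPolynomial (Fin 2) k) R (MvPolynomial.X 1)) *
        θ (algebraMap (MvPolynomial (Fin 2) k) R (MvPolynomial.X 0)) = 0 := by
  classical
  have hinjRL : Function.Injective (algebraMap R L) := IsFractionRing.injective R L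
  have hw : ∀ g : MvPolynomial (Fin 2) k, Prime g → ∃ t a, t ∉ Ideal.span {g} ∧
      algebraMap (MvPolynomial (Fin 2) k) L t * (algebraMap R L
        (euler 𝓡 (algebraMap (MvPolynomial (Fin 2) k) R (MvPolynomial.X 0)) *
          θ (algebraMap (MvPolynomial (Fin 2) k) R (MvPolynomial.X 1)) -
        euler 𝓡 (algebraMap (MvPolynomial (Fin 2) k) R (MvPolynomial.X 1)) *
          θ (algebraMap (MvPolynomial (Fin 2) k) R (MvPolynomial.X 0))) * ξ) = algebraMap R L a := by
    intro g hg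
    obtain ⟨i0, hi0⟩ := exists_pderiv_not_mem g hg.ne_zero hg.not_isUnit
    exact jac_mul_dual (k := k) (K := K) (L := L) (fun j => MvPolynomial.X j)
      (fun j => MvPolynomial.pderiv j) chain_algebraMap g hg i0 hi0 (euler 𝓡) θ
      (fun a => ⟨1, by
        rw [Ideal.mem_span_singleton]
        intro h1
        exact hg.not_dvd_one h1, by simpa using hint.isIntegral a⟩) ξ
      (fun a => ⟨B.repr a i₀, (hξtr a).symm⟩)
  obtain ⟨r, hr⟩ := mem_of_forall_prime B B' hB' _ hw
  have hr0 := dual_vanishes (K := K) (L := L) 𝓡 h0 B i₀ ξ τ D hDτ hξE hξtr _ hJ hJI r hr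
  rw [hr0, map_zero] at hr
  have h1 := (mul_eq_zero.mp hr).resolve_right hξ0
  exact hinjRL (by rw [h1, map_zero])

include K L in
/-- Homogeneous derivations of small degree are multiples of the Euler derivation, given the
homogeneous basis and the dual element. -/
theorem multiple_euler (h0 : ∀ r ∈ 𝓡 0, ∃ c : k, r = algebraMap k R c)
    (u : Fin 2 → R) (d : Fin 2 → ℕ)
    (hX : ∀ j, algebraMap (MvPolynomial (Fin 2) k) R (MvPolynomial.X j) = u j)
    (hinj : Function.Injective (algebraMap (MvPolynomial (Fin 2) k) R))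
    (hd : ∀ j, d j ≠ 0) (hu : ∀ j, u j ∈ 𝓡 (d j)) (a : ℕ)
    (B : Module.Basis ι (MvPolynomial (Fin 2) k) R) (δ : ι → ℕ) (i₀ : ι)
    (hB : ∀ i, B i ∈ 𝓡 (δ i)) (hτ : δ i₀ = d 0 + d 1 + a)
    (hint : Algebra.IsIntegral (MvPolynomial (Fin 2) k) R)
    (κ : ℤ) (hκ : κ ≤ a) (θ : Derivation k R R)
    (hθ : ∀ n, ∀ r ∈ 𝓡 n, (0 ≤ (n : ℤ) + κ → θ r ∈ 𝓡 ((n : ℤ) + κ).toNat) ∧
        ((n : ℤ) + κ < 0 → θ r = 0)) :
    ∃ f : R, (κ < 0 → f = 0) ∧ (0 ≤ κ → f ∈ 𝓡 κ.toNat) ∧
      ∀ n, ∀ r ∈ 𝓡 n, θ r = (n : k) • (f * r) := by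
  classical
  obtain ⟨B', ξ, hB', hξ0, hξE, hξtr⟩ := exists_dual (K := K) (L := L) 𝓡 B δ i₀ hB
    (d 0 + d 1 + a) hτ (fun j => ⟨d j, by rw [hX]; exact hu j⟩) hint
  have hXfun : (fun j : Fin 2 => algebraMap (MvPolynomial (Fin 2) k) R (MvPolynomial.X j)) = u :=
    funext hX
  have hu0 : u 0 ≠ 0 := by
    intro h
    rw [← hX] at h
    have : (MvPolynomial.X 0 : MvPolynomial (Fin 2) k) = 0 := hinj (by simpa using h)
    exact MvPolynomial.X_ne_zero _ this
  have hcast : ∀ j, (d j : k) ≠ 0 := fun j => by exact_mod_cast hd j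
  have hmemI : ∀ j, u j ∈ Ideal.span (Set.range u) := fun j => Ideal.subset_span ⟨j, rfl⟩
  -- the Jacobian vanishes
  have hJ0 : euler 𝓡 (u 0) * θ (u 1) - euler 𝓡 (u 1) * θ (u 0) = 0 := by
    by_cases hneg : (d 0 : ℤ) + d 1 + κ < 0
    · have h1 : θ (u 0) = 0 := (hθ _ _ (hu 0)).2 (by omega)
      have h2 : θ (u 1) = 0 := (hθ _ _ (hu 1)).2 (by omega)
      rw [h1, h2]
      simp
    · have hJ : euler 𝓡 (u 0) * θ (u 1) - euler 𝓡 (u 1) * θ (u 0) ∈
          𝓡 ((d 0 : ℤ) + d 1 + κ).toNat := by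
        rw [euler_of_mem 𝓡 (hu 0), euler_of_mem 𝓡 (hu 1), smul_mul_assoc, smul_mul_assoc]
        refine Submodule.sub_mem _ (Submodule.smul_mem _ _ ?_) (Submodule.smul_mem _ _ ?_)
        · by_cases hc : 0 ≤ ((d 1 : ℕ) : ℤ) + κ
          · have h1 := SetLike.mul_mem_graded (hu 0) ((hθ _ _ (hu 1)).1 hc)
            have h2 : d 0 + (((d 1 : ℕ) : ℤ) + κ).toNat = ((d 0 : ℤ) + d 1 + κ).toNat := by omega
            rwa [h2] at h1
          · rw [(hθ _ _ (hu 1)).2 (by omega), mul_zero]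
            exact Submodule.zero_mem _
        · by_cases hc : 0 ≤ ((d 0 : ℕ) : ℤ) + κ
          · have h1 := SetLike.mul_mem_graded (hu 1) ((hθ _ _ (hu 0)).1 hc)
            have h2 : d 1 + (((d 0 : ℕ) : ℤ) + κ).toNat = ((d 0 : ℤ) + d 1 + κ).toNat := by omega
            rwa [h2] at h1
          · rw [(hθ _ _ (hu 0)).2 (by omega), mul_zero]
            exact Submodule.zero_mem _
      have hJI : euler 𝓡 (u 0) * θ (u 1) - euler 𝓡 (u 1) * θ (u 0) ∈ Ideal.span (Set.range u) := by
        rw [euler_of_mem 𝓡 (hu 0), euler_of_mem 𝓡 (hu 1)]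
        refine Ideal.sub_mem _ (Ideal.mul_mem_right _ _ ?_) (Ideal.mul_mem_right _ _ ?_)
        · rw [Algebra.smul_def]
          exact Ideal.mul_mem_left _ _ (hmemI 0)
        · rw [Algebra.smul_def]
          exact Ideal.mul_mem_left _ _ (hmemI 1)
      have hDτ : ((d 0 : ℤ) + d 1 + κ).toNat ≤ d 0 + d 1 + a := by omega
      have := jac_zero (K := K) (L := L) 𝓡 h0 B B' hB' i₀ ξ hξ0 (d 0 + d 1 + a) _ hDτ hξE hξtr hint θ
        (by simp only [hX]; exact hJ) (by simp only [hX, hXfun]; exact hJI)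
      simpa only [hX] using this
  rw [euler_of_mem 𝓡 (hu 0), euler_of_mem 𝓡 (hu 1)] at hJ0
  -- the regular sequence property
  obtain ⟨γ, hγ⟩ := regular_X hint hinj ((d 1 : k) • θ (u 0)) ((d 0 : k) • θ (u 1)) (by
    rw [hX, hX, mul_smul_comm, mul_smul_comm]
    rw [smul_mul_assoc, smul_mul_assoc] at hJ0
    linear_combination -hJ0)
  rw [hX] at hγ
  have hγ' : (d 0 : k) • θ (u 1) = u 1 * γ := by
    apply mul_left_cancel₀ hu0
    rw [smul_mul_assoc, smul_mul_assoc] at hJ0
    rw [mul_smul_comm]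
    have h1 : u 1 * ((d 1 : k) • θ (u 0)) = (d 1 : k) • (u 1 * θ (u 0)) := mul_smul_comm _ _ _
    rw [hγ] at h1
    linear_combination hJ0 - h1
  have hnn : (d 0 : k) * (d 1 : k) ≠ 0 := mul_ne_zero (hcast 0) (hcast 1)
  obtain ⟨f, hfγ⟩ : ∃ f : R, ((d 0 : k) * (d 1 : k)) • f = γ :=
    ⟨((d 0 : k) * (d 1 : k))⁻¹ • γ, by rw [smul_smul, mul_inv_cancel₀ hnn, one_smul]⟩
  have hθu : ∀ j, θ (u j) = (d j : k) • (f * u j) := by
    rw [Fin.forall_fin_two]
    constructor
    · apply smul_right_injective R (hcast 1)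
      show (d 1 : k) • θ (u 0) = (d 1 : k) • ((d 0 : k) • (f * u 0))
      have h1 : (d 1 : k) • (d 0 : k) • (f * u 0) = (((d 0 : k) * (d 1 : k)) • f) * u 0 := by
        rw [smul_smul, mul_comm (d 1 : k), smul_mul_assoc]
      rw [h1, hfγ, hγ, mul_comm]
    · apply smul_right_injective R (hcast 0)
      show (d 0 : k) • θ (u 1) = (d 0 : k) • ((d 1 : k) • (f * u 1))
      have h1 : (d 0 : k) • (d 1 : k) • (f * u 1) = (((d 0 : k) * (d 1 : k)) • f) * u 1 := by
        rw [smul_smul, smul_mul_assoc]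
      rw [h1, hfγ, hγ', mul_comm]
  have hDzero : θ - f • euler 𝓡 = 0 := by
    apply deriv_eq_zero_of_kills (k := k) (A := R) (σ := Fin 2) (fun a => hint.isIntegral a) hinj
    intro j
    rw [hX, Derivation.sub_apply, Derivation.smul_apply, euler_of_mem 𝓡 (hu j), hθu j, smul_eq_mul,
      mul_smul_comm, sub_self]
  have hθf : ∀ r, θ r = f * euler 𝓡 r := by
    intro r
    have h1 := congrArg (fun D : Derivation k R R => D r) hDzero
    simp only [Derivation.sub_apply, Derivation.smul_apply, Derivation.coe_zero, Pi.zero_apply,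
      smul_eq_mul] at h1
    exact sub_eq_zero.mp h1
  have hfu : f * u 0 = (d 0 : k)⁻¹ • θ (u 0) := by
    rw [hθu 0, smul_smul, inv_mul_cancel₀ (hcast 0), one_smul]
  refine ⟨f, ?_, ?_, ?_⟩
  · intro hκ0
    by_cases hc : 0 ≤ ((d 0 : ℕ) : ℤ) + κ
    · have h1 : f * u 0 ∈ 𝓡 (((d 0 : ℕ) : ℤ) + κ).toNat := by
        rw [hfu]
        exact Submodule.smul_mem _ _ ((hθ _ _ (hu 0)).1 hc)
      apply eq_zero_of_comps 𝓡
      intro n
      exact comp_mul_right 𝓡 (hu 0) hu0 h1 n (by omega)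
    · have h1 : f * u 0 = 0 := by
        rw [hfu, (hθ _ _ (hu 0)).2 (by omega), smul_zero]
      exact (mul_eq_zero.mp h1).resolve_right hu0
  · intro hκ0
    have hc : 0 ≤ ((d 0 : ℕ) : ℤ) + κ := by omega
    have h1 : f * u 0 ∈ 𝓡 (((d 0 : ℕ) : ℤ) + κ).toNat := by
      rw [hfu]
      exact Submodule.smul_mem _ _ ((hθ _ _ (hu 0)).1 hc)
    apply mem_of_comps
    intro n hn
    exact comp_mul_right 𝓡 (hu 0) hu0 h1 n (by omega)
  · intro n r hr
    rw [hθf, euler_of_mem 𝓡 hr, mul_smul_comm]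

end Dual

section Wrapper

open MvPolynomial

attribute [local instance] FractionRing.liftAlgebra

variable {k R L : Type*} [Field k] [CharZero k] [CommRing R] [IsDomain R]
  [IsIntegrallyClosed R] [Algebra k R] [Algebra.FiniteType k R]
  (𝓡 : ℕ → Submodule k R) [GradedAlgebra 𝓡]
  [Field L] [Algebra R L] [IsFractionRing R L] [Algebra k L] [IsScalarTower k R L]

include L in
/-- Homogeneous derivations of small degree of a normal graded domain are multiples of the Euler
derivation. -/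
theorem hH_of_normal_aux (h0 : ∀ r ∈ 𝓡 0, ∃ c : k, r = algebraMap k R c)
    (u : Fin 2 → R) (d : Fin 2 → ℕ) (hd : ∀ j, d j ≠ 0) (hu : ∀ j, u j ∈ 𝓡 (d j))
    (hind : AlgebraicIndependent k u) (a : ℕ)
    (hsoc : ∃ s ∈ 𝓡 (d 0 + d 1 + a), s ∉ Ideal.span (Set.range u))
    (htop : ∀ n, d 0 + d 1 + a < n → ∀ r ∈ 𝓡 n, r ∈ Ideal.span (Set.range u))
    (κ : ℤ) (hκ : κ ≤ a) (θ : Derivation k R R)
    (hθ : ∀ n, ∀ r ∈ 𝓡 n, (0 ≤ (n : ℤ) + κ → θ r ∈ 𝓡 ((n : ℤ) + κ).toNat) ∧
        ((n : ℤ) + κ < 0 → θ r = 0)) :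
    ∃ f : R, (κ < 0 → f = 0) ∧ (0 ≤ κ → f ∈ 𝓡 κ.toNat) ∧
      ∀ n, ∀ r ∈ 𝓡 n, θ r = (n : k) • (f * r) := by
  classical
  let Pol := MvPolynomial (Fin 2) k
  let ι : Pol →ₐ[k] R := aeval u
  letI algPR : Algebra Pol R := ι.toRingHom.toAlgebra
  have hPR : ∀ p : Pol, algebraMap Pol R p = ι p := fun p => rfl
  have hX : ∀ j, algebraMap Pol R (X j) = u j := fun j => by
    rw [hPR]
    exact aeval_X u j
  have hinj : Function.Injective (algebraMap Pol R) := hind
  haveI tkPR : IsScalarTower k Pol R := IsScalarTower.of_algebraMap_eq (fun c => (ι.commutes c).symm)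
  obtain ⟨s, hs, hsI⟩ := hsoc
  obtain ⟨ι', _, B, δ, i₀, hB, hτ, -⟩ := exists_homog_basis 𝓡 u d h0 hX hinj hd hu _ htop s hs hsI
  haveI hfinP : Module.Finite Pol R := Module.Finite.of_basis B
  have hint : Algebra.IsIntegral Pol R := Algebra.IsIntegral.of_finite _ _
  letI algPL : Algebra Pol L := ((algebraMap R L).comp (algebraMap Pol R)).toAlgebra
  haveI tPRL : IsScalarTower Pol R L := IsScalarTower.of_algebraMap_eq (fun _ => rfl)
  haveI tkPL : IsScalarTower k Pol L := IsScalarTower.of_algebraMap_eq (fun c => by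
    show algebraMap k L c = algebraMap R L (algebraMap Pol R (algebraMap k Pol c))
    rw [← IsScalarTower.algebraMap_apply k Pol R, ← IsScalarTower.algebraMap_apply k R L])
  have hinjPL : Function.Injective (algebraMap Pol L) := by
    rw [IsScalarTower.algebraMap_eq Pol R L]
    exact (IsFractionRing.injective R L).comp hinj
  haveI : FaithfulSMul Pol L := (faithfulSMul_iff_algebraMap_injective Pol L).mpr hinjPL
  let K := FractionRing Pol
  letI algKL : Algebra K L := FractionRing.liftAlgebra Pol L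
  haveI tPKL : IsScalarTower Pol K L := FractionRing.isScalarTower_liftAlgebra Pol L
  haveI hcharP : CharZero Pol := charZero_of_injective_algebraMap (algebraMap k Pol).injective
  haveI hcharK : CharZero K := IsFractionRing.charZero Pol
  haveI hfd : FiniteDimensional K L := finiteDimensional_of_hint (k := k) (S := Pol)
    (fun c => ⟨algebraMap k Pol c, by
      rw [IsScalarTower.algebraMap_apply k Pol R, ← IsScalarTower.algebraMap_apply Pol R L]⟩)
    (fun a => ⟨1, one_ne_zero, by simpa using hint.isIntegral a⟩)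
  exact multiple_euler (K := K) (L := L) 𝓡 h0 u d hX hinj hd hu a B δ i₀ hB hτ hint κ hκ θ hθ

omit [Field L] [Algebra R L] [IsFractionRing R L] [Algebra k L] [IsScalarTower k R L] in
/-- Homogeneous derivations of small degree of a normal graded domain are multiples of the Euler
derivation. -/
theorem hH_of_normal (h0 : ∀ r ∈ 𝓡 0, ∃ c : k, r = algebraMap k R c)
    (u : Fin 2 → R) (d : Fin 2 → ℕ) (hd : ∀ j, d j ≠ 0) (hu : ∀ j, u j ∈ 𝓡 (d j))
    (hind : AlgebraicIndependent k u) (a : ℕ)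
    (hsoc : ∃ s ∈ 𝓡 (d 0 + d 1 + a), s ∉ Ideal.span (Set.range u))
    (htop : ∀ n, d 0 + d 1 + a < n → ∀ r ∈ 𝓡 n, r ∈ Ideal.span (Set.range u))
    (κ : ℤ) (hκ : κ ≤ a) (θ : Derivation k R R)
    (hθ : ∀ n, ∀ r ∈ 𝓡 n, (0 ≤ (n : ℤ) + κ → θ r ∈ 𝓡 ((n : ℤ) + κ).toNat) ∧
        ((n : ℤ) + κ < 0 → θ r = 0)) :
    ∃ f : R, (κ < 0 → f = 0) ∧ (0 ≤ κ → f ∈ 𝓡 κ.toNat) ∧
      ∀ n, ∀ r ∈ 𝓡 n, θ r = (n : k) • (f * r) :=
  hH_of_normal_aux (L := FractionRing R) 𝓡 h0 u d hd hu hind a hsoc htop κ hκ θ hθ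

end Wrapper

end Vale.Agent.Lib.P266
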