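import Vale.Agent.Lib.P266.Structure

/-!
Linear algebra modulo a prime ideal.
-/

set_option linter.unusedSectionVars false
set_option linter.unusedSimpArgs false
set_option linter.unusedVariables false

open nonZeroDivisors

namespace Vale.Agent.Lib.P266

section LinAlg

variable {A : Type*} [CommRing A] {ι₁ ι₂ : Type*} [Fintype ι₁] [Fintype ι₂] [DecidableEq ι₁]
  [DecidableEq ι₂]

theorem exists_left_inverse_mod (P : Ideal A) [hP : P.IsPrime] (M : ι₁ → ι₂ → A)
    (h : ∀ c : ι₂ → A, (∀ l, ∑ x, c x * M l x ∈ P) → ∀ x, c x ∈ P) :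
    ∃ (a : ι₂ → ι₁ → A) (t : A), t ∉ P ∧
      ∀ x x', ∑ l, a x l * M l x' - (if x = x' then t else 0) ∈ P := by
  classical
  let mk := Ideal.Quotient.mk P
  have hmk : Function.Surjective mk := Ideal.Quotient.mk_surjective
  let F := FractionRing (A ⧸ P)
  let α : (A ⧸ P) →+* F := algebraMap (A ⧸ P) F
  have hα : Function.Injective α := IsFractionRing.injective (A ⧸ P) F
  let Mb : Matrix ι₁ ι₂ F := Matrix.of (fun l x => α (mk (M l x)))
  let f : (ι₂ → F) →ₗ[F] (ι₁ → F) := Matrix.mulVecLin Mb
  have hker : LinearMap.ker f = ⊥ := by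
    rw [LinearMap.ker_eq_bot']
    intro v hv
    obtain ⟨q, hq⟩ := IsLocalization.exist_integer_multiples_of_finite ((A ⧸ P)⁰) v
    choose c hc using hq
    choose c' hc' using fun x => hmk (c x)
    have hq0 : ((q : A ⧸ P) : A ⧸ P) ≠ 0 := nonZeroDivisors.ne_zero q.2
    have hqF : α q ≠ 0 := by
      intro h0
      exact hq0 (hα (by simpa using h0))
    have hl : ∀ l, ∑ x, c' x * M l x ∈ P := by
      intro l
      rw [← Ideal.Quotient.eq_zero_iff_mem]
      apply hα
      have hfv := congrFun hv l
      simp only [f, Matrix.mulVecLin_apply, Matrix.mulVec, dotProduct, Pi.zero_apply] at hfv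
      rw [map_sum, map_sum, map_zero]
      have h3 : ∀ x, α (mk (c' x * M l x)) = α q * (v x * Mb l x) := by
        intro x
        rw [map_mul, map_mul, hc', hc x, Algebra.smul_def]
        simp only [Mb, Matrix.of_apply]
        ring
      simp only [mk] at h3
      rw [Finset.sum_congr rfl (fun x _ => h3 x), ← Finset.mul_sum]
      have h4 : ∑ x, v x * Mb l x = 0 := by
        rw [← hfv]
        apply Finset.sum_congr rfl
        intro x _
        ring
      rw [h4, mul_zero]
    have hcP := h c' hl
    funext x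
    have h5 : mk (c' x) = 0 := Ideal.Quotient.eq_zero_iff_mem.mpr (hcP x)
    have h6 := hc x
    rw [← hc', h5, map_zero, Algebra.smul_def] at h6
    exact (mul_eq_zero.mp h6.symm).resolve_left hqF
  obtain ⟨g, hg⟩ := f.exists_leftInverse_of_injective hker
  let ψ : ι₂ → ι₁ → F := fun x l => g (Pi.single l 1) x
  have hgv : ∀ (v : ι₁ → F) x, g v x = ∑ l, v l * ψ x l := by
    intro v x
    have h1 : v = ∑ l, v l • (Pi.single l 1 : ι₁ → F) := by
      funext j
      simp [Finset.sum_apply, Pi.single_apply]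
    conv_lhs => rw [h1]
    rw [map_sum, Finset.sum_apply]
    apply Finset.sum_congr rfl
    intro l _
    rw [map_smul, Pi.smul_apply, smul_eq_mul]
  have hinv : ∀ x x', ∑ l, ψ x l * Mb l x' = if x = x' then 1 else 0 := by
    intro x x'
    have h1 := congrFun (LinearMap.congr_fun hg (Pi.single x' 1)) x
    simp only [LinearMap.comp_apply, LinearMap.id_apply] at h1
    rw [hgv] at h1
    have h2 : ∀ l, f (Pi.single x' 1) l = Mb l x' := by
      intro l
      simp only [f, Matrix.mulVecLin_apply]
      rw [Matrix.mulVec_single_one]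
      rfl
    simp only [h2] at h1
    rw [Pi.single_apply] at h1
    rw [Finset.sum_congr rfl (fun l _ => mul_comm _ _), h1]
  obtain ⟨q, hq⟩ := IsLocalization.exist_integer_multiples_of_finite ((A ⧸ P)⁰)
    (fun p : ι₂ × ι₁ => ψ p.1 p.2)
  choose ab hab using hq
  choose a ha using fun p => hmk (ab p)
  obtain ⟨t, ht⟩ := hmk (q : A ⧸ P)
  have hq0 : ((q : A ⧸ P) : A ⧸ P) ≠ 0 := nonZeroDivisors.ne_zero q.2
  refine ⟨fun x l => a (x, l), t, ?_, ?_⟩
  · intro hmem
    apply hq0
    rw [← ht]
    exact Ideal.Quotient.eq_zero_iff_mem.mpr hmem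
  · intro x x'
    rw [← Ideal.Quotient.eq_zero_iff_mem]
    apply hα
    rw [map_sub, map_sub, map_sum, map_sum, map_zero]
    have h3 : ∀ l, α (Ideal.Quotient.mk P (a (x, l) * M l x')) = α q * (ψ x l * Mb l x') := by
      intro l
      have h4 := hab (x, l)
      rw [map_mul, map_mul, show Ideal.Quotient.mk P (a (x, l)) = ab (x, l) from ha _, h4,
        Algebra.smul_def]
      simp only [Mb, Matrix.of_apply]
      ring
    rw [Finset.sum_congr rfl (fun l _ => h3 l), ← Finset.mul_sum, hinv]
    by_cases hxx : x = x'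
    · simp only [hxx, if_true, mul_one]
      rw [show Ideal.Quotient.mk P t = q from ht, sub_self]
    · simp [hxx]

end LinAlg

end Vale.Agent.Lib.P266
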