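import Vale.Agent.Lib.P266.TraceLem

/-!
The key lemma in the form of derivations of the fraction field stabilizing a DVR.
-/

set_option linter.unusedSectionVars false
set_option linter.unusedSimpArgs false

open IsLocalRing

namespace Vale.Agent.Lib.P266

section LocalStep

variable {k L V σ : Type*} [Field k] [CharZero k] [Field L] [Algebra k L] [CommRing V] [IsDomain V]
  [IsDiscreteValuationRing V] [Algebra V L] [IsFractionRing V L] [Fintype σ] [DecidableEq σ]

theorem local_step (φ : k →+* V) (hφ : ∀ c, algebraMap V L (φ c) = algebraMap k L c)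
    (D : σ → Derivation k L L)
    (hstab : ∀ i v, ∃ v', D i (algebraMap V L v) = algebraMap V L v')
    (hind : ∀ c : σ → L, ∑ i, c i • D i = 0 → ∀ i, c i = 0)
    (hsat : ∀ D' : Derivation k L L, (∀ v, ∃ v', D' (algebraMap V L v) = algebraMap V L v') →
      ∃ d : σ → V, D' = ∑ i, (algebraMap V L (d i)) • D i)
    (z : σ → V) (i0 : σ) (g : V) (hg0 : g ≠ 0) (hgm : g ∈ maximalIdeal V)
    (dg : σ → V)
    (hdg : ∀ D' : Derivation k L L, D' (algebraMap V L g) =
      ∑ j, algebraMap V L (dg j) * D' (algebraMap V L (z j)))
    (halg : ∀ (D' : Derivation k L L) (e : V → V),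
      (∀ v, D' (algebraMap V L v) = algebraMap V L (e v)) →
      ∀ π, Irreducible π → e π ∈ maximalIdeal V →
      (∀ j, j ≠ i0 → e (z j) ∈ maximalIdeal V) → ∀ v, e v ∈ maximalIdeal V) :
    ∃ ρ ∈ maximalIdeal V, algebraMap V L g =
      (Matrix.of (fun i j => D i (algebraMap V L (z j)))).det * algebraMap V L ρ := by
  let _ : Algebra k V := φ.toAlgebra
  have hsc : IsScalarTower k V L := IsScalarTower.of_algebraMap_eq' (by
    ext c; exact (hφ c).symm)
  have hinj : Function.Injective (algebraMap V L) := IsFractionRing.injective V L
  have hsm : ∀ (c : k) (x : V), algebraMap V L (c • x) = c • algebraMap V L x := fun c x => by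
    rw [Algebra.smul_def, map_mul, ← IsScalarTower.algebraMap_apply, ← Algebra.smul_def]
  choose e he using hstab
  let DV : σ → Derivation k V V := fun i =>
    Derivation.mk' { toFun := e i
                     map_add' := by
                       intro x y
                       apply hinj
                       rw [← he, map_add, map_add, map_add, he, he]
                     map_smul' := by
                       intro c x
                       apply hinj
                       rw [← he, RingHom.id_apply, hsm, hsm, (D i).map_smul, he] }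
      (by
        intro x y
        apply hinj
        show algebraMap V L (e i (x * y)) = algebraMap V L (x • e i y + y • e i x)
        rw [← he, map_mul, Derivation.leibniz, he, he]
        simp only [smul_eq_mul, map_add, map_mul])
  have hDV : ∀ i v, algebraMap V L (DV i v) = D i (algebraMap V L v) := fun i v => (he i v).symm
  have hind' : ∀ c : σ → V, ∑ i, c i • DV i = 0 → ∀ i, c i = 0 := by
    intro c hc i
    have h0 : ∑ i, (algebraMap V L (c i)) • D i = 0 := by
      apply deriv_ext_frac (A := V)
      intro v
      have h1 := congrArg (fun E : Derivation k V V => algebraMap V L (E v)) hc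
      simp only [sum_smul_deriv_apply, map_sum, map_mul, Derivation.coe_zero, Pi.zero_apply,
        map_zero, hDV] at h1
      simp only [sum_smul_deriv_apply, Derivation.coe_zero, Pi.zero_apply]
      exact h1
    have h2 := hind _ h0 i
    exact hinj (by simpa using h2)
  have hsat' : ∀ D' : Derivation k V V, ∃ d : σ → V, D' = ∑ i, d i • DV i := by
    intro D'
    obtain ⟨d, hd⟩ := hsat (fracExt (L := L) D') (fun v => ⟨D' v, fracExt_algebraMap D' v⟩)
    refine ⟨d, ?_⟩
    ext v
    apply hinj
    have h1 := congrArg (fun E : Derivation k L L => E (algebraMap V L v)) hd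
    simp only [fracExt_algebraMap, sum_smul_deriv_apply] at h1
    rw [h1, sum_smul_deriv_apply, map_sum]
    simp only [map_mul, hDV]
  have halg' : ∀ (D' : Derivation k V V) (π : V), Irreducible π → D' π ∈ maximalIdeal V →
      (∀ j, j ≠ i0 → D' (z j) ∈ maximalIdeal V) → ∀ v, D' v ∈ maximalIdeal V := by
    intro D' π hπ h1 h2 v
    exact halg (fracExt (L := L) D') D' (fun v => fracExt_algebraMap D' v) π hπ h1 h2 v
  have hdg' : ∀ i, DV i g = ∑ j, dg j * DV i (z j) := by
    intro i
    apply hinj
    rw [hDV, hdg, map_sum]
    simp only [map_mul, hDV]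
  obtain ⟨ρ, hρ, hgρ⟩ := exists_factor DV hind' hsat' z i0 g hg0 hgm dg hdg' halg'
  refine ⟨ρ, hρ, ?_⟩
  have h3 := congrArg (algebraMap V L) hgρ
  rw [map_mul, RingHom.map_det] at h3
  rw [h3]
  congr 2
  ext i j
  simp [hDV]

end LocalStep

end Vale.Agent.Lib.P266
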