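import Vale.Agent.Lib.P266.Structure2

/-!
Graded Noether normalization.
-/

set_option linter.unusedSectionVars false
set_option linter.unusedSimpArgs false
set_option linter.unusedVariables false

open DirectSum MvPolynomial

namespace Vale.Agent.Lib.P266

section Homog

variable {R T σ : Type*} [CommRing R] [CommRing T] [Fintype σ]

lemma eval₂_smul_of_isHomogeneous (F : MvPolynomial σ R) {d : ℕ} (hF : F.IsHomogeneous d)
    (φ : R →+* T) (c : T) (w : σ → T) :
    eval₂ φ (fun i => c * w i) F = c ^ d * eval₂ φ w F := by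
  classical
  rw [eval₂_eq', eval₂_eq', Finset.mul_sum]
  apply Finset.sum_congr rfl
  intro m hm
  have h1 : ∑ i, m i = d := by
    rw [hF.degree_eq_sum_deg_support hm]
    exact (Finset.sum_subset (Finset.subset_univ _)
      (fun i _ hi => Finsupp.notMem_support_iff.mp hi)).symm
  simp only [mul_pow, Finset.prod_mul_distrib, Finset.prod_pow_eq_pow_sum, h1]
  ring

end Homog

section Noether

variable {k A L Df : Type*} [Field k] [CharZero k] [CommRing A] [IsDomain A] [Algebra k A]
  (𝒜 : ℕ → Submodule k A) [GradedAlgebra 𝒜] [Field L] [Algebra A L] [IsFractionRing A L]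
  [CommRing Df] [IsDomain Df] [Algebra k Df] [Algebra Df A] [IsScalarTower k Df A] [Algebra Df L]
  [IsScalarTower Df A L]

lemma aeval_mem_of_isHomogeneous {σ : Type*} [Fintype σ] (hDf : ∀ d, algebraMap Df A d ∈ 𝒜 0)
    (N : ℕ) (u : σ → A) (hu : ∀ i, u i ∈ 𝒜 N) (F : MvPolynomial σ Df) {d : ℕ}
    (hF : F.IsHomogeneous d) : aeval u F ∈ 𝒜 (d * N) := by
  classical
  rw [aeval_def, eval₂_eq']
  apply Submodule.sum_mem
  intro m hm
  have h1 : ∑ i, m i = d := by
    rw [hF.degree_eq_sum_deg_support hm]
    exact (Finset.sum_subset (Finset.subset_univ _)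
      (fun i _ hi => Finsupp.notMem_support_iff.mp hi)).symm
  have h2 : ∏ i, u i ^ m i ∈ 𝒜 (d * N) := by
    have := SetLike.prod_pow_mem_graded (A := 𝒜) (F := Finset.univ) (g := u) (i := fun _ => N) m
      (fun i _ => hu i)
    have h3 : ∑ k, m k • N = d * N := by
      simp only [smul_eq_mul]
      rw [← Finset.sum_mul, h1]
    rwa [h3] at this
  have := SetLike.GradedMul.mul_mem (hDf (coeff m F)) h2
  simpa using this

lemma aeval_homogeneousComponent_eq_zero {σ : Type*} [Fintype σ]
    (hDf : ∀ d, algebraMap Df A d ∈ 𝒜 0) (N : ℕ) (hN : N ≠ 0) (u : σ → A) (hu : ∀ i, u i ∈ 𝒜 N)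
    (p : MvPolynomial σ Df) (hp : aeval u p = 0) (d : ℕ) :
    aeval u (homogeneousComponent d p) = 0 := by
  classical
  have h1 : ∑ e ∈ Finset.range (p.totalDegree + 1), aeval u (homogeneousComponent e p) = 0 := by
    rw [← map_sum, sum_homogeneousComponent, hp]
  have hmem : ∀ e, aeval u (homogeneousComponent e p) ∈ 𝒜 (e * N) := fun e =>
    aeval_mem_of_isHomogeneous 𝒜 hDf N u hu _ (homogeneousComponent_isHomogeneous e p)
  have h2 := congrArg (fun x => (decompose 𝒜 x (d * N) : A)) h1
  have h3 : (decompose 𝒜 (∑ e ∈ Finset.range (p.totalDegree + 1),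
      aeval u (homogeneousComponent e p)) (d * N) : A) =
      ∑ e ∈ Finset.range (p.totalDegree + 1),
        (decompose 𝒜 (aeval u (homogeneousComponent e p)) (d * N) : A) :=
    map_sum (GradedRing.proj 𝒜 (d * N)) _ _
  simp only [h3, decompose_zero, DirectSum.zero_apply, ZeroMemClass.coe_zero] at h2
  by_cases hd : d ∈ Finset.range (p.totalDegree + 1)
  · rw [Finset.sum_eq_single d] at h2
    · rwa [decompose_of_mem_same 𝒜 (hmem d)] at h2
    · intro e _ he
      apply decompose_of_mem_ne 𝒜 (hmem e)
      intro h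
      exact he (Nat.eq_of_mul_eq_mul_right (Nat.pos_of_ne_zero hN) h)
    · intro h
      exact absurd hd h
  · have hlt : p.totalDegree < d := by
      simp only [Finset.mem_range, not_lt] at hd
      omega
    rw [homogeneousComponent_eq_zero _ _ hlt, map_zero]

variable {r : ℕ}

lemma prime_step (u : Fin (r + 1) → A) (i₀ : Fin (r + 1)) (v : Fin (r + 1) → k) (hv : v i₀ = 1)
    (F : MvPolynomial (Fin (r + 1)) Df) {d : ℕ} (hF : F.IsHomogeneous d) (hFu : aeval u F = 0)
    (hFv : eval (fun i => algebraMap k Df (v i)) F ≠ 0)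
    (P : Ideal A) [hP : P.IsPrime] (hD : ∀ c : Df, c ≠ 0 → algebraMap Df A c ∉ P)
    (h' : ∀ j, u (i₀.succAbove j) - v (i₀.succAbove j) • u i₀ ∈ P) (i : Fin (r + 1)) : u i ∈ P := by
  let mk := Ideal.Quotient.mk P
  let φ : Df →+* A ⧸ P := mk.comp (algebraMap Df A)
  have hφk : ∀ c : k, φ (algebraMap k Df c) = mk (algebraMap k A c) := by
    intro c
    show mk (algebraMap Df A (algebraMap k Df c)) = _
    rw [← IsScalarTower.algebraMap_apply]
  have h1 : ∀ i, mk (u i) = mk (u i₀) * φ (algebraMap k Df (v i)) := by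
    intro i
    rcases Fin.eq_self_or_eq_succAbove i₀ i with h | ⟨j, h⟩
    · subst h
      rw [hv, map_one, map_one, mul_one]
    · subst h
      have h2 := Ideal.Quotient.eq_zero_iff_mem.mpr (h' j)
      rw [map_sub, sub_eq_zero, Algebra.smul_def, map_mul] at h2
      rw [h2, hφk, mul_comm]
  have h2 : eval₂ φ (fun i => mk (u i)) F = 0 := by
    have h3 := congrArg mk hFu
    rw [aeval_def, MvPolynomial.hom_eval₂, map_zero] at h3
    exact h3
  have h2' : eval₂ φ (fun i => mk (u i₀) * φ (algebraMap k Df (v i))) F = 0 := by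
    rw [← h2]
    congr 1
    funext i
    exact (h1 i).symm
  rw [eval₂_smul_of_isHomogeneous F hF] at h2'
  have h4 : eval₂ φ (fun i => φ (algebraMap k Df (v i))) F =
      φ (eval (fun i => algebraMap k Df (v i)) F) := by
    have := MvPolynomial.eval₂_comp_left φ (RingHom.id Df) (fun i => algebraMap k Df (v i)) F
    simpa [eval₂_id, Function.comp_def] using this.symm
  rw [h4] at h2'
  have h5 : φ (eval (fun i => algebraMap k Df (v i)) F) ≠ 0 := by
    intro h0
    exact hD _ hFv (Ideal.Quotient.eq_zero_iff_mem.mp h0)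
  have h6 : mk (u i₀) ^ d = 0 := (mul_eq_zero.mp h2').resolve_right h5
  have h7 : u i₀ ^ d ∈ P := by
    rw [← Ideal.Quotient.eq_zero_iff_mem, map_pow]
    exact h6
  have h8 : u i₀ ∈ P := hP.mem_of_pow_mem d h7
  have h9 : mk (u i₀) = 0 := Ideal.Quotient.eq_zero_iff_mem.mpr h8
  have h10 := h1 i
  rw [h9, zero_mul] at h10
  exact Ideal.Quotient.eq_zero_iff_mem.mp h10

lemma integral_step {σ : Type*} [Fintype σ] (O : Subring L) (hOint : ∀ x : L, IsIntegral O x → x ∈ O)
    (ι : Df →+* O) (hι : ∀ d, ((ι d : O) : L) = algebraMap Df L d)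
    (hinv : ∀ d : Df, d ≠ 0 → (algebraMap Df L d)⁻¹ ∈ O)
    (hinj : Function.Injective (algebraMap Df L))
    (x : σ → L) (τ : L) (v : σ → Df) (w : σ → O)
    (hw : ∀ i, (w i : L) = x i - algebraMap Df L (v i) * τ)
    (F : MvPolynomial σ Df) {d : ℕ} (hF : F.IsHomogeneous d)
    (hFx : eval₂ (algebraMap Df L) x F = 0) (hFv : eval v F ≠ 0) : τ ∈ O := by
  classical
  by_cases hτ : τ = 0
  · rw [hτ]
    exact O.zero_mem
  apply hOint
  let G : Polynomial O := eval₂ (Polynomial.C.comp ι)
    (fun i => Polynomial.C (w i) * Polynomial.X + Polynomial.C (ι (v i))) F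
  have hG0 : G.coeff 0 = ι (eval v F) := by
    rw [Polynomial.coeff_zero_eq_eval_zero]
    have h1 := MvPolynomial.hom_eval₂ F (Polynomial.C.comp ι)
      (Polynomial.evalRingHom (0 : O))
      (fun i => Polynomial.C (w i) * Polynomial.X + Polynomial.C (ι (v i)))
    have h2 : (Polynomial.evalRingHom (0 : O)).comp (Polynomial.C.comp ι) = ι := by
      ext c
      simp
    rw [h2] at h1
    have h3 : (fun i => (Polynomial.evalRingHom (0 : O))
        (Polynomial.C (w i) * Polynomial.X + Polynomial.C (ι (v i)))) = fun i => ι (v i) := by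
      funext i
      simp
    rw [h3] at h1
    have h4 : eval₂ ι (fun i => ι (v i)) F = ι (eval v F) := by
      have := MvPolynomial.eval₂_comp_left ι (RingHom.id Df) v F
      simpa [eval₂_id, Function.comp_def] using this.symm
    rw [h4] at h1
    exact h1
  have hι0 : ((ι (eval v F) : O) : L) ≠ 0 := by
    rw [hι]
    intro h
    exact hFv (hinj (by rw [h, map_zero]))
  have hG0ne : G.coeff 0 ≠ 0 := by
    rw [hG0]
    intro h
    rw [h] at hι0
    exact hι0 rfl
  let _ : Invertible (τ⁻¹) := invertibleOfNonzero (inv_ne_zero hτ)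
  have hGt : Polynomial.eval₂ O.subtype τ⁻¹ G = 0 := by
    have h1 := MvPolynomial.hom_eval₂ F (Polynomial.C.comp ι)
      (Polynomial.eval₂RingHom O.subtype τ⁻¹)
      (fun i => Polynomial.C (w i) * Polynomial.X + Polynomial.C (ι (v i)))
    have h2 : (Polynomial.eval₂RingHom O.subtype τ⁻¹).comp (Polynomial.C.comp ι) =
        algebraMap Df L := by
      ext c
      simp [hι]
    rw [h2] at h1
    have h3 : (fun i => (Polynomial.eval₂RingHom O.subtype τ⁻¹)
        (Polynomial.C (w i) * Polynomial.X + Polynomial.C (ι (v i)))) =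
        fun i => τ⁻¹ * x i := by
      funext i
      simp only [Polynomial.coe_eval₂RingHom, Polynomial.eval₂_add, Polynomial.eval₂_mul,
        Polynomial.eval₂_C, Polynomial.eval₂_X, Subring.subtype_apply, hι, hw]
      field_simp
      ring
    rw [h3, eval₂_smul_of_isHomogeneous F hF, hFx, mul_zero] at h1
    exact h1
  have hrev : Polynomial.eval₂ O.subtype (⅟(τ⁻¹)) G.reverse = 0 :=
    (Polynomial.eval₂_reverse_eq_zero_iff _ _ _).mpr hGt
  have hinvτ : ⅟(τ⁻¹) = τ := by
    apply invOf_eq_right_inv
    exact inv_mul_cancel₀ hτ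
  rw [hinvτ] at hrev
  have hunit : ((G.coeff 0 : O) : L)⁻¹ ∈ O := by
    rw [hG0, hι]
    exact hinv _ hFv
  let b : O := ⟨_, hunit⟩
  have hb : b * G.reverse.leadingCoeff = 1 := by
    rw [Polynomial.reverse_leadingCoeff, Polynomial.trailingCoeff_eq_coeff_zero hG0ne]
    apply Subtype.ext
    have h5 : ((G.coeff 0 : O) : L) ≠ 0 := by
      rw [hG0]
      exact hι0
    show ((G.coeff 0 : O) : L)⁻¹ * ((G.coeff 0 : O) : L) = 1
    exact inv_mul_cancel₀ h5
  refine ⟨Polynomial.C b * G.reverse, Polynomial.monic_C_mul_of_mul_leadingCoeff_eq_one hb, ?_⟩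
  have h6 : Polynomial.eval₂ (algebraMap O L) τ G.reverse = 0 := hrev
  rw [Polynomial.eval₂_mul, h6, mul_zero]

theorem graded_noether (hDf : ∀ d, algebraMap Df A d ∈ 𝒜 0)
    (hinj : Function.Injective (algebraMap Df A)) [NoZeroSMulDivisors k Df]
    (N : ℕ) (hN : N ≠ 0) : ∀ (r : ℕ) (u : Fin r → A), (∀ i, u i ∈ 𝒜 N) →
      ∃ (m : ℕ) (y : Fin m → A), (∀ j, y j ∈ 𝒜 N) ∧ AlgebraicIndependent Df y ∧
        (∀ O : Subring L, (∀ d, algebraMap Df L d ∈ O) →
          (∀ d, d ≠ 0 → (algebraMap Df L d)⁻¹ ∈ O) → (∀ x, IsIntegral O x → x ∈ O) →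
          (∀ j, algebraMap A L (y j) ∈ O) → ∀ i, algebraMap A L (u i) ∈ O) ∧
        (∀ P : Ideal A, P.IsPrime → (∀ d, d ≠ 0 → algebraMap Df A d ∉ P) → (∀ j, y j ∈ P) →
          ∀ i, u i ∈ P) := by
  classical
  have hinjL : Function.Injective (algebraMap Df L) := by
    rw [IsScalarTower.algebraMap_eq Df A L]
    exact (IsFractionRing.injective A L).comp hinj
  have hkinj : Function.Injective (algebraMap k Df) := (algebraMap k Df).injective
  intro r
  induction r with
  | zero =>
    intro u _
    exact ⟨0, Fin.elim0, fun j => j.elim0, algebraicIndependent_empty_type_iff.mpr hinj,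
      fun _ _ _ _ _ i => i.elim0, fun _ _ _ _ i => i.elim0⟩
  | succ r ih =>
    intro u hu
    by_cases hind : AlgebraicIndependent Df u
    · exact ⟨r + 1, u, hu, hind, fun _ _ _ _ h i => h i, fun _ _ _ h i => h i⟩
    rw [algebraicIndependent_iff] at hind
    push Not at hind
    obtain ⟨p, hp0, hp⟩ := hind
    obtain ⟨d, hd⟩ : ∃ d, homogeneousComponent d p ≠ 0 := by
      by_contra hall
      push Not at hall
      apply hp
      rw [← sum_homogeneousComponent p]
      exact Finset.sum_eq_zero fun d _ => hall d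
    set F := homogeneousComponent d p with hFdef
    have hFh : F.IsHomogeneous d := homogeneousComponent_isHomogeneous d p
    have hFu : aeval u F = 0 := aeval_homogeneousComponent_eq_zero 𝒜 hDf N hN u hu p hp0 d
    -- a nonvanishing point over the field
    obtain ⟨v, hv⟩ : ∃ v : Fin (r + 1) → k, eval (fun i => algebraMap k Df (v i)) F ≠ 0 := by
      by_contra hall
      push Not at hall
      apply hd
      have hinf : (Set.range (algebraMap k Df)).Infinite :=
        Set.infinite_range_of_injective hkinj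
      apply MvPolynomial.funext_set (fun _ => Set.range (algebraMap k Df)) (fun _ => hinf)
      intro x hx
      have h2 : ∀ i, ∃ c, algebraMap k Df c = x i := fun i => hx i (Set.mem_univ i)
      choose c hc using h2
      have h3 : x = fun i => algebraMap k Df (c i) := by
        funext i
        exact (hc i).symm
      rw [h3, hall c, map_zero]
    -- nonzero coordinate
    obtain ⟨i₀, hi₀⟩ : ∃ i₀, v i₀ ≠ 0 := by
      by_contra hall
      push Not at hall
      apply hv
      have h1 : (fun i => algebraMap k Df (v i)) = fun _ => 0 := by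
        funext i
        rw [hall i, map_zero]
      rw [h1]
      apply hinj
      rw [map_zero]
      have h2 : algebraMap Df A (eval (fun _ : Fin (r + 1) => (0 : Df)) F) =
          eval₂ (algebraMap Df A) (fun i => (0 : A) * u i) F := by
        have := MvPolynomial.eval₂_comp_left (algebraMap Df A) (RingHom.id Df)
          (fun _ : Fin (r + 1) => (0 : Df)) F
        simp only [eval₂_id, RingHom.comp_id] at this
        rw [this]
        congr 1
        funext i
        simp
      rw [h2, eval₂_smul_of_isHomogeneous F hFh]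
      have h3 : eval₂ (algebraMap Df A) u F = 0 := hFu
      rw [h3, mul_zero]
    -- normalization
    let v' : Fin (r + 1) → k := fun i => (v i₀)⁻¹ * v i
    have hv'i : v' i₀ = 1 := inv_mul_cancel₀ hi₀
    have hv' : eval (fun i => algebraMap k Df (v' i)) F ≠ 0 := by
      have h1 : eval (fun i => algebraMap k Df (v' i)) F =
          algebraMap k Df (v i₀)⁻¹ ^ d * eval (fun i => algebraMap k Df (v i)) F := by
        have := eval₂_smul_of_isHomogeneous F hFh (RingHom.id Df) (algebraMap k Df (v i₀)⁻¹)
          (fun i => algebraMap k Df (v i))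
        simp only [eval₂_id] at this
        rw [← this]
        congr 2
        funext i
        simp [v']
      rw [h1]
      exact mul_ne_zero (pow_ne_zero _ (by
        intro h
        exact inv_ne_zero hi₀ (hkinj (by rw [h, map_zero])))) hv
    -- the new sequence
    let u' : Fin r → A := fun j => u (i₀.succAbove j) - v' (i₀.succAbove j) • u i₀
    have hu' : ∀ j, u' j ∈ 𝒜 N := fun j =>
      Submodule.sub_mem _ (hu _) (Submodule.smul_mem _ _ (hu _))
    obtain ⟨m, y, hyN, hyind, hC1, hC2⟩ := ih u' hu'
    refine ⟨m, y, hyN, hyind, ?_, ?_⟩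
    · intro O hO1 hO2 hO3 hO4 i
      have hu'O : ∀ j, algebraMap A L (u' j) ∈ O := hC1 O hO1 hO2 hO3 hO4
      let ι : Df →+* O := (algebraMap Df L).codRestrict O hO1
      have hι : ∀ d, ((ι d : O) : L) = algebraMap Df L d := fun d => rfl
      have hvsmul : ∀ c : k, algebraMap A L (c • u i₀) =
          algebraMap Df L (algebraMap k Df c) * algebraMap A L (u i₀) := by
        intro c
        rw [Algebra.smul_def, map_mul, IsScalarTower.algebraMap_apply k Df A,
          ← IsScalarTower.algebraMap_apply Df A L]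
      let w : Fin (r + 1) → O := fun i =>
        if h : i = i₀ then 0 else
          ⟨algebraMap A L (u' ((Fin.exists_succAbove_eq h).choose)), hu'O _⟩
      have hw : ∀ i, ((w i : O) : L) = algebraMap A L (u i) -
          algebraMap Df L (algebraMap k Df (v' i)) * algebraMap A L (u i₀) := by
        intro i
        by_cases h : i = i₀
        · subst h
          simp [w, hv'i]
        · have hch := (Fin.exists_succAbove_eq h).choose_spec
          simp only [w, dif_neg h]
          show algebraMap A L (u' _) = _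
          simp only [u']
          rw [hch, map_sub, hvsmul]
      have hτ : algebraMap A L (u i₀) ∈ O := by
        apply integral_step O hO3 ι hι hO2 hinjL (fun i => algebraMap A L (u i))
          (algebraMap A L (u i₀)) (fun i => algebraMap k Df (v' i)) w hw F hFh _ hv'
        have h6 : algebraMap A L (aeval u F) = 0 := by rw [hFu, map_zero]
        rw [aeval_def, MvPolynomial.hom_eval₂, ← IsScalarTower.algebraMap_eq] at h6
        exact h6
      have h7 : algebraMap A L (u i) = (w i : L) +
          algebraMap Df L (algebraMap k Df (v' i)) * algebraMap A L (u i₀) := by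
        rw [hw]
        ring
      rw [h7]
      exact O.add_mem (w i).2 (O.mul_mem (hO1 _) hτ)
    · intro P hP hD hy i
      have := hC2 P hP hD hy
      exact prime_step u i₀ v' hv'i F hFh hFu hv' P hD this i

end Noether

end Vale.Agent.Lib.P266
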