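import Vale.Agent.Lib.P266.TraceQ
import Vale.Agent.Lib.P266.Noether

/-!
Rank of the module of derivations against a polynomial subring of the same dimension.
-/

set_option linter.unusedSectionVars false
set_option linter.unusedSimpArgs false
set_option linter.unusedVariables false

open MvPolynomial

namespace Vale.Agent.Lib.P266

section Ext

variable {k K L : Type*} [Field k] [Field K] [CharZero K] [Field L] [Algebra k K] [Algebra k L]
  [Algebra K L] [IsScalarTower k K L] [FiniteDimensional K L]

/-- Derivations extend along finite extensions in characteristic zero. -/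
lemma exists_extend_derivation (d : Derivation k K K) :
    ∃ d' : Derivation k L L, ∀ a, d' (algebraMap K L a) = algebraMap K L (d a) := by
  let _ : Differential K := ⟨d.restrictScalars ℤ⟩
  let _ := Differential.differentialFiniteDimensional K L
  have := Differential.differentialAlgebraFiniteDimensional (F := K) (K := L)
  let d2 : Derivation ℤ L L := Differential.deriv
  have h2 : ∀ a, d2 (algebraMap K L a) = algebraMap K L (d a) := fun a =>
    DifferentialAlgebra.deriv_algebraMap a
  refine ⟨Derivation.mk' { toFun := d2
                           map_add' := map_add d2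
                           map_smul' := ?_ } (fun a b => d2.leibniz a b), h2⟩
  intro c x
  rw [Algebra.smul_def, d2.leibniz, IsScalarTower.algebraMap_apply k K L, h2]
  have h3 : d (algebraMap k K c) = 0 := by simp
  rw [h3, map_zero, smul_zero, add_zero, RingHom.id_apply, ← IsScalarTower.algebraMap_apply k K L,
    smul_eq_mul, Algebra.smul_def]

end Ext

section Kill

variable {k K L : Type*} [Field k] [Field K] [CharZero K] [Field L]
  [Algebra k L] [Algebra K L] [FiniteDimensional K L]

/-- A derivation vanishing on the base field of a finite extension in characteristic zero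
vanishes. -/
lemma deriv_eq_zero_of_field (d : Derivation k L L) (h : ∀ a : K, d (algebraMap K L a) = 0) :
    d = 0 := by
  ext x
  have hmem := deriv_mem_of_isIntegral (fun x => d x) (map_add d)
    (fun a b => by rw [d.leibniz]; simp) (algebraMap K L).range (⊥ : Ideal L)
    (by
      rintro _ ⟨a, rfl⟩
      rw [h a]
      exact Ideal.zero_mem _)
    (by
      intro y hy
      rw [Ideal.mem_bot] at hy
      rw [hy, map_zero]
      exact Ideal.zero_mem _)
    (by
      intro n hn
      refine ⟨algebraMap K L (n : K)⁻¹, ⟨_, rfl⟩, ?_⟩
      have h1 : (n : K) ≠ 0 := Nat.cast_ne_zero.mpr hn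
      rw [← map_natCast (algebraMap K L), ← map_mul, inv_mul_cancel₀ h1, map_one])
    x (by
      have hx : IsIntegral K x := Algebra.IsIntegral.isIntegral x
      obtain ⟨p, hm, hp⟩ := hx
      refine ⟨p.map (algebraMap K L).rangeRestrict, hm.map _, ?_⟩
      rw [Polynomial.eval₂_map]
      exact hp)
  simpa using hmem

end Kill

section Rank

variable {k A L K σ ι : Type*} [Field k] [CharZero k]
  [CommRing A] [IsDomain A] [Algebra k A] [IsIntegrallyClosed A] [Algebra.FiniteType k A]
  [Field L] [Algebra A L] [IsFractionRing A L] [Algebra k L] [IsScalarTower k A L]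
  [Fintype σ] [DecidableEq σ]
  [Algebra (MvPolynomial σ k) A] [Algebra (MvPolynomial σ k) L]
  [IsScalarTower (MvPolynomial σ k) A L] [IsScalarTower k (MvPolynomial σ k) L]
  [Field K] [CharZero K] [Algebra (MvPolynomial σ k) K] [IsFractionRing (MvPolynomial σ k) K]
  [Algebra K L] [IsScalarTower (MvPolynomial σ k) K L] [FiniteDimensional K L]
  [Fintype ι] [DecidableEq ι]

include K in
/-- A derivation of `L` vanishing on the variables vanishes. -/
lemma deriv_eq_zero_of_vars (d : Derivation k L L)
    (h : ∀ j : σ, d (algebraMap (MvPolynomial σ k) L (X j)) = 0) : d = 0 := by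
  apply deriv_eq_zero_of_field (K := K)
  intro a
  obtain ⟨s, t, ht, rfl⟩ := IsFractionRing.div_surjective (A := MvPolynomial σ k) a
  have hS : ∀ s : MvPolynomial σ k, d (algebraMap (MvPolynomial σ k) L s) = 0 := by
    intro s
    rw [chain_algebraMap]
    apply Finset.sum_eq_zero
    intro j _
    rw [h j, mul_zero]
  have ht0 : algebraMap (MvPolynomial σ k) L t ≠ 0 := by
    rw [IsScalarTower.algebraMap_apply (MvPolynomial σ k) K L]
    intro h0
    have h1 : algebraMap (MvPolynomial σ k) K t = 0 := (algebraMap K L).injective (by simpa using h0)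
    exact nonZeroDivisors.ne_zero ht (IsFractionRing.injective (MvPolynomial σ k) K (by simpa using h1))
  rw [map_div₀, ← IsScalarTower.algebraMap_apply, ← IsScalarTower.algebraMap_apply,
    deriv_div_eq d _ _ ht0, hS, hS]
  simp

include K in
/-- Existence of the dual basis of derivations to the variables. -/
lemma exists_dual_deriv (j : σ) :
    ∃ d : Derivation k L L, ∀ l : σ, d (algebraMap (MvPolynomial σ k) L (X l)) =
      if l = j then 1 else 0 := by
  let _ : Algebra k K := ((algebraMap (MvPolynomial σ k) K).comp (algebraMap k _)).toAlgebra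
  have : IsScalarTower k (MvPolynomial σ k) K := IsScalarTower.of_algebraMap_eq (fun _ => rfl)
  have : IsScalarTower k K L := IsScalarTower.of_algebraMap_eq (fun c => by
    show algebraMap k L c = algebraMap K L (algebraMap (MvPolynomial σ k) K (algebraMap k _ c))
    rw [← IsScalarTower.algebraMap_apply (MvPolynomial σ k) K L,
      ← IsScalarTower.algebraMap_apply k (MvPolynomial σ k) L])
  let d0 : Derivation k K K := fracExt (L := K) (pderiv j : Derivation k (MvPolynomial σ k) _)
  obtain ⟨d, hd⟩ := exists_extend_derivation (L := L) d0
  refine ⟨d, fun l => ?_⟩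
  rw [IsScalarTower.algebraMap_apply (MvPolynomial σ k) K L, hd, fracExt_algebraMap, pderiv_X,
    ← IsScalarTower.algebraMap_apply (MvPolynomial σ k) K L]
  by_cases hl : l = j
  · subst hl
    simp
  · have : (Pi.single j (1 : MvPolynomial σ k) : σ → MvPolynomial σ k) l = 0 :=
      Pi.single_eq_of_ne hl _
    rw [this]
    simp [hl]

include K in
/-- The matrix of a basis of derivations on the variables is invertible over `L`: in particular
the number of derivations in a basis equals the number of variables. -/
theorem rank_matrix (D : ι → Derivation k A A)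
    (hind : ∀ c : ι → A, ∑ i, c i • D i = 0 → ∀ i, c i = 0)
    (hsat : ∀ D' : Derivation k A A, ∃ u : A, u ≠ 0 ∧ ∃ c : ι → A, u • D' = ∑ i, c i • D i) :
    ∃ C : Matrix σ ι L,
      C * (Matrix.of fun i j => algebraMap A L (D i (algebraMap (MvPolynomial σ k) A (X j)))) = 1 ∧
      (Matrix.of fun i j => algebraMap A L (D i (algebraMap (MvPolynomial σ k) A (X j)))) * C = 1 := by
  classical
  have hsat0 : ∀ D' : Derivation k A A, ∃ u, u ∉ (⊥ : Ideal A) ∧ ∃ c : ι → A,
      u • D' = ∑ i, c i • D i := by
    intro D'
    obtain ⟨u, hu, c, hc⟩ := hsat D'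
    exact ⟨u, by simpa using hu, c, hc⟩
  have hinjA : Function.Injective (algebraMap A L) := IsFractionRing.injective A L
  -- every derivation of `L` is a combination of the extensions
  have hspan : ∀ d : Derivation k L L, ∃ c : ι → L, d = ∑ i, c i • fracExt (L := L) (D i) := by
    intro d
    obtain ⟨u, hu, c, hc⟩ := frac_saturated D (⊥ : Ideal A) hsat0 d (by
      intro a
      obtain ⟨a', m, hm, ha⟩ := IsFractionRing.div_surjective (A := A) (d (algebraMap A L a))
      refine ⟨m, by simpa using nonZeroDivisors.ne_zero hm, a', ?_⟩
      have hm0 : algebraMap A L m ≠ 0 := by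
        simpa using (map_ne_zero_iff _ hinjA).mpr (nonZeroDivisors.ne_zero hm)
      rw [← ha]
      field_simp)
    have hu0 : algebraMap A L u ≠ 0 := by
      have : u ≠ 0 := by simpa using hu
      simpa using (map_ne_zero_iff _ hinjA).mpr this
    refine ⟨fun i => (algebraMap A L u)⁻¹ * algebraMap A L (c i), ?_⟩
    have h1 := congrArg (fun F => (algebraMap A L u)⁻¹ • F) hc
    simp only [smul_smul, inv_mul_cancel₀ hu0, one_smul, Finset.smul_sum] at h1
    exact h1
  choose c hc using hspan
  have hMeval : ∀ i j, fracExt (L := L) (D i) (algebraMap (MvPolynomial σ k) L (X j)) =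
      algebraMap A L (D i (algebraMap (MvPolynomial σ k) A (X j))) := by
    intro i j
    rw [IsScalarTower.algebraMap_apply (MvPolynomial σ k) A L, fracExt_algebraMap]
  choose dual hdual using exists_dual_deriv (k := k) (K := K) (L := L) (σ := σ)
  set M : Matrix ι σ L := Matrix.of fun i j =>
    algebraMap A L (D i (algebraMap (MvPolynomial σ k) A (X j))) with hM
  let C : Matrix σ ι L := Matrix.of fun j i => c (dual j) i
  have hCM : C * M = 1 := by
    ext j l
    rw [Matrix.mul_apply]
    have h1 := congrArg (fun F : Derivation k L L => F (algebraMap (MvPolynomial σ k) L (X l)))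
      (hc (dual j))
    simp only [hdual, sum_smul_deriv_apply, hMeval] at h1
    simp only [C, M, hM, Matrix.of_apply]
    rw [← h1, Matrix.one_apply]
    by_cases h : j = l
    · subst h; simp
    · simp [h, Ne.symm h]
  have hMC : M * C = 1 := by
    -- each extension is the combination of the dual derivations
    have hexp : ∀ i, fracExt (L := L) (D i) = ∑ j, M i j • dual j := by
      intro i
      have h0 : fracExt (L := L) (D i) - ∑ j, M i j • dual j = 0 := by
        apply deriv_eq_zero_of_vars (K := K) (σ := σ)
        intro l
        rw [Derivation.sub_apply, sum_smul_deriv_apply, hMeval]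
        simp only [hdual, mul_ite, mul_one, mul_zero, M, hM, Matrix.of_apply]
        rw [Finset.sum_ite_eq]
        simp
      exact sub_eq_zero.mp h0
    ext i i'
    have h1 : ∑ l, (M * C) i l • fracExt (L := L) (D l) = fracExt (L := L) (D i) := by
      rw [hexp i]
      have h2 : ∀ j, dual j = ∑ l, C j l • fracExt (L := L) (D l) := fun j => hc (dual j)
      calc ∑ l, (M * C) i l • fracExt (L := L) (D l)
          = ∑ l, ∑ j, M i j • C j l • fracExt (L := L) (D l) := by
            apply Finset.sum_congr rfl
            intro l _
            rw [Matrix.mul_apply, Finset.sum_smul]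
            apply Finset.sum_congr rfl
            intro j _
            rw [smul_smul]
        _ = ∑ j, M i j • dual j := by
            rw [Finset.sum_comm]
            apply Finset.sum_congr rfl
            intro j _
            rw [h2 j, Finset.smul_sum]
    have h3 : ∑ l, ((M * C) i l - (1 : Matrix ι ι L) i l) • fracExt (L := L) (D l) = 0 := by
      simp only [sub_smul, Finset.sum_sub_distrib, h1, Matrix.one_apply, ite_smul, one_smul,
        zero_smul, Finset.sum_ite_eq, Finset.mem_univ, if_true, sub_self]
    have h4 := frac_independent D hind _ h3 i'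
    exact sub_eq_zero.mp h4
  exact ⟨C, hCM, hMC⟩

end Rank

end Vale.Agent.Lib.P266
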