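import Mathlib

/-!
A normal domain finite over a polynomial ring in two variables: the two variables form a
regular sequence.
-/

set_option linter.unusedSectionVars false
set_option linter.unusedSimpArgs false
set_option linter.unusedVariables false
set_option linter.style.haveILetI false

open Polynomial

namespace Vale.Agent.Lib.P266

section Two

variable {P K L : Type*} [CommRing P] [IsDomain P] [IsIntegrallyClosed P] [Field K] [Algebra P K]
  [IsFractionRing P K] [Field L] [Algebra K L] [Algebra P L] [IsScalarTower P K L]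

/-- An element whose multiples by two coprime elements are integral is integral. -/
theorem integral_of_two (x y : P) (hx : x ≠ 0) (hy : y ≠ 0)
    (hcop : ∀ (c : K) (e : ℕ), algebraMap P K x ^ e * c ∈ Set.range (algebraMap P K) →
      algebraMap P K y ^ e * c ∈ Set.range (algebraMap P K) → c ∈ Set.range (algebraMap P K))
    (ξ : L) (hξ : IsIntegral K ξ)
    (h1 : IsIntegral P (algebraMap P L x * ξ)) (h2 : IsIntegral P (algebraMap P L y * ξ)) :
    IsIntegral P ξ := by
  classical
  have hinjK : Function.Injective (algebraMap P K) := IsFractionRing.injective P K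
  have hx' : algebraMap P K x ≠ 0 := fun h => hx (hinjK (by simpa using h))
  have hy' : algebraMap P K y ≠ 0 := fun h => hy (hinjK (by simpa using h))
  -- the coefficients of the scaled minimal polynomials lie in `P`
  have key : ∀ z : P, algebraMap P K z ≠ 0 → IsIntegral P (algebraMap P L z * ξ) →
      ∀ i, (minpoly K ξ).coeff i * algebraMap P K z ^ ((minpoly K ξ).natDegree - i) ∈
        Set.range (algebraMap P K) := by
    intro z hz hint i
    have h3 : minpoly K (algebraMap P K z • ξ) = (minpoly K ξ).scaleRoots (algebraMap P K z) :=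
      IsIntegrallyClosed.minpoly_smul hz hξ
    have h4 : algebraMap P K z • ξ = algebraMap P L z * ξ := by
      rw [Algebra.smul_def, ← IsScalarTower.algebraMap_apply]
    rw [h4] at h3
    have h5 : minpoly K (algebraMap P L z * ξ) = (minpoly P (algebraMap P L z * ξ)).map
        (algebraMap P K) := minpoly.isIntegrallyClosed_eq_field_fractions' K hint
    rw [h5] at h3
    have h6 := congrArg (fun p => Polynomial.coeff p i) h3
    simp only [coeff_map, coeff_scaleRoots] at h6
    exact ⟨_, h6⟩
  have hcoeff : ∀ i, (minpoly K ξ).coeff i ∈ Set.range (algebraMap P K) := by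
    intro i
    apply hcop _ ((minpoly K ξ).natDegree - i)
    · rw [mul_comm]
      exact key x hx' h1 i
    · rw [mul_comm]
      exact key y hy' h2 i
  have hl : minpoly K ξ ∈ Polynomial.lifts (algebraMap P K) :=
    (Polynomial.lifts_iff_coeff_lifts _).mpr hcoeff
  obtain ⟨q, hq, -, hm⟩ := Polynomial.lifts_and_natDegree_eq_and_monic hl (minpoly.monic hξ)
  refine ⟨q, hm, ?_⟩
  have h7 : Polynomial.aeval ξ (minpoly K ξ) = 0 := minpoly.aeval K ξ
  rw [← hq, Polynomial.aeval_def, Polynomial.eval₂_map] at h7
  rw [← IsScalarTower.algebraMap_eq] at h7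
  exact h7

end Two

section Var

variable {k K : Type*} [Field k] [Field K] [Algebra (MvPolynomial (Fin 2) k) K]
  [IsFractionRing (MvPolynomial (Fin 2) k) K]

lemma coprime_X (c : K) (e : ℕ)
    (h1 : algebraMap (MvPolynomial (Fin 2) k) K (MvPolynomial.X 0) ^ e * c ∈
      Set.range (algebraMap (MvPolynomial (Fin 2) k) K))
    (h2 : algebraMap (MvPolynomial (Fin 2) k) K (MvPolynomial.X 1) ^ e * c ∈
      Set.range (algebraMap (MvPolynomial (Fin 2) k) K)) :
    c ∈ Set.range (algebraMap (MvPolynomial (Fin 2) k) K) := by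
  classical
  have hinj : Function.Injective (algebraMap (MvPolynomial (Fin 2) k) K) :=
    IsFractionRing.injective _ K
  obtain ⟨p, hp⟩ := h1
  obtain ⟨q, hq⟩ := h2
  have h3 : (MvPolynomial.X 1 : MvPolynomial (Fin 2) k) ^ e * p = MvPolynomial.X 0 ^ e * q := by
    apply hinj
    rw [map_mul, map_mul, map_pow, map_pow, hp, hq]
    ring
  have hpr : Prime (MvPolynomial.X 0 : MvPolynomial (Fin 2) k) := MvPolynomial.X_prime
  have hnd : ¬ (MvPolynomial.X 0 : MvPolynomial (Fin 2) k) ∣ MvPolynomial.X 1 ^ e := by
    intro h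
    have h4 := hpr.dvd_of_dvd_pow h
    have h5 := MvPolynomial.X_dvd_X.mp h4
    exact absurd h5 (by decide)
  have h6 : (MvPolynomial.X 0 : MvPolynomial (Fin 2) k) ^ e ∣ p :=
    hpr.pow_dvd_of_dvd_mul_left e hnd ⟨q, h3⟩
  obtain ⟨r, rfl⟩ := h6
  refine ⟨r, ?_⟩
  have hne : algebraMap (MvPolynomial (Fin 2) k) K (MvPolynomial.X 0) ≠ 0 := by
    intro h
    have : (MvPolynomial.X 0 : MvPolynomial (Fin 2) k) = 0 := hinj (by simpa using h)
    exact MvPolynomial.X_ne_zero _ this
  have h7 : algebraMap (MvPolynomial (Fin 2) k) K (MvPolynomial.X 0) ^ e * algebraMap _ K r =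
      algebraMap (MvPolynomial (Fin 2) k) K (MvPolynomial.X 0) ^ e * c := by
    rw [← hp, map_mul, map_pow]
  exact mul_left_cancel₀ (pow_ne_zero _ hne) h7

end Var

section RS

variable {k R : Type*} [Field k] [CommRing R] [IsDomain R] [IsIntegrallyClosed R]
  [Algebra (MvPolynomial (Fin 2) k) R]

/-- The variables form a regular sequence on a normal integral extension. -/
theorem regular_X_aux (K L : Type*) [Field K] [Algebra (MvPolynomial (Fin 2) k) K]
    [IsFractionRing (MvPolynomial (Fin 2) k) K] [Field L] [Algebra R L] [IsFractionRing R L]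
    [Algebra K L] [Algebra (MvPolynomial (Fin 2) k) L] [IsScalarTower (MvPolynomial (Fin 2) k) K L]
    [IsScalarTower (MvPolynomial (Fin 2) k) R L]
    (hint : Algebra.IsIntegral (MvPolynomial (Fin 2) k) R)
    (α β : R)
    (h : algebraMap (MvPolynomial (Fin 2) k) R (MvPolynomial.X 1) * α =
      algebraMap (MvPolynomial (Fin 2) k) R (MvPolynomial.X 0) * β) :
    ∃ γ, α = algebraMap (MvPolynomial (Fin 2) k) R (MvPolynomial.X 0) * γ := by
  classical
  have hinjK : Function.Injective (algebraMap (MvPolynomial (Fin 2) k) K) :=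
    IsFractionRing.injective _ K
  have hinjRL : Function.Injective (algebraMap R L) := IsFractionRing.injective R L
  have hne : ∀ j, algebraMap (MvPolynomial (Fin 2) k) L (MvPolynomial.X j) ≠ 0 := by
    intro j h0
    rw [IsScalarTower.algebraMap_apply (MvPolynomial (Fin 2) k) K L] at h0
    have h1 : algebraMap (MvPolynomial (Fin 2) k) K (MvPolynomial.X j) = 0 :=
      (algebraMap K L).injective (by simpa using h0)
    have h2 : (MvPolynomial.X j : MvPolynomial (Fin 2) k) = 0 := hinjK (by simpa using h1)
    exact MvPolynomial.X_ne_zero _ h2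
  let ξ : L := algebraMap R L α * (algebraMap (MvPolynomial (Fin 2) k) L (MvPolynomial.X 0))⁻¹
  have h1 : algebraMap (MvPolynomial (Fin 2) k) L (MvPolynomial.X 0) * ξ = algebraMap R L α := by
    simp only [ξ]
    field_simp [hne 0]
  have h2 : algebraMap (MvPolynomial (Fin 2) k) L (MvPolynomial.X 1) * ξ = algebraMap R L β := by
    have h3 : algebraMap (MvPolynomial (Fin 2) k) L (MvPolynomial.X 1) * algebraMap R L α =
        algebraMap (MvPolynomial (Fin 2) k) L (MvPolynomial.X 0) * algebraMap R L β := by
      have := congrArg (algebraMap R L) h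
      rw [map_mul, map_mul, ← IsScalarTower.algebraMap_apply, ← IsScalarTower.algebraMap_apply]
        at this
      exact this
    simp only [ξ]
    field_simp [hne 0]
    linear_combination h3
  have hI : ∀ r : R, IsIntegral (MvPolynomial (Fin 2) k) (algebraMap R L r) := fun r =>
    (hint.isIntegral r).map (IsScalarTower.toAlgHom (MvPolynomial (Fin 2) k) R L)
  have hξK : IsIntegral K ξ := by
    have h3 : IsIntegral K (algebraMap R L α) := (hI α).tower_top
    have h4 : ξ = (algebraMap (MvPolynomial (Fin 2) k) K (MvPolynomial.X 0))⁻¹ • algebraMap R L α := by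
      rw [Algebra.smul_def, map_inv₀, ← IsScalarTower.algebraMap_apply]
      simp only [ξ]
      ring
    rw [h4]
    exact h3.smul _
  have hξ : IsIntegral (MvPolynomial (Fin 2) k) ξ :=
    integral_of_two (K := K) (MvPolynomial.X 0) (MvPolynomial.X 1) (MvPolynomial.X_ne_zero _)
      (MvPolynomial.X_ne_zero _) (fun c e a b => coprime_X (k := k) c e a b) ξ hξK
      (by rw [h1]; exact hI α) (by rw [h2]; exact hI β)
  have hξR : IsIntegral R ξ := hξ.tower_top
  obtain ⟨γ, hγ⟩ := IsIntegrallyClosed.isIntegral_iff.mp hξR
  refine ⟨γ, hinjRL ?_⟩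
  rw [map_mul, ← IsScalarTower.algebraMap_apply, hγ, h1]

attribute [local instance] FractionRing.liftAlgebra in
/-- The variables form a regular sequence on a normal integral extension. -/
theorem regular_X (hint : Algebra.IsIntegral (MvPolynomial (Fin 2) k) R)
    (hinj : Function.Injective (algebraMap (MvPolynomial (Fin 2) k) R))
    (α β : R)
    (h : algebraMap (MvPolynomial (Fin 2) k) R (MvPolynomial.X 1) * α =
      algebraMap (MvPolynomial (Fin 2) k) R (MvPolynomial.X 0) * β) :
    ∃ γ, α = algebraMap (MvPolynomial (Fin 2) k) R (MvPolynomial.X 0) * γ := by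
  haveI : FaithfulSMul (MvPolynomial (Fin 2) k) R := (faithfulSMul_iff_algebraMap_injective _ _).mpr hinj
  haveI : FaithfulSMul (MvPolynomial (Fin 2) k) (FractionRing R) :=
    (faithfulSMul_iff_algebraMap_injective _ _).mpr (by
      rw [IsScalarTower.algebraMap_eq (MvPolynomial (Fin 2) k) R (FractionRing R)]
      exact (IsFractionRing.injective R (FractionRing R)).comp hinj)
  exact regular_X_aux (FractionRing (MvPolynomial (Fin 2) k)) (FractionRing R) hint α β h

end RS

end Vale.Agent.Lib.P266
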