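import Vale.Agent.Lib.P266.Local

set_option linter.unusedSectionVars false
set_option linter.unusedSimpArgs false

open IsLocalRing

namespace Vale.Agent.Lib.P266

lemma isDVR_localization {S R₀ : Type*} [CommRing S] [IsDomain S] [IsNoetherianRing S] [CommRing R₀]
    [IsDomain R₀] [Algebra S R₀] (g : S) (hg : Prime g) [(Ideal.span {g}).IsPrime]
    [IsLocalization.AtPrime R₀ (Ideal.span {g})] : IsDiscreteValuationRing R₀ := by
  have hl : IsLocalRing R₀ := IsLocalization.AtPrime.isLocalRing R₀ (Ideal.span {g})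
  have hn : IsNoetherianRing R₀ := IsLocalization.isNoetherianRing (Ideal.span {g}).primeCompl R₀
    inferInstance
  have hmax : maximalIdeal R₀ = Ideal.span {algebraMap S R₀ g} := by
    rw [← IsLocalization.AtPrime.map_eq_maximalIdeal (Ideal.span {g}) R₀, Ideal.map_span,
      Set.image_singleton]
  have hle : (Ideal.span {g}).primeCompl ≤ nonZeroDivisors S :=
    Ideal.primeCompl_le_nonZeroDivisors _
  have hinj : Function.Injective (algebraMap S R₀) := IsLocalization.injective R₀ hle
  have hgne : algebraMap S R₀ g ≠ 0 := by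
    intro h
    exact hg.ne_zero (hinj (by simpa using h))
  have hbot : maximalIdeal R₀ ≠ ⊥ := by
    rw [hmax]
    simpa using hgne
  have hnf : ¬IsField R₀ := by
    intro hf
    exact hbot (IsLocalRing.isField_iff_maximalIdeal_eq.mp hf)
  have htfae := tfae_of_isNoetherianRing_of_isLocalRing_of_isDomain R₀
  have hprin : (maximalIdeal R₀).IsPrincipal := ⟨⟨_, hmax⟩⟩
  have hpid : IsPrincipalIdealRing R₀ := (htfae.out 0 4).mpr hprin
  exact { not_a_field' := hbot }

open MvPolynomial in
lemma exists_pderiv_not_mem {k σ : Type*} [Field k] [CharZero k] [Fintype σ] [DecidableEq σ]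
    (g : MvPolynomial σ k) (hg0 : g ≠ 0) (hgu : ¬ IsUnit g) :
    ∃ i, pderiv i g ∉ Ideal.span {g} := by
  classical
  -- `g` is not constant
  have htd : g.totalDegree ≠ 0 := by
    intro h
    have h1 := (totalDegree_eq_zero_iff_eq_C).mp h
    apply hgu
    rw [h1]
    have hc : coeff 0 g ≠ 0 := by
      intro hc
      rw [hc, map_zero] at h1
      exact hg0 h1
    exact (isUnit_iff_ne_zero.mpr hc).map C
  obtain ⟨m, hm, hmd⟩ : ∃ m ∈ g.support, m.sum (fun _ e => e) ≠ 0 := by
    by_contra hcon
    push Not at hcon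
    apply htd
    unfold totalDegree
    apply le_antisymm _ (Nat.zero_le _)
    apply Finset.sup_le
    intro m hm
    exact (hcon m hm).le
  obtain ⟨i, hi⟩ : ∃ i, m i ≠ 0 := by
    by_contra hcon
    push Not at hcon
    apply hmd
    have : m = 0 := by ext i; simpa using hcon i
    simp [this]
  have hnpos : degreeOf i g ≠ 0 := by
    have : m i ≤ degreeOf i g := monomial_le_degreeOf i hm
    omega
  obtain ⟨m0, hm0, hm0n⟩ : ∃ m0 ∈ g.support, m0 i = degreeOf i g := by
    rw [degreeOf_eq_sup]
    have hne : g.support.Nonempty := ⟨m, hm⟩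
    obtain ⟨m0, hm0, h⟩ := Finset.exists_mem_eq_sup g.support hne (fun m => m i)
    exact ⟨m0, hm0, h.symm⟩
  refine ⟨i, ?_⟩
  intro hmem
  rw [Ideal.mem_span_singleton'] at hmem
  obtain ⟨h, hh⟩ := hmem
  have hm1 : (m0 - Finsupp.single i 1) + Finsupp.single i 1 = m0 := by
    ext j
    by_cases hj : j = i
    · subst hj
      simp only [Finsupp.coe_add, Finsupp.coe_tsub, Pi.add_apply, Pi.sub_apply,
        Finsupp.single_eq_same]
      omega
    · simp [Finsupp.single_eq_of_ne hj]
  have hne : pderiv i g ≠ 0 := by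
    intro h0
    have h1 := coeff_pderiv (i := i) g (m0 - Finsupp.single i 1)
    rw [h0, coeff_zero, hm1] at h1
    have hc : coeff m0 g ≠ 0 := mem_support_iff.mp hm0
    have hk : ((((m0 - Finsupp.single i 1 : σ →₀ ℕ) i : ℕ) : k) + 1) ≠ 0 := by
      exact Nat.cast_add_one_ne_zero _
    exact (mul_ne_zero hc hk) h1.symm
  have hh0 : h ≠ 0 := by
    rintro rfl
    apply hne
    rw [← hh, zero_mul]
  have hdeg : degreeOf i (pderiv i g) = degreeOf i g + degreeOf i h := by
    rw [← hh, mul_comm, degreeOf_mul_eq hg0 hh0]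
  have hle : degreeOf i (pderiv i g) ≤ degreeOf i g - 1 := by
    rw [degreeOf_le_iff]
    intro m' hm'
    have h2 := coeff_pderiv (i := i) g m'
    have h3 : coeff (m' + Finsupp.single i 1) g ≠ 0 := by
      intro h0
      rw [h0, zero_mul] at h2
      exact (mem_support_iff.mp hm') h2
    have h4 := monomial_le_degreeOf i (mem_support_iff.mpr h3)
    simp only [Finsupp.coe_add, Pi.add_apply, Finsupp.single_eq_same] at h4
    omega
  omega

end Vale.Agent.Lib.P266
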