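import Vale.Agent.Lib.P266.GradedDer

/-!
Structure of a graded algebra whose Euler derivation has coefficients in the irrelevant ideal.
-/

set_option linter.unusedSectionVars false
set_option linter.unusedSimpArgs false
set_option linter.unusedVariables false

open DirectSum

namespace Vale.Agent.Lib.P266

section Structure

variable {k A : Type*} [Field k] [CharZero k] [CommRing A] [IsDomain A] [Algebra k A]
  (𝒜 : ℕ → Submodule k A) [GradedAlgebra 𝒜]

/-- The degree zero part as a ring homomorphism. -/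
noncomputable abbrev proj0 : A →+* A := GradedRing.projZeroRingHom 𝒜

/-- The ideal of elements with vanishing degree zero part. -/
noncomputable abbrev irr : Ideal A := RingHom.ker (proj0 𝒜)

lemma proj0_apply (a : A) : proj0 𝒜 a = (decompose 𝒜 a 0 : A) := rfl

lemma proj0_mem (a : A) : proj0 𝒜 a ∈ 𝒜 0 := SetLike.coe_mem _

lemma proj0_of_mem {a : A} (ha : a ∈ 𝒜 0) : proj0 𝒜 a = a := decompose_of_mem_same 𝒜 ha

lemma sub_proj0_mem (a : A) : a - proj0 𝒜 a ∈ irr 𝒜 := by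
  rw [RingHom.mem_ker, map_sub, proj0_of_mem 𝒜 (proj0_mem 𝒜 a), sub_self]

lemma mem_irr_of_mem {n : ℕ} (hn : n ≠ 0) {x : A} (hx : x ∈ 𝒜 n) : x ∈ irr 𝒜 := by
  rw [RingHom.mem_ker, proj0_apply, decompose_of_mem_ne 𝒜 hx hn]

lemma sub_proj0_mem_span (G : Finset A) (hG : Algebra.adjoin (𝒜 0) (G : Set A) = ⊤)
    (hpos : ∀ x ∈ G, ∃ n, n ≠ 0 ∧ x ∈ 𝒜 n) (a : A) : a - proj0 𝒜 a ∈ Ideal.span (G : Set A) := by
  have ha : a ∈ Algebra.adjoin (𝒜 0) (G : Set A) := by rw [hG]; trivial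
  induction ha using Algebra.adjoin_induction with
  | mem x hx =>
    obtain ⟨n, hn, hxn⟩ := hpos x hx
    have : proj0 𝒜 x = 0 := mem_irr_of_mem 𝒜 hn hxn
    rw [this, sub_zero]
    exact Ideal.subset_span hx
  | algebraMap r =>
    have h1 : (algebraMap (𝒜 0) A r) ∈ 𝒜 0 := r.2
    rw [proj0_of_mem 𝒜 h1, sub_self]
    exact Ideal.zero_mem _
  | add x y _ _ hx hy =>
    have : x + y - proj0 𝒜 (x + y) = (x - proj0 𝒜 x) + (y - proj0 𝒜 y) := by
      rw [map_add]; ring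
    rw [this]
    exact add_mem hx hy
  | mul x y _ _ hx hy =>
    have : x * y - proj0 𝒜 (x * y) =
        y * (x - proj0 𝒜 x) + proj0 𝒜 x * (y - proj0 𝒜 y) := by
      rw [map_mul]; ring
    rw [this]
    exact add_mem (Ideal.mul_mem_left _ _ hx) (Ideal.mul_mem_left _ _ hy)

/-- A finite set generating the irrelevant ideal after inverting an element of degree zero outside
a given ideal. -/
def GoodSet (P : Ideal A) (X : Finset A) : Prop :=
  ∃ u, u ∈ 𝒜 0 ∧ u ∉ P ∧ ∀ j, j ∈ irr 𝒜 → u * j ∈ Ideal.span (X : Set A)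

variable {κ₀ : Type*} [Fintype κ₀] [DecidableEq A]

theorem indep_of_minimal (P : Ideal A) [hP : P.IsPrime] (hJ : irr 𝒜 ≤ P)
    (s₀ : A) (hs₀ : s₀ ∉ P) (ξ : κ₀ → A) (hξ : ∀ l, ξ l ∈ irr 𝒜)
    (D : κ₀ → Derivation k A A) (h : s₀ • euler 𝒜 = ∑ l, ξ l • D l)
    (X : Finset A) (hXhom : ∀ x ∈ X, ∃ n, n ≠ 0 ∧ x ∈ 𝒜 n)
    (hgood : GoodSet 𝒜 P X) (hmin : ∀ x0 ∈ X, ¬ GoodSet 𝒜 P (X.erase x0))
    (c : A → A) (hc : ∀ l, ∑ x ∈ X, c x * D l x ∈ P) (x0 : A) (hx0 : x0 ∈ X) : c x0 ∈ P := by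
  by_contra hc0
  let b : A → A := fun x => proj0 𝒜 (c x)
  have hb0 : ∀ x, b x ∈ 𝒜 0 := fun x => proj0_mem 𝒜 _
  have hbmem : ∀ l, ∑ x ∈ X, b x * D l x ∈ P := by
    intro l
    have h1 : ∑ x ∈ X, b x * D l x =
        ∑ x ∈ X, c x * D l x - ∑ x ∈ X, (c x - b x) * D l x := by
      rw [← Finset.sum_sub_distrib]
      apply Finset.sum_congr rfl
      intro x _
      ring
    rw [h1]
    exact sub_mem (hc l) (Ideal.sum_mem _ (fun x _ =>
      Ideal.mul_mem_right _ _ (hJ (sub_proj0_mem 𝒜 _))))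
  have hbx0 : b x0 ∉ P := by
    intro hmem
    apply hc0
    have : c x0 = (c x0 - b x0) + b x0 := by ring
    rw [this]
    exact add_mem (hJ (sub_proj0_mem 𝒜 _)) hmem
  choose! δ hδ0 hδ using hXhom
  have hXP : ∀ x ∈ X, x ∈ P := fun x hx => hJ (mem_irr_of_mem 𝒜 (hδ0 x hx) (hδ x hx))
  let ζ : A := ∑ x ∈ X, b x * x
  have hEζ : euler 𝒜 ζ = ∑ x ∈ X, b x * ((δ x : k) • x) := by
    simp only [ζ, map_sum]
    apply Finset.sum_congr rfl
    intro x hx
    rw [Derivation.leibniz, euler_of_mem 𝒜 (hb0 x), euler_of_mem 𝒜 (hδ x hx)]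
    simp
  have hDζ : ∀ l, D l ζ ∈ P := by
    intro l
    have h1 : D l ζ = ∑ x ∈ X, b x * D l x + ∑ x ∈ X, x * D l (b x) := by
      simp only [ζ, map_sum, ← Finset.sum_add_distrib]
      apply Finset.sum_congr rfl
      intro x _
      rw [Derivation.leibniz]
      simp only [smul_eq_mul]
    rw [h1]
    exact add_mem (hbmem l) (Ideal.sum_mem _ (fun x hx => Ideal.mul_mem_right _ _ (hXP x hx)))
  have hmain : s₀ * euler 𝒜 ζ = ∑ l, ξ l * D l ζ := by
    have h1 := congrArg (fun E : Derivation k A A => E ζ) h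
    simpa [sum_smul_deriv_apply] using h1
  obtain ⟨u, hu0, huP, hu⟩ := hgood
  have hf : ∀ l, ∃ f : A → A, ∑ x ∈ X, f x * x = u * ξ l := by
    intro l
    have h1 := hu _ (hξ l)
    obtain ⟨f, -, hf⟩ := Submodule.mem_span_finset.mp h1
    exact ⟨f, by simpa using hf⟩
  choose f hf using hf
  let m : A → A := fun x => ∑ l, f l x * D l ζ
  have hm : ∀ x, m x ∈ P := fun x =>
    Ideal.sum_mem _ (fun l _ => Ideal.mul_mem_left _ _ (hDζ l))
  let δ' : A → A := fun x => algebraMap k A (δ x : k)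
  let t : A → A := fun x => u * s₀ * b x * δ' x - m x
  have hzero : ∑ x ∈ X, t x * x = 0 := by
    have h1 : u * (s₀ * euler 𝒜 ζ) = ∑ x ∈ X, u * s₀ * b x * δ' x * x := by
      rw [hEζ, Finset.mul_sum, Finset.mul_sum]
      apply Finset.sum_congr rfl
      intro x _
      rw [Algebra.smul_def]
      ring
    have h2 : u * (∑ l, ξ l * D l ζ) = ∑ x ∈ X, m x * x := by
      simp only [m, Finset.sum_mul]
      rw [Finset.sum_comm, Finset.mul_sum]
      apply Finset.sum_congr rfl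
      intro l _
      rw [← mul_assoc, ← hf l, Finset.sum_mul]
      apply Finset.sum_congr rfl
      intro x _
      ring
    rw [hmain] at h1
    simp only [t, sub_mul, Finset.sum_sub_distrib]
    rw [← h1, h2, sub_self]
  have hδ'x0 : δ' x0 ∉ P := by
    intro hmem
    have hne : ((δ x0 : ℕ) : k) ≠ 0 := Nat.cast_ne_zero.mpr (hδ0 x0 hx0)
    have hu' : IsUnit (δ' x0) := (isUnit_iff_ne_zero.mpr hne).map (algebraMap k A)
    exact hP.ne_top (Ideal.eq_top_of_isUnit_mem _ hmem hu')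
  have ht0 : t x0 ∉ P := by
    intro hmem
    have h1 : u * s₀ * b x0 * δ' x0 ∈ P := by
      have : u * s₀ * b x0 * δ' x0 = t x0 + m x0 := by simp [t]
      rw [this]
      exact add_mem hmem (hm x0)
    rcases hP.mem_or_mem h1 with h2 | h2
    · rcases hP.mem_or_mem h2 with h3 | h3
      · rcases hP.mem_or_mem h3 with h4 | h4
        · exact huP h4
        · exact hs₀ h4
      · exact hbx0 h3
    · exact hδ'x0 h2
  have hI : t x0 * x0 ∈ Ideal.span ((X.erase x0 : Finset A) : Set A) := by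
    have h1 : t x0 * x0 = - ∑ x ∈ X.erase x0, t x * x := by
      rw [← Finset.add_sum_erase _ _ hx0] at hzero
      exact eq_neg_of_add_eq_zero_left hzero
    rw [h1]
    refine neg_mem (Ideal.sum_mem _ (fun x hx => Ideal.mul_mem_left _ _ (Ideal.subset_span hx)))
  have hhom : (Ideal.span ((X.erase x0 : Finset A) : Set A)).IsHomogeneous 𝒜 :=
    Ideal.homogeneous_span 𝒜 _ (fun x hx => by
      have hx' : x ∈ X := Finset.mem_of_mem_erase (Finset.mem_coe.mp hx)
      exact ⟨δ x, hδ x hx'⟩)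
  have ht₀I : proj0 𝒜 (t x0) * x0 ∈ Ideal.span ((X.erase x0 : Finset A) : Set A) := by
    have h1 := hhom (0 + δ x0) hI
    rwa [coe_decompose_mul_add_of_right_mem 𝒜 (hδ x0 hx0)] at h1
  have ht₀P : proj0 𝒜 (t x0) ∉ P := by
    intro hmem
    apply ht0
    have : t x0 = (t x0 - proj0 𝒜 (t x0)) + proj0 𝒜 (t x0) := by ring
    rw [this]
    exact add_mem (hJ (sub_proj0_mem 𝒜 _)) hmem
  apply hmin x0 hx0
  refine ⟨proj0 𝒜 (t x0) * u, ?_, ?_, ?_⟩
  · have := SetLike.GradedMul.mul_mem (proj0_mem 𝒜 (t x0)) hu0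
    simpa using this
  · intro hmem
    rcases hP.mem_or_mem hmem with h1 | h1
    · exact ht₀P h1
    · exact huP h1
  · intro j hj
    obtain ⟨f', -, hf'⟩ := Submodule.mem_span_finset.mp (hu j hj)
    have h1 : proj0 𝒜 (t x0) * u * j =
        f' x0 * (proj0 𝒜 (t x0) * x0) +
          ∑ x ∈ X.erase x0, proj0 𝒜 (t x0) * f' x * x := by
      rw [mul_assoc, ← hf', Finset.mul_sum, ← Finset.add_sum_erase _ _ hx0]
      simp only [smul_eq_mul]
      congr 1
      · ring
      · apply Finset.sum_congr rfl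
        intro x _
        ring
    rw [h1]
    exact add_mem (Ideal.mul_mem_left _ _ ht₀I)
      (Ideal.sum_mem _ (fun x hx => Ideal.mul_mem_left _ _ (Ideal.subset_span hx)))

end Structure

end Vale.Agent.Lib.P266
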