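import Vale.Agent.Lib.P266.LinAlg

/-!
Structure theorem from the Euler relation.
-/

set_option linter.unusedSectionVars false
set_option linter.unusedSimpArgs false
set_option linter.unusedVariables false

open DirectSum

namespace Vale.Agent.Lib.P266

section Structure2

variable {k A : Type*} [Field k] [CharZero k] [CommRing A] [IsDomain A] [Algebra k A]
  (𝒜 : ℕ → Submodule k A) [GradedAlgebra 𝒜]

/-- Elements that become part of the subalgebra after multiplication by a power of `u`. -/
lemma pow_mul_mem_add (B' : Subalgebra (𝒜 0) A) (u : A) (hu : u ∈ B') {a b : A}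
    (ha : ∃ N, u ^ N * a ∈ B') (hb : ∃ N, u ^ N * b ∈ B') : ∃ N, u ^ N * (a + b) ∈ B' := by
  obtain ⟨n, hn⟩ := ha
  obtain ⟨m, hm⟩ := hb
  refine ⟨n + m, ?_⟩
  have : u ^ (n + m) * (a + b) = u ^ m * (u ^ n * a) + u ^ n * (u ^ m * b) := by ring
  rw [this]
  exact B'.add_mem (B'.mul_mem (B'.pow_mem hu m) hn) (B'.mul_mem (B'.pow_mem hu n) hm)

lemma pow_mul_mem_sum {ι : Type*} (B' : Subalgebra (𝒜 0) A) (u : A) (hu : u ∈ B') (s : Finset ι)
    (y : ι → A) (h : ∀ i ∈ s, ∃ N, u ^ N * y i ∈ B') : ∃ N, u ^ N * ∑ i ∈ s, y i ∈ B' := by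
  classical
  induction s using Finset.induction_on with
  | empty => exact ⟨0, by simp [B'.zero_mem]⟩
  | insert a s ha ih =>
    rw [Finset.sum_insert ha]
    exact pow_mul_mem_add 𝒜 B' u hu (h a (Finset.mem_insert_self _ _))
      (ih (fun i hi => h i (Finset.mem_insert_of_mem hi)))

/-- Generation of `A` by `X` after inverting `u`. -/
theorem generation_of_good (X : Finset A) (δ : A → ℕ) (hδ0 : ∀ x ∈ X, δ x ≠ 0)
    (hδ : ∀ x ∈ X, x ∈ 𝒜 (δ x)) (u : A) (hu0 : u ∈ 𝒜 0)
    (hu : ∀ j, j ∈ irr 𝒜 → u * j ∈ Ideal.span (X : Set A)) (a : A) :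
    ∃ N, u ^ N * a ∈ Algebra.adjoin (𝒜 0) (X : Set A) := by
  classical
  set B' := Algebra.adjoin (𝒜 0) (X : Set A) with hB'
  have huB : u ∈ B' := Subalgebra.algebraMap_mem B' (⟨u, hu0⟩ : 𝒜 0)
  have hXB : ∀ x ∈ X, x ∈ B' := fun x hx => Algebra.subset_adjoin hx
  have key : ∀ d : ℕ, ∀ a ∈ 𝒜 d, ∃ N, u ^ N * a ∈ B' := by
    intro d
    induction d using Nat.strong_induction_on with
    | _ d ih =>
      intro a ha
      by_cases hd : d = 0
      · subst hd
        refine ⟨0, ?_⟩
        rw [pow_zero, one_mul]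
        exact Subalgebra.algebraMap_mem B' (⟨a, ha⟩ : 𝒜 0)
      · have hmem := hu a (mem_irr_of_mem 𝒜 hd ha)
        obtain ⟨f, -, hf⟩ := Submodule.mem_span_finset.mp hmem
        have hua : u * a ∈ 𝒜 d := by
          have := SetLike.GradedMul.mul_mem hu0 ha
          simpa using this
        have h1 : u * a = ∑ x ∈ X, (decompose 𝒜 (f x * x) d : A) := by
          have h2 : (decompose 𝒜 (u * a) d : A) = u * a := decompose_of_mem_same 𝒜 hua
          rw [← h2, ← hf]
          exact map_sum (GradedRing.proj 𝒜 d) _ _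
        have h3 : ∀ x ∈ X, ∃ N, u ^ N * (decompose 𝒜 (f x * x) d : A) ∈ B' := by
          intro x hx
          by_cases hle : δ x ≤ d
          · rw [coe_decompose_mul_of_right_mem_of_le 𝒜 (hδ x hx) hle]
            have hlt : d - δ x < d := by
              have := hδ0 x hx
              omega
            obtain ⟨N, hN⟩ := ih _ hlt _ (SetLike.coe_mem (decompose 𝒜 (f x) (d - δ x)))
            refine ⟨N, ?_⟩
            rw [← mul_assoc]
            exact B'.mul_mem hN (hXB x hx)
          · rw [coe_decompose_mul_of_right_mem_of_not_le 𝒜 (hδ x hx) hle]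
            exact ⟨0, by simp [B'.zero_mem]⟩
        obtain ⟨N, hN⟩ := pow_mul_mem_sum 𝒜 B' u huB X _ h3
        refine ⟨N + 1, ?_⟩
        rw [← h1] at hN
        have : u ^ (N + 1) * a = u ^ N * (u * a) := by ring
        rw [this]
        exact hN
  rw [← DirectSum.sum_support_decompose 𝒜 a]
  exact pow_mul_mem_sum 𝒜 B' u huB _ _ (fun d _ => key d _ (SetLike.coe_mem _))

variable {κ₀ : Type*} [Fintype κ₀]

/-- Structure theorem: if a multiple of the Euler derivation outside `P` has coefficients in the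
irrelevant ideal, then `A` is a polynomial ring over the degree zero part, after inverting an
element of degree zero outside `P`. -/
theorem structure_of_euler [Algebra.FiniteType (𝒜 0) A] (P : Ideal A) [hP : P.IsPrime]
    (hJ : irr 𝒜 ≤ P) (s₀ : A) (hs₀ : s₀ ∉ P) (ξ : κ₀ → A) (hξ : ∀ l, ξ l ∈ irr 𝒜)
    (D : κ₀ → Derivation k A A) (h : s₀ • euler 𝒜 = ∑ l, ξ l • D l) :
    ∃ X : Finset A, (∀ x ∈ X, ∃ n, n ≠ 0 ∧ x ∈ 𝒜 n) ∧
      AlgebraicIndependent (𝒜 0) (fun x : X => (x : A)) ∧
      ∃ u, u ∈ 𝒜 0 ∧ u ∉ P ∧ ∀ a, ∃ N, u ^ N * a ∈ Algebra.adjoin (𝒜 0) (X : Set A) := by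
  classical
  obtain ⟨G, hG, hGpos⟩ := GradedAlgebra.exists_finset_adjoin_eq_top_and_homogeneous_ne_zero 𝒜
  have hGgood : GoodSet 𝒜 P G := by
    refine ⟨1, SetLike.GradedOne.one_mem, ?_, ?_⟩
    · exact fun h1 => hP.ne_top ((Ideal.eq_top_iff_one _).mpr h1)
    · intro j hj
      have := sub_proj0_mem_span 𝒜 G hG (fun x hx => hGpos x hx) j
      rw [RingHom.mem_ker.mp hj, sub_zero] at this
      rwa [one_mul]
  let S := G.powerset.filter (GoodSet 𝒜 P)
  have hSne : S.Nonempty := ⟨G, Finset.mem_filter.mpr ⟨Finset.mem_powerset.mpr subset_rfl, hGgood⟩⟩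
  obtain ⟨X, hXS, hXmin⟩ := Finset.exists_min_image S Finset.card hSne
  obtain ⟨hXG, hXgood⟩ := Finset.mem_filter.mp hXS
  have hXG' : X ⊆ G := Finset.mem_powerset.mp hXG
  have hXhom : ∀ x ∈ X, ∃ n, n ≠ 0 ∧ x ∈ 𝒜 n := fun x hx => hGpos x (hXG' hx)
  have hmin : ∀ x0 ∈ X, ¬ GoodSet 𝒜 P (X.erase x0) := by
    intro x0 hx0 hgood
    have h1 : X.erase x0 ∈ S := Finset.mem_filter.mpr
      ⟨Finset.mem_powerset.mpr ((Finset.erase_subset _ _).trans hXG'), hgood⟩
    have h2 := hXmin _ h1
    have h3 := Finset.card_erase_lt_of_mem hx0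
    omega
  have hind := indep_of_minimal 𝒜 P hJ s₀ hs₀ ξ hξ D h X hXhom hXgood hmin
  have hind' : ∀ c : X → A, (∀ l, ∑ x, c x * D l (x : A) ∈ P) → ∀ x, c x ∈ P := by
    intro c hc x
    let c' : A → A := fun a => if h : a ∈ X then c ⟨a, h⟩ else 0
    have hc' : ∀ x : X, c' x = c x := by
      intro x
      simp [c', x.2]
    have h1 := hind c' (fun l => by
      rw [← Finset.sum_coe_sort]
      simp only [hc']
      exact hc l) x x.2
    rwa [hc'] at h1
  obtain ⟨a, t, htP, hat⟩ := exists_left_inverse_mod P (fun (l : κ₀) (x : X) => D l (x : A)) hind'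
  choose! δ hδ0 hδ using hXhom
  -- the derivations killing degree zero
  let Dt : X → Derivation k A A := fun x => ∑ l, a x l • negPart 𝒜 (D l)
  have hDt0 : ∀ x b, b ∈ 𝒜 0 → Dt x b = 0 := by
    intro x b hb
    simp only [Dt, sum_smul_deriv_apply]
    apply Finset.sum_eq_zero
    intro l _
    rw [negPart_zero_grade 𝒜 _ hb, mul_zero]
  have hDtmod : ∀ x x' : X, Dt x (x' : A) - (if x = x' then t else 0) ∈ P := by
    intro x x'
    have h1 := hat x x'
    have h2 : Dt x (x' : A) - (if x = x' then t else 0) =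
        (∑ l, a x l * (negPart 𝒜 (D l) (x' : A) - D l (x' : A))) +
          (∑ l, a x l * D l (x' : A) - (if x = x' then t else 0)) := by
      simp only [Dt, sum_smul_deriv_apply, mul_sub, Finset.sum_sub_distrib]
      ring
    rw [h2]
    refine add_mem (Ideal.sum_mem _ (fun l _ => Ideal.mul_mem_left _ _ (hJ ?_))) h1
    rw [RingHom.mem_ker, map_sub, proj0_apply, proj0_apply,
      projZero_negPart 𝒜 (D l) (hδ0 _ x'.2) (hδ _ x'.2), sub_self]
  -- determinant
  let N : Matrix X X A := Matrix.of (fun x x' => Dt x (x' : A))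
  have hdet : N.det ≠ 0 := by
    intro h0
    have hmap : (N.map (Ideal.Quotient.mk P)) =
        (Ideal.Quotient.mk P t) • (1 : Matrix X X (A ⧸ P)) := by
      ext x x'
      have h1 := Ideal.Quotient.eq_zero_iff_mem.mpr (hDtmod x x')
      rw [map_sub, sub_eq_zero] at h1
      simp only [N, Matrix.map_apply, Matrix.of_apply, Matrix.smul_apply, smul_eq_mul,
        Matrix.one_apply]
      rw [h1]
      by_cases hxx : x = x' <;> simp [hxx]
    have hdet2 : (N.map (Ideal.Quotient.mk P)).det = Ideal.Quotient.mk P N.det := by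
      rw [RingHom.map_det]; rfl
    rw [h0, map_zero, hmap, Matrix.det_smul, Matrix.det_one, mul_one] at hdet2
    have ht0 : Ideal.Quotient.mk P t ≠ 0 := fun h1 => htP (Ideal.Quotient.eq_zero_iff_mem.mp h1)
    exact pow_ne_zero _ ht0 hdet2
  -- base change the derivations to be linear over degree zero
  let Dh : X → Derivation (𝒜 0) A A := fun x =>
    Derivation.mk' { toFun := Dt x
                     map_add' := map_add _
                     map_smul' := by
                       intro b y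
                       show Dt x ((b : A) * y) = (b : A) * Dt x y
                       rw [Derivation.leibniz, hDt0 x _ b.2]
                       simp }
      (fun y z => Derivation.leibniz _ y z)
  have hinj : Function.Injective (algebraMap (𝒜 0) A) := Subtype.val_injective
  have hdom : IsDomain (𝒜 0) := Function.Injective.isDomain (algebraMap (𝒜 0) A) hinj
  have hchar : CharZero (𝒜 0) := by
    have : CharZero A := by
      have hn : Nontrivial A := inferInstance
      exact charZero_of_injective_algebraMap (algebraMap k A).injective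
    exact ⟨fun m n h => Nat.cast_injective (R := A) (by
      simpa using congrArg (algebraMap (𝒜 0) A) h)⟩
  have halg : AlgebraicIndependent (𝒜 0) (fun x : X => (x : A)) :=
    algebraicIndependent_of_jacobian hinj _ Dh hdet
  obtain ⟨u, hu0, huP, hu⟩ := hXgood
  exact ⟨X, fun x hx => ⟨δ x, hδ0 x hx, hδ x hx⟩, halg, u, hu0, huP,
    generation_of_good 𝒜 X δ hδ0 hδ u hu0 hu⟩

end Structure2

end Vale.Agent.Lib.P266
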