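import Vale.Agent.Lib.P266.CoreCut
import Vale.Agent.Lib.P266.TraceQ

/-!
Traces of `b * a / J` with a cut-off `b = u₀ ^ (N + 1)` have no pole along any prime element.
-/

set_option linter.unusedSectionVars false
set_option linter.unusedSimpArgs false
set_option linter.unusedVariables false

open IsLocalRing nonZeroDivisors

namespace Vale.Agent.Lib.P266

section CutRegion

variable {k S A L R₀ : Type*} [Field k] [CommRing S] [IsDomain S]
  [IsNoetherianRing S]
  [CommRing A] [IsDomain A] [IsIntegrallyClosed A]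
  [Field L] [Algebra A L] [IsFractionRing A L]
  [Algebra S A] [Algebra S L] [IsScalarTower S A L]
  [CommRing R₀] [IsDomain R₀] [Algebra S R₀] [Algebra R₀ L] [IsScalarTower S R₀ L]

/-- In the region where `u₀` vanishes, `u₀ ^ (N + 1) / J` is integral at the prime `P`. -/
theorem cut_region {g : S} (hg0 : g ≠ 0) (hd : CoreData g R₀ L A)
    (T₀ : Subalgebra R₀ L) (hT₀ : ∀ t, t ∈ T₀ ↔ IsIntegral R₀ t)
    [IsDedekindDomain T₀] [IsFractionRing T₀ L]
    (P : Ideal T₀) [hP : P.IsMaximal]
    (hgP : (⟨algebraMap S L g, (hT₀ _).mpr (isIntegral_algebraMap_S g)⟩ : T₀) ∈ P)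
    (u₀ : A) (hu0 : u₀ ≠ 0) (J : A) (hJ0 : J ≠ 0) (N : ℕ)
    (hN : ∀ y : A, u₀ ^ (N + 1) * y ∈ Ideal.span {J} → u₀ ^ N * y ∈ Ideal.span {J})
    (hu : (⟨algebraMap A L u₀, (hT₀ _).mpr (hd.hAint u₀)⟩ : T₀) ∈ P) :
    ∃ a' ∈ P, ∃ b', b' ∉ P ∧
      (algebraMap S L g * algebraMap A L (u₀ ^ (N + 1)) / algebraMap A L J) * algebraMap T₀ L b' =
        algebraMap T₀ L a' := by
  classical
  have hPprime := hP.isPrime
  have hPle : P.primeCompl ≤ (T₀)⁰ := Ideal.primeCompl_le_nonZeroDivisors _
  have hPbot : P ≠ ⊥ := by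
    intro h
    rw [h] at hgP
    have h0 : algebraMap S L g = 0 := by
      have := congrArg (Subtype.val) (Ideal.mem_bot.mp hgP)
      simpa using this
    exact hd.hwne g hg0 h0
  let V : Subalgebra T₀ L := Localization.subalgebra.ofField L _ hPle
  have hDVRV : IsDiscreteValuationRing V :=
    IsLocalization.AtPrime.isDiscreteValuationRing_of_dedekind_domain T₀ hPbot V
  have hinjA : Function.Injective (algebraMap A L) := IsFractionRing.injective A L
  set b : A := u₀ ^ (N + 1) with hb
  have hb0 : algebraMap A L b ≠ 0 := by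
    rw [hb, map_pow]
    exact pow_ne_zero _ (by simpa using (map_ne_zero_iff _ hinjA).mpr hu0)
  have hJL : algebraMap A L J ≠ 0 := by simpa using (map_ne_zero_iff _ hinjA).mpr hJ0
  have hfrV : IsFractionRing V L := inferInstance
  have hunitP : ∀ w, w ∉ Ideal.span {g} →
      (⟨algebraMap S L w, (hT₀ _).mpr (isIntegral_algebraMap_S w)⟩ : T₀) ∉ P := by
    intro w hw hmem
    have hw0 : w ≠ 0 := by
      rintro rfl
      exact hw (Ideal.zero_mem _)
    let inv : T₀ := ⟨(algebraMap S L w)⁻¹, (hT₀ _).mpr (hd.hUinv w hw)⟩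
    have h1 : (⟨algebraMap S L w, (hT₀ _).mpr (isIntegral_algebraMap_S w)⟩ : T₀) * inv = 1 := by
      apply Subtype.ext
      exact mul_inv_cancel₀ (hd.hwne w hw0)
    have h2 : (1 : T₀) ∈ P := h1 ▸ P.mul_mem_right _ hmem
    exact hP.ne_top ((Ideal.eq_top_iff_one _).mpr h2)
  rcases ValuationRing.isInteger_or_isInteger V (algebraMap A L J / algebraMap A L b) with hzV | hzV
  · exfalso
    obtain ⟨v, hv⟩ := hzV
    obtain ⟨t, s, hs, hts⟩ := v.2
    obtain ⟨w₁, hw₁, a₁, ha₁⟩ := hd.hTA _ ((hT₀ _).mp t.2)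
    obtain ⟨w₂, hw₂, a₂, ha₂⟩ := hd.hTA _ ((hT₀ _).mp s.2)
    have hs0 : algebraMap T₀ L s ≠ 0 := by
      intro h0
      have : s = 0 := Subtype.ext (by simpa using h0)
      exact hs (this ▸ P.zero_mem)
    have hvz : (v : L) = algebraMap A L J / algebraMap A L b := hv
    have hsL : (s : L) ≠ 0 := hs0
    have h1 : algebraMap A L J * (s : L) = algebraMap A L b * (t : L) := by
      have h0 : (t : L) * (s : L)⁻¹ = algebraMap A L J / algebraMap A L b := by
        have : (v : L) = (t : L) * (s : L)⁻¹ := hts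
        rw [← this, hvz]
      field_simp at h0
      linear_combination -h0
    have hL : algebraMap A L J * (algebraMap A L a₂ * algebraMap S L w₁) =
        algebraMap A L b * (algebraMap A L a₁ * algebraMap S L w₂) := by
      rw [← ha₁, ← ha₂]
      linear_combination (algebraMap S L w₂ * algebraMap S L w₁) * h1
    let X : A := a₁ * algebraMap S A w₂
    let Y : A := a₂ * algebraMap S A w₁
    have hA : J * Y = b * X := by
      apply hinjA
      simp only [X, Y, map_mul]
      rw [← IsScalarTower.algebraMap_apply S A L, ← IsScalarTower.algebraMap_apply S A L]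
      exact hL
    have hmem : u₀ ^ (N + 1) * X ∈ Ideal.span {J} := by
      rw [Ideal.mem_span_singleton]
      exact ⟨Y, hA.symm⟩
    obtain ⟨z₀, hz₀⟩ := Ideal.mem_span_singleton.mp (hN X hmem)
    have hYu : Y = u₀ * z₀ := by
      apply mul_left_cancel₀ hJ0
      rw [hA, hb, pow_succ', mul_assoc, hz₀]
      ring
    let ρA : A →+* T₀ := (algebraMap A L).codRestrict _ (fun a => (hT₀ _).mpr (hd.hAint a))
    have h2 : ρA Y ∈ P := by
      rw [hYu, map_mul]
      exact P.mul_mem_right _ hu
    have h3 : ρA Y = (⟨algebraMap S L w₂, (hT₀ _).mpr (isIntegral_algebraMap_S w₂)⟩ : T₀) * s *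
        (⟨algebraMap S L w₁, (hT₀ _).mpr (isIntegral_algebraMap_S w₁)⟩ : T₀) := by
      apply Subtype.ext
      show algebraMap A L (a₂ * algebraMap S A w₁) = algebraMap S L w₂ *
        (s : L) * algebraMap S L w₁
      rw [map_mul, ← IsScalarTower.algebraMap_apply S A L, ← ha₂]
    rw [h3] at h2
    rcases hPprime.mem_or_mem h2 with h4 | h4
    · rcases hPprime.mem_or_mem h4 with h5 | h5
      · exact hunitP _ hw₂ h5
      · exact hs h5
    · exact hunitP _ hw₁ h4
  · obtain ⟨v, hv⟩ := hzV
    obtain ⟨t, s, hs, hts⟩ := v.2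
    have hs0 : algebraMap T₀ L s ≠ 0 := by
      intro h0
      have : s = 0 := Subtype.ext (by simpa using h0)
      exact hs (this ▸ P.zero_mem)
    have hvz : (v : L) = (algebraMap A L J / algebraMap A L b)⁻¹ := hv
    refine ⟨(⟨algebraMap S L g, (hT₀ _).mpr (isIntegral_algebraMap_S g)⟩ : T₀) * t,
      P.mul_mem_right _ hgP, s, hs, ?_⟩
    have h1 : algebraMap A L b / algebraMap A L J = algebraMap T₀ L t *
        (algebraMap T₀ L s)⁻¹ := by
      have : (v : L) = algebraMap T₀ L t * (algebraMap T₀ L s)⁻¹ := hts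
      rw [← this, hvz, inv_div]
    have h2 : algebraMap T₀ L ((⟨algebraMap S L g, (hT₀ _).mpr (isIntegral_algebraMap_S g)⟩ : T₀) * t) =
        algebraMap S L g * algebraMap T₀ L t := by
      rw [map_mul]
      rfl
    rw [h2, mul_div_assoc, h1]
    field_simp

end CutRegion

section TraceCut

variable {k S A L K σ : Type*} [Field k] [CharZero k] [CommRing S] [IsDomain S]
  [IsNoetherianRing S]
  [CommRing A] [IsDomain A] [Algebra k A] [IsIntegrallyClosed A] [Algebra.FiniteType k A]
  [Field L] [Algebra A L] [IsFractionRing A L] [Algebra k L] [IsScalarTower k A L]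
  [Algebra S A] [Algebra S L] [IsScalarTower S A L]
  [Fintype σ] [DecidableEq σ]
  [Field K] [CharZero K] [Algebra S K] [IsFractionRing S K] [Algebra K L] [IsScalarTower S K L]
  [FiniteDimensional K L]

/-- Local form: data over the localization at `g`. -/
theorem trace_cut_aux (x : σ → S) (pd : σ → S → S)
    (hchain : ∀ (D' : Derivation k L L) (s : S), D' (algebraMap S L s) =
      ∑ j, algebraMap S L (pd j s) * D' (algebraMap S L (x j)))
    (g : S) (hg : Prime g) (i0 : σ) (hi0 : pd i0 g ∉ Ideal.span {g})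
    (D : σ → Derivation k A A)
    (hind : ∀ c : σ → A, ∑ i, c i • D i = 0 → ∀ i, c i = 0)
    (u₀ : A) (hu0 : u₀ ≠ 0) (hsat : ∀ D' : Derivation k A A, ∃ c : σ → A, u₀ • D' = ∑ i, c i • D i)
    (N : ℕ) (hN : ∀ y : A, u₀ ^ (N + 1) * y ∈ Ideal.span {jacOf x D} →
      u₀ ^ N * y ∈ Ideal.span {jacOf x D})
    (hJ : jacOf x D ≠ 0)
    (R₀ : Subalgebra S K) [(Ideal.span {g}).IsPrime] [IsLocalization.AtPrime R₀ (Ideal.span {g})]
    [IsScalarTower S R₀ L] [IsDiscreteValuationRing R₀]
    (hd : CoreData g R₀ L A) (a : A) :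
    ∃ r ∈ maximalIdeal R₀, algebraMap R₀ K r = Algebra.trace K L
      (algebraMap S L g * algebraMap A L (u₀ ^ (N + 1)) / algebraMap A L (jacOf x D) *
        algebraMap A L a) := by
  classical
  have hDed : IsDedekindDomain (integralClosure R₀ L) := integralClosure.isDedekindDomain R₀ K L
  have hfrT : IsFractionRing (integralClosure R₀ L) L :=
    integralClosure.isFractionRing_of_finite_extension K L
  have hT₀ : ∀ t, t ∈ integralClosure R₀ L ↔ IsIntegral R₀ t := fun t => Iff.rfl
  have hmaxR : maximalIdeal R₀ = Ideal.span {algebraMap S R₀ g} := by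
    rw [← IsLocalization.AtPrime.map_eq_maximalIdeal (Ideal.span {g}) R₀, Ideal.map_span,
      Set.image_singleton]
  let gT : integralClosure R₀ L := ⟨algebraMap S L g, (hT₀ _).mpr (isIntegral_algebraMap_S g)⟩
  have hgP : ∀ (P : Ideal (integralClosure R₀ L)), P.IsMaximal → gT ∈ P := by
    intro P hP
    have hc : (P.comap (algebraMap R₀ (integralClosure R₀ L))).IsMaximal :=
      Ideal.isMaximal_comap_of_isIntegral_of_isMaximal P
    have hc2 : P.comap (algebraMap R₀ (integralClosure R₀ L)) = maximalIdeal R₀ :=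
      IsLocalRing.eq_maximalIdeal hc
    have hg' : algebraMap S R₀ g ∈ P.comap (algebraMap R₀ (integralClosure R₀ L)) := by
      rw [hc2, hmaxR]
      exact Ideal.mem_span_singleton_self _
    have heq : gT = algebraMap R₀ (integralClosure R₀ L) (algebraMap S R₀ g) := by
      apply Subtype.ext
      exact IsScalarTower.algebraMap_apply S R₀ L g
    rw [heq]
    exact hg'
  have hloc : ∀ (P : Ideal (integralClosure R₀ L)), P.IsMaximal →
      ∃ a' ∈ P, ∃ b', b' ∉ P ∧
        (algebraMap S L g * algebraMap A L (u₀ ^ (N + 1)) / algebraMap A L (jacOf x D)) *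
          algebraMap (integralClosure R₀ L) L b' = algebraMap (integralClosure R₀ L) L a' := by
    intro P hP
    by_cases hu : (⟨algebraMap A L u₀, (hT₀ _).mpr (hd.hAint u₀)⟩ : integralClosure R₀ L) ∈ P
    · exact cut_region hg.ne_zero hd (integralClosure R₀ L) hT₀ P (hgP P hP) u₀ hu0 _ hJ N hN hu
    · obtain ⟨-, a', ha', b', hb', h⟩ := core_local_cut hg.ne_zero hd x pd hchain i0 hi0 D hind u₀ hsat
        (integralClosure R₀ L) hT₀ P (hgP P hP) hu
      refine ⟨(⟨algebraMap A L (u₀ ^ (N + 1)), (hT₀ _).mpr (hd.hAint _)⟩ : integralClosure R₀ L) * a',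
        P.mul_mem_left _ ha', b', hb', ?_⟩
      have h1 : algebraMap (integralClosure R₀ L) L
          ((⟨algebraMap A L (u₀ ^ (N + 1)), (hT₀ _).mpr (hd.hAint _)⟩ : integralClosure R₀ L) * a') =
          algebraMap A L (u₀ ^ (N + 1)) * algebraMap (integralClosure R₀ L) L a' := by
        rw [map_mul]
        rfl
      rw [h1, ← h]
      ring
  have hne : maximalIdeal R₀ ≠ ⊥ := IsDiscreteValuationRing.not_a_field R₀
  have hMod : Module.Finite R₀ (integralClosure R₀ L) := IsIntegralClosure.finite R₀ K L _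
  have hIC : IsIntegrallyClosed (integralClosure R₀ L) :=
    integralClosure.isIntegrallyClosedOfFiniteExtension K
  obtain ⟨r, hr, hrt⟩ := trace_mem_of_forall_local R₀ K L (integralClosure R₀ L)
    (maximalIdeal R₀) hne _ (fun P hP => hloc P hP) ⟨algebraMap A L a, hd.hAint a⟩
  exact ⟨r, hr, hrt⟩

theorem trace_cut_mem (x : σ → S) (pd : σ → S → S)
    (hchain : ∀ (D' : Derivation k L L) (s : S), D' (algebraMap S L s) =
      ∑ j, algebraMap S L (pd j s) * D' (algebraMap S L (x j)))
    (g : S) (hg : Prime g) (i0 : σ) (hi0 : pd i0 g ∉ Ideal.span {g})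
    (D : σ → Derivation k A A)
    (hind : ∀ c : σ → A, ∑ i, c i • D i = 0 → ∀ i, c i = 0)
    (u₀ : A) (hu0 : u₀ ≠ 0) (hsat : ∀ D' : Derivation k A A, ∃ c : σ → A, u₀ • D' = ∑ i, c i • D i)
    (N : ℕ) (hN : ∀ y : A, u₀ ^ (N + 1) * y ∈ Ideal.span {jacOf x D} →
      u₀ ^ N * y ∈ Ideal.span {jacOf x D})
    (hJ : jacOf x D ≠ 0)
    (hint : ∀ a : A, ∃ w, w ∉ Ideal.span {g} ∧ IsIntegral S (algebraMap S A w * a))
    (a : A) :
    ∃ s w, w ∉ Ideal.span {g} ∧
      algebraMap S K w * Algebra.trace K L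
        (algebraMap A L (u₀ ^ (N + 1)) * algebraMap A L a / algebraMap A L (jacOf x D)) =
        algebraMap S K s := by
  classical
  have hpr : (Ideal.span {g}).IsPrime := (Ideal.span_singleton_prime hg.ne_zero).mpr hg
  have hU : (Ideal.span {g}).primeCompl ≤ S⁰ := Ideal.primeCompl_le_nonZeroDivisors _
  let R₀ := Localization.subalgebra.ofField K _ hU
  have hDVR : IsDiscreteValuationRing R₀ := isDVR_localization g hg
  have hlocR : IsLocalization.AtPrime R₀ (Ideal.span {g}) := inferInstance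
  have hSR : IsScalarTower S R₀ L := IsScalarTower.of_algebraMap_eq (fun s => by
    rw [IsScalarTower.algebraMap_apply S K L]
    rfl)
  have hwne : ∀ w : S, w ≠ 0 → algebraMap S L w ≠ 0 := by
    intro w hw h0
    rw [IsScalarTower.algebraMap_apply S K L] at h0
    have h1 : algebraMap S K w = 0 := (algebraMap K L).injective (by simpa using h0)
    exact hw (IsFractionRing.injective S K (by simpa using h1))
  have hUinv : ∀ w, w ∉ Ideal.span {g} → IsIntegral R₀ ((algebraMap S L w)⁻¹) := by
    intro w hw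
    let r : R₀ := ⟨(algebraMap S K w)⁻¹, ⟨1, w, hw, by simp⟩⟩
    have : algebraMap R₀ L r = (algebraMap S L w)⁻¹ := by
      rw [IsScalarTower.algebraMap_apply S K L, ← map_inv₀]
      rfl
    rw [← this]
    exact isIntegral_algebraMap
  have hAint : ∀ a : A, IsIntegral R₀ (algebraMap A L a) := by
    intro a
    obtain ⟨w, hw, hi⟩ := hint a
    have hw0 : w ≠ 0 := by
      rintro rfl
      exact hw (Ideal.zero_mem _)
    have h1 : IsIntegral S (algebraMap A L (algebraMap S A w * a)) :=
      hi.map (IsScalarTower.toAlgHom S A L)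
    have h2 : IsIntegral R₀ (algebraMap A L (algebraMap S A w * a)) := h1.tower_top
    have h3 : algebraMap A L a =
        (algebraMap S L w)⁻¹ * algebraMap A L (algebraMap S A w * a) := by
      rw [map_mul, ← IsScalarTower.algebraMap_apply S A L]
      have := hwne w hw0
      field_simp
    rw [h3]
    exact (hUinv w hw).mul h2
  have hTA : ∀ t : L, IsIntegral R₀ t → ∃ w, w ∉ Ideal.span {g} ∧ ∃ a : A,
      algebraMap S L w * t = algebraMap A L a := by
    intro t ht
    obtain ⟨m, hm⟩ := IsIntegral.exists_multiple_integral_of_isLocalization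
      (Ideal.span {g}).primeCompl t ht
    have h1 : IsIntegral A (m • t) := hm.tower_top
    obtain ⟨a, ha⟩ := IsIntegrallyClosed.isIntegral_iff.mp h1
    refine ⟨m, m.2, a, ?_⟩
    rw [ha, Submonoid.smul_def, Algebra.smul_def]
  have hd : CoreData g R₀ L A := ⟨hUinv, hwne, hAint, hTA⟩
  obtain ⟨r, hr, hrt⟩ := trace_cut_aux x pd hchain g hg i0 hi0 D hind u₀ hu0 hsat N hN hJ R₀
    hd a
  have hmaxR : maximalIdeal R₀ = Ideal.span {algebraMap S R₀ g} := by
    rw [← IsLocalization.AtPrime.map_eq_maximalIdeal (Ideal.span {g}) R₀, Ideal.map_span,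
      Set.image_singleton]
  rw [hmaxR, Ideal.mem_span_singleton'] at hr
  obtain ⟨r', rfl⟩ := hr
  have htr : Algebra.trace K L (algebraMap S L g * algebraMap A L (u₀ ^ (N + 1)) /
      algebraMap A L (jacOf x D) * algebraMap A L a) =
      algebraMap S K g * Algebra.trace K L (algebraMap A L (u₀ ^ (N + 1)) * algebraMap A L a /
        algebraMap A L (jacOf x D)) := by
    have h1 : algebraMap S L g * algebraMap A L (u₀ ^ (N + 1)) /
        algebraMap A L (jacOf x D) * algebraMap A L a =
        algebraMap S K g • (algebraMap A L (u₀ ^ (N + 1)) * algebraMap A L a /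
          algebraMap A L (jacOf x D)) := by
      rw [Algebra.smul_def, ← IsScalarTower.algebraMap_apply S K L]
      ring
    rw [h1, map_smul, smul_eq_mul]
  rw [htr, map_mul] at hrt
  have hgK : algebraMap S K g ≠ 0 := by
    intro h
    exact hg.ne_zero (IsFractionRing.injective S K (by simpa using h))
  have hr3 : algebraMap R₀ K (algebraMap S R₀ g) = algebraMap S K g := rfl
  rw [hr3, mul_comm] at hrt
  have hcancel := mul_left_cancel₀ hgK hrt
  obtain ⟨s, w, hw, hr'⟩ := r'.2
  refine ⟨s, w, hw, ?_⟩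
  rw [← hcancel]
  show algebraMap S K w * (r' : K) = _
  rw [hr']
  have hw0 : w ≠ 0 := by
    rintro rfl
    exact hw (Ideal.zero_mem _)
  have hwK : algebraMap S K w ≠ 0 := by
    intro h
    exact hw0 (IsFractionRing.injective S K (by simpa using h))
  field_simp

end TraceCut

end Vale.Agent.Lib.P266
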