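import Vale.Agent.Lib.P266.Core

/-!
Traces of `a / J` have no pole along a prime element `g`.
-/

set_option linter.unusedSectionVars false
set_option linter.unusedSimpArgs false
set_option linter.unusedVariables false

open IsLocalRing nonZeroDivisors

namespace Vale.Agent.Lib.P266

section TraceJac

variable {k S A L K σ : Type*} [Field k] [CharZero k] [CommRing S] [IsDomain S]
  [IsNoetherianRing S]
  [CommRing A] [IsDomain A] [Algebra k A] [IsIntegrallyClosed A] [Algebra.FiniteType k A]
  [Field L] [Algebra A L] [IsFractionRing A L] [Algebra k L] [IsScalarTower k A L]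
  [Algebra S A] [Algebra S L] [IsScalarTower S A L]
  [Fintype σ] [DecidableEq σ]
  [Field K] [CharZero K] [Algebra S K] [IsFractionRing S K] [Algebra K L] [IsScalarTower S K L]
  [FiniteDimensional K L]

theorem trace_div_jac_mem (x : σ → S) (pd : σ → S → S)
    (hchain : ∀ (D' : Derivation k L L) (s : S), D' (algebraMap S L s) =
      ∑ j, algebraMap S L (pd j s) * D' (algebraMap S L (x j)))
    (g : S) (hg : Prime g) (i0 : σ) (hi0 : pd i0 g ∉ Ideal.span {g})
    (D : σ → Derivation k A A)
    (hind : ∀ c : σ → A, ∑ i, c i • D i = 0 → ∀ i, c i = 0)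
    (hsat : ∀ P : Ideal A, P.IsPrime → P.comap (algebraMap S A) = Ideal.span {g} →
      ∀ D' : Derivation k A A, ∃ u, u ∉ P ∧ ∃ c : σ → A, u • D' = ∑ i, c i • D i)
    (hint : ∀ a : A, ∃ w, w ∉ Ideal.span {g} ∧ IsIntegral S (algebraMap S A w * a))
    (a : A) :
    algebraMap A L (jacOf x D) ≠ 0 ∧ ∃ s w, w ∉ Ideal.span {g} ∧
      algebraMap S K w * Algebra.trace K L (algebraMap A L a / algebraMap A L (jacOf x D)) =
        algebraMap S K s := by
  classical
  have hpr : (Ideal.span {g}).IsPrime := (Ideal.span_singleton_prime hg.ne_zero).mpr hg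
  have hU : (Ideal.span {g}).primeCompl ≤ S⁰ := Ideal.primeCompl_le_nonZeroDivisors _
  let R₀ := Localization.subalgebra.ofField K _ hU
  have hDVR : IsDiscreteValuationRing R₀ := isDVR_localization g hg
  have hlocR : IsLocalization.AtPrime R₀ (Ideal.span {g}) := inferInstance
  have hSR : IsScalarTower S R₀ L := IsScalarTower.of_algebraMap_eq (fun s => by
    rw [IsScalarTower.algebraMap_apply S K L]
    rfl)
  have hwne : ∀ w : S, w ≠ 0 → algebraMap S L w ≠ 0 := by
    intro w hw h0
    rw [IsScalarTower.algebraMap_apply S K L] at h0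
    have h1 : algebraMap S K w = 0 := (algebraMap K L).injective (by simpa using h0)
    exact hw (IsFractionRing.injective S K (by simpa using h1))
  have hUinv : ∀ w, w ∉ Ideal.span {g} → IsIntegral R₀ ((algebraMap S L w)⁻¹) := by
    intro w hw
    let r : R₀ := ⟨(algebraMap S K w)⁻¹, ⟨1, w, hw, by simp⟩⟩
    have : algebraMap R₀ L r = (algebraMap S L w)⁻¹ := by
      rw [IsScalarTower.algebraMap_apply S K L, ← map_inv₀]
      rfl
    rw [← this]
    exact isIntegral_algebraMap
  have hAint : ∀ a : A, IsIntegral R₀ (algebraMap A L a) := by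
    intro a
    obtain ⟨w, hw, hi⟩ := hint a
    have hw0 : w ≠ 0 := by
      rintro rfl
      exact hw (Ideal.zero_mem _)
    have h1 : IsIntegral S (algebraMap A L (algebraMap S A w * a)) :=
      hi.map (IsScalarTower.toAlgHom S A L)
    have h2 : IsIntegral R₀ (algebraMap A L (algebraMap S A w * a)) := h1.tower_top
    have h3 : algebraMap A L a =
        (algebraMap S L w)⁻¹ * algebraMap A L (algebraMap S A w * a) := by
      rw [map_mul, ← IsScalarTower.algebraMap_apply S A L]
      have := hwne w hw0
      field_simp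
    rw [h3]
    exact (hUinv w hw).mul h2
  have hTA : ∀ t : L, IsIntegral R₀ t → ∃ w, w ∉ Ideal.span {g} ∧ ∃ a : A,
      algebraMap S L w * t = algebraMap A L a := by
    intro t ht
    obtain ⟨m, hm⟩ := IsIntegral.exists_multiple_integral_of_isLocalization
      (Ideal.span {g}).primeCompl t ht
    have h1 : IsIntegral A (m • t) := hm.tower_top
    obtain ⟨a, ha⟩ := IsIntegrallyClosed.isIntegral_iff.mp h1
    refine ⟨m, m.2, a, ?_⟩
    rw [ha, Submonoid.smul_def, Algebra.smul_def]
  have hd : CoreData g R₀ L A := ⟨hUinv, hwne, hAint, hTA⟩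
  have hDed : IsDedekindDomain (integralClosure R₀ L) := integralClosure.isDedekindDomain R₀ K L
  have hfrT : IsFractionRing (integralClosure R₀ L) L :=
    integralClosure.isFractionRing_of_finite_extension K L
  have hT₀ : ∀ t, t ∈ integralClosure R₀ L ↔ IsIntegral R₀ t := fun t => Iff.rfl
  have hmaxR : maximalIdeal R₀ = Ideal.span {algebraMap S R₀ g} := by
    rw [← IsLocalization.AtPrime.map_eq_maximalIdeal (Ideal.span {g}) R₀, Ideal.map_span,
      Set.image_singleton]
  have hgP : ∀ (P : Ideal (integralClosure R₀ L)), P.IsMaximal →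
      (⟨algebraMap S L g, (hT₀ _).mpr (isIntegral_algebraMap_S g)⟩ : integralClosure R₀ L) ∈ P := by
    intro P hP
    have hc : (P.comap (algebraMap R₀ (integralClosure R₀ L))).IsMaximal :=
      Ideal.isMaximal_comap_of_isIntegral_of_isMaximal P
    have hc2 : P.comap (algebraMap R₀ (integralClosure R₀ L)) = maximalIdeal R₀ :=
      IsLocalRing.eq_maximalIdeal hc
    have hg' : algebraMap S R₀ g ∈ P.comap (algebraMap R₀ (integralClosure R₀ L)) := by
      rw [hc2, hmaxR]
      exact Ideal.mem_span_singleton_self _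
    have heq : (⟨algebraMap S L g, (hT₀ _).mpr (isIntegral_algebraMap_S g)⟩ :
        integralClosure R₀ L) = algebraMap R₀ (integralClosure R₀ L) (algebraMap S R₀ g) := by
      apply Subtype.ext
      exact IsScalarTower.algebraMap_apply S R₀ L g
    rw [heq]
    exact hg'
  have hloc := fun (P : Ideal (integralClosure R₀ L)) (hP : P.IsMaximal) =>
    core_local hg.ne_zero hd x pd hchain i0 hi0 D hind hsat (integralClosure R₀ L) hT₀ P
      (hgP P hP)
  obtain ⟨P0, hP0⟩ := Ideal.exists_maximal (integralClosure R₀ L)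
  have hp0 := (hloc P0 hP0).1
  refine ⟨hp0, ?_⟩
  have hne : maximalIdeal R₀ ≠ ⊥ := IsDiscreteValuationRing.not_a_field R₀
  have hMod : Module.Finite R₀ (integralClosure R₀ L) := IsIntegralClosure.finite R₀ K L _
  have hIC : IsIntegrallyClosed (integralClosure R₀ L) :=
    integralClosure.isIntegrallyClosedOfFiniteExtension K
  obtain ⟨r, hr, hrt⟩ := trace_mem_of_forall_local R₀ K L (integralClosure R₀ L)
    (maximalIdeal R₀) hne (algebraMap S L g / algebraMap A L (jacOf x D))
    (fun P hP => (hloc P hP).2) ⟨algebraMap A L a, hAint a⟩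
  rw [hmaxR, Ideal.mem_span_singleton'] at hr
  obtain ⟨r', rfl⟩ := hr
  have htr : Algebra.trace K L (algebraMap S L g / algebraMap A L (jacOf x D) *
      algebraMap (integralClosure R₀ L) L ⟨algebraMap A L a, hAint a⟩) =
      algebraMap S K g * Algebra.trace K L (algebraMap A L a / algebraMap A L (jacOf x D)) := by
    have h1 : algebraMap S L g / algebraMap A L (jacOf x D) *
        algebraMap (integralClosure R₀ L) L ⟨algebraMap A L a, hAint a⟩ =
        algebraMap S K g • (algebraMap A L a / algebraMap A L (jacOf x D)) := by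
      rw [Algebra.smul_def, ← IsScalarTower.algebraMap_apply S K L]
      show algebraMap S L g / _ * algebraMap A L a = _
      ring
    rw [h1, map_smul, smul_eq_mul]
  rw [htr, map_mul] at hrt
  have hgK : algebraMap S K g ≠ 0 := by
    intro h
    exact hg.ne_zero (IsFractionRing.injective S K (by simpa using h))
  have hr2 : algebraMap S R₀ g = ⟨algebraMap S K g, Subalgebra.algebraMap_mem _ g⟩ := rfl
  have hr3 : algebraMap R₀ K (algebraMap S R₀ g) = algebraMap S K g := rfl
  rw [hr3, mul_comm] at hrt
  have hcancel := mul_left_cancel₀ hgK hrt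
  obtain ⟨s, w, hw, hr'⟩ := r'.2
  refine ⟨s, w, hw, ?_⟩
  rw [← hcancel]
  show algebraMap S K w * (r' : K) = _
  rw [hr']
  have hw0 : w ≠ 0 := by
    rintro rfl
    exact hw (Ideal.zero_mem _)
  have hwK : algebraMap S K w ≠ 0 := by
    intro h
    exact hw0 (IsFractionRing.injective S K (by simpa using h))
  field_simp

end TraceJac

end Vale.Agent.Lib.P266
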