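import Vale.Agent.Lib.P266.DVR

/-!
Trace lemma for Dedekind extensions.
-/

set_option linter.unusedSectionVars false
set_option linter.unusedSimpArgs false

namespace Vale.Agent.Lib.P266

open Algebra nonZeroDivisors

section TraceLem

variable (R K L T : Type*) [CommRing R] [IsDedekindDomain R] [Field K] [Algebra R K]
  [IsFractionRing R K] [Field L] [Algebra K L] [FiniteDimensional K L] [Algebra.IsSeparable K L]
  [Algebra R L] [IsScalarTower R K L] [CommRing T] [Algebra R T] [Algebra T L]
  [IsScalarTower R T L] [IsIntegralClosure T R L] [IsDomain T] [IsIntegrallyClosed T]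
  [Module.Finite R T] [Module.IsTorsionFree R T]

lemma intTrace_mem_of_pow_mem (p : Ideal R) [p.IsMaximal] (x : T) (n : ℕ)
    (hx : x ^ n ∈ p.map (algebraMap R T)) : Algebra.intTrace R T x ∈ p := by
  rw [← Ideal.Quotient.eq_zero_iff_mem, ← trace_quotient_eq_of_isDedekindDomain,
    ← isNilpotent_iff_eq_zero]
  refine Algebra.isNilpotent_trace_of_isNilpotent ⟨n, ?_⟩
  rw [← map_pow, Ideal.Quotient.eq_zero_iff_mem]
  exact hx

/-- If `ρ` lies in the maximal ideal of every localization of `T` at a maximal ideal, then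
the trace of `ρ * c`, `c` in `T`, lies in `p`. -/
theorem trace_mem_of_forall_local (p : Ideal R) [p.IsMaximal] (hp0 : p ≠ ⊥) (ρ : L)
    (hρ : ∀ P : Ideal T, P.IsMaximal → ∃ a ∈ P, ∃ b, b ∉ P ∧ ρ * algebraMap T L b = algebraMap T L a)
    (c : T) : ∃ r ∈ p, algebraMap R K r = Algebra.trace K L (ρ * algebraMap T L c) := by
  have hfr : IsFractionRing T L := IsIntegralClosure.isFractionRing_of_finite_extension R K L T
  have hded : IsDedekindDomain T := IsIntegralClosure.isDedekindDomain R K L T
  have hinj : Function.Injective (algebraMap T L) := IsFractionRing.injective T L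
  set x : L := ρ * algebraMap T L c with hx
  have hmem : x ∈ (⨅ v : MaximalSpectrum T, Localization.subalgebra.ofField L _
      v.asIdeal.primeCompl_le_nonZeroDivisors) := by
    rw [Algebra.mem_iInf]
    intro v
    obtain ⟨a, ha, b, hb, h⟩ := hρ v.asIdeal v.isMaximal
    have hb0 : algebraMap T L b ≠ 0 := by
      intro h0
      have : b = 0 := hinj (by simpa using h0)
      exact hb (this ▸ v.asIdeal.zero_mem)
    refine ⟨a * c, b, hb, ?_⟩
    rw [hx, map_mul, ← h]
    field_simp
  rw [MaximalSpectrum.iInf_localization_eq_bot, Algebra.mem_bot] at hmem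
  obtain ⟨t, ht⟩ := hmem
  have htmax : ∀ P : Ideal T, P.IsMaximal → t ∈ P := by
    intro P hP
    obtain ⟨a, ha, b, hb, h⟩ := hρ P hP
    have h1 : t * b = a * c := by
      apply hinj
      rw [map_mul, map_mul, ← h]
      show algebraMap T L t * _ = _
      rw [ht, hx]
      ring
    have h2 : t * b ∈ P := by
      rw [h1]; exact P.mul_mem_right _ ha
    exact (hP.isPrime.mem_or_mem h2).resolve_right hb
  have hmap0 : p.map (algebraMap R T) ≠ ⊥ := by
    intro h
    rw [Ideal.map_eq_bot_iff_of_injective (FaithfulSMul.algebraMap_injective R T)] at h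
    exact hp0 h
  have hrad : t ∈ (p.map (algebraMap R T)).radical := by
    rw [Ideal.radical_eq_sInf, Ideal.mem_sInf]
    rintro J ⟨hJ1, hJ2⟩
    have hJ0 : J ≠ ⊥ := by
      intro h
      rw [h] at hJ1
      exact hmap0 (le_bot_iff.mp hJ1)
    exact htmax J (Ring.DimensionLEOne.maximalOfPrime hJ0 hJ2)
  obtain ⟨n, hn⟩ := hrad
  refine ⟨Algebra.intTrace R T t, intTrace_mem_of_pow_mem R T p t n hn, ?_⟩
  rw [Algebra.algebraMap_intTrace (K := K) (L := L)]
  congr 1

end TraceLem

end Vale.Agent.Lib.P266
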